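import Vale.Agent.Lib.P335.BasicAvg

/-!
# P335 (general degree vectors): the abstract form of the inequality (F1)

Two equivalence relations `r1`, `r2` on a finite set `Ω`, a subset `S` and an involution `τ`.
`cE Ω r1`, `cE Ω r2` do not commute, but they commute with the averages over the classes cut in
two by `S`.
-/

namespace Vale.Agent.Lib.P335
open Finset

set_option linter.unusedSectionVars false

section AbsF1
variable {α : Type} [DecidableEq α] (Ω : Finset α)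

/-- two class averages agree when the classes are matched by a bijection along which `g` is
constant -/
theorem cE_eq_of_bij (r : α → α → Prop) [DecidableRel r] (g : α → ℝ) (x x' : α) (ψ : α → α)
    (hψ : Set.BijOn ψ (fib Ω r x) (fib Ω r x')) (hg : ∀ y ∈ fib Ω r x, g (ψ y) = g y) :
    cE Ω r g x = cE Ω r g x' := by
  unfold cE
  have h1 : ∑ y ∈ fib Ω r x, g y = ∑ y ∈ fib Ω r x', g y :=
    Finset.sum_nbij ψ (fun y hy => hψ.mapsTo hy) hψ.injOn hψ.surjOn (fun y hy => (hg y hy).symm)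
  have h2 : (fib Ω r x).card = (fib Ω r x').card :=
    Finset.card_nbij ψ (fun y hy => hψ.mapsTo hy) hψ.injOn hψ.surjOn
  rw [h1, h2]

/-- if `cE r` preserves the functions that are constant on the `q`-classes, the two averaging
operators commute -/
theorem cE_comm_of_inv (r q : α → α → Prop) [DecidableRel r] [DecidableRel q]
    (hr : Equivalence r) (hq : Equivalence q)
    (hinv : ∀ g : α → ℝ, (∀ x ∈ Ω, ∀ y ∈ Ω, q x y → g y = g x) →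
      ∀ x ∈ Ω, ∀ y ∈ Ω, q x y → cE Ω r g y = cE Ω r g x)
    (f : α → ℝ) (x : α) (hx : x ∈ Ω) :
    cE Ω r (cE Ω q f) x = cE Ω q (cE Ω r f) x := by
  -- `Q R Q = R Q`
  have hA : ∀ u : α → ℝ, ∀ z ∈ Ω, cE Ω q (cE Ω r (cE Ω q u)) z = cE Ω r (cE Ω q u) z := by
    intro u z hz
    refine cE_of_inv Ω q hq _ hz ?_
    intro y hy hzy
    exact hinv (cE Ω q u) (fun a _ b _ hab => (cE_class Ω q hq u hab).symm) z hz y hy hzy
  have key : ∀ φ : α → ℝ, ∑ z ∈ Ω, φ z * cE Ω q (cE Ω r f) z =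
      ∑ z ∈ Ω, φ z * cE Ω r (cE Ω q f) z := by
    intro φ
    calc ∑ z ∈ Ω, φ z * cE Ω q (cE Ω r f) z
        = ∑ z ∈ Ω, cE Ω q φ z * cE Ω r f z := cE_symm Ω q hq _ _
      _ = ∑ z ∈ Ω, cE Ω r (cE Ω q φ) z * f z := cE_symm Ω r hr _ _
      _ = ∑ z ∈ Ω, cE Ω q (cE Ω r (cE Ω q φ)) z * f z :=
          sum_congr rfl fun z hz => by rw [hA φ z hz]
      _ = ∑ z ∈ Ω, cE Ω r (cE Ω q φ) z * cE Ω q f z := (cE_symm Ω q hq _ _).symm
      _ = ∑ z ∈ Ω, cE Ω q φ z * cE Ω r (cE Ω q f) z := (cE_symm Ω r hr _ _).symm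
      _ = ∑ z ∈ Ω, φ z * cE Ω q (cE Ω r (cE Ω q f)) z := (cE_symm Ω q hq _ _).symm
      _ = ∑ z ∈ Ω, φ z * cE Ω r (cE Ω q f) z :=
          sum_congr rfl fun z hz => by rw [hA f z hz]
  have h := key (fun z => if z = x then 1 else 0)
  simp only [ite_mul, one_mul, zero_mul, Finset.sum_ite_eq', hx, if_true] at h
  exact h.symm

/-- (Abs1) one-sided matching of the classes implies commutation -/
theorem cE_comm_of_bij (r q : α → α → Prop) [DecidableRel r] [DecidableRel q]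
    (hr : Equivalence r) (hq : Equivalence q)
    (h : ∀ x ∈ Ω, ∀ x' ∈ Ω, q x x' → ∃ ψ : α → α, Set.BijOn ψ (fib Ω r x) (fib Ω r x') ∧
      ∀ y ∈ fib Ω r x, q y (ψ y))
    (f : α → ℝ) (x : α) (hx : x ∈ Ω) :
    cE Ω r (cE Ω q f) x = cE Ω q (cE Ω r f) x := by
  refine cE_comm_of_inv Ω r q hr hq ?_ f x hx
  intro g hg a ha b hb hab
  obtain ⟨ψ, hψ, hq'⟩ := h a ha b hb hab
  symm
  refine cE_eq_of_bij Ω r g a b ψ hψ ?_
  intro y hy
  have hyΩ : y ∈ Ω := (Finset.mem_filter.mp hy).1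
  have hψΩ : ψ y ∈ Ω := (Finset.mem_filter.mp (hψ.mapsTo hy)).1
  exact hg y hyΩ (ψ y) hψΩ (hq' y hy)

/-- `∑ f * P f = ∑ (P f)^2` -/
theorem cE_ip_self (r : α → α → Prop) [DecidableRel r] (hr : Equivalence r) (f : α → ℝ) :
    ∑ x ∈ Ω, f x * cE Ω r f x = ∑ x ∈ Ω, cE Ω r f x ^ 2 := by
  have h := cE_symm Ω r hr f (cE Ω r f)
  rw [← sum_congr rfl (fun x hx => by rw [cE_idem Ω r hr f hx] :
    ∀ x ∈ Ω, f x * cE Ω r (cE Ω r f) x = f x * cE Ω r f x), h]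
  exact sum_congr rfl fun x _ => by ring

/-- the average of `f - Q f` vanishes -/
theorem cE_sub_self (q : α → α → Prop) [DecidableRel q] (hq : Equivalence q) (f : α → ℝ)
    (x : α) (hx : x ∈ Ω) : cE Ω q (f - cE Ω q f) x = 0 := by
  rw [cE_sub, cE_idem Ω q hq f hx, sub_self]

/-- `∑ Q u * (f - Q f) = 0` -/
theorem cE_orth (q : α → α → Prop) [DecidableRel q] (hq : Equivalence q) (u f : α → ℝ) :
    ∑ x ∈ Ω, cE Ω q u x * (f - cE Ω q f) x = 0 := by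
  rw [← cE_symm Ω q hq]
  exact sum_eq_zero fun x hx => by rw [cE_sub_self Ω q hq f x hx, mul_zero]

/-- for commuting `T`, `Q` and `k = f - Q f`: `∑ T f * k = ∑ (T k)^2` -/
theorem cE_comm_ip (t q : α → α → Prop) [DecidableRel t] [DecidableRel q]
    (ht : Equivalence t) (hq : Equivalence q)
    (hc : ∀ (u : α → ℝ), ∀ x ∈ Ω, cE Ω t (cE Ω q u) x = cE Ω q (cE Ω t u) x) (f : α → ℝ) :
    ∑ x ∈ Ω, cE Ω t f x * (f - cE Ω q f) x = ∑ x ∈ Ω, cE Ω t (f - cE Ω q f) x ^ 2 := by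
  set k : α → ℝ := f - cE Ω q f with hk
  have h1 : ∑ x ∈ Ω, cE Ω t k x * k x = ∑ x ∈ Ω, cE Ω t f x * k x := by
    have : ∀ x ∈ Ω, cE Ω t k x * k x = cE Ω t f x * k x - cE Ω q (cE Ω t f) x * k x := by
      intro x hx
      rw [hk, cE_sub, hc f x hx]; ring
    rw [sum_congr rfl this, sum_sub_distrib, hk, cE_orth Ω q hq, sub_zero]
  rw [← h1, ← cE_ip_self Ω t ht k]
  exact sum_congr rfl fun x _ => by ring

/-- a coarser average has a smaller square sum -/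
theorem cE_sq_le_of_le (b e : α → α → Prop) [DecidableRel b] [DecidableRel e]
    (hb : Equivalence b) (he : Equivalence e) (hle : ∀ x y, b x y → e x y) (k : α → ℝ) :
    ∑ x ∈ Ω, cE Ω e k x ^ 2 ≤ ∑ x ∈ Ω, cE Ω b k x ^ 2 := by
  have h1 : ∑ x ∈ Ω, cE Ω b k x * cE Ω e k x = ∑ x ∈ Ω, cE Ω e k x ^ 2 := by
    rw [← cE_symm Ω b hb, ← cE_ip_self Ω e he k]
    exact sum_congr rfl fun x hx => by rw [cE_cE_of_le Ω b e hb he hle k hx]
  have h2 : 0 ≤ ∑ x ∈ Ω, (cE Ω b k x - cE Ω e k x) ^ 2 := sum_nonneg fun x _ => sq_nonneg _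
  have h3 : ∑ x ∈ Ω, (cE Ω b k x - cE Ω e k x) ^ 2 =
      ∑ x ∈ Ω, cE Ω b k x ^ 2 - 2 * ∑ x ∈ Ω, cE Ω b k x * cE Ω e k x + ∑ x ∈ Ω, cE Ω e k x ^ 2 := by
    rw [mul_sum, ← sum_sub_distrib, ← sum_add_distrib]
    exact sum_congr rfl fun x _ => by ring
  linarith

/-- for commuting `P`, `Q`: `∑ (f - P f)(f - Q f) = ∑ (g - Q g)^2` with `g = f - P f` -/
theorem cE_comm_dd (p q : α → α → Prop) [DecidableRel p] [DecidableRel q]
    (hp : Equivalence p) (hq : Equivalence q)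
    (hc : ∀ (u : α → ℝ), ∀ x ∈ Ω, cE Ω p (cE Ω q u) x = cE Ω q (cE Ω p u) x) (f : α → ℝ) :
    ∑ x ∈ Ω, (f x - cE Ω p f x) * (f x - cE Ω q f x) =
      ∑ x ∈ Ω, ((f - cE Ω p f) x - cE Ω q (f - cE Ω p f) x) ^ 2 := by
  set g : α → ℝ := f - cE Ω p f with hg
  rw [← sum_mul_sub_cE Ω q hq g]
  have h1 : ∀ x ∈ Ω, (f x - cE Ω p f x) * (f x - cE Ω q f x) =
      g x * (g x - cE Ω q g x) + (cE Ω p f x * g x - cE Ω p (cE Ω q f) x * g x) := by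
    intro x hx
    have e1 : cE Ω q g x = cE Ω q f x - cE Ω p (cE Ω q f) x := by
      rw [hg, cE_sub, hc f x hx]
    have e2 : g x = f x - cE Ω p f x := rfl
    rw [e1, e2]; ring
  rw [sum_congr rfl h1, sum_add_distrib, sum_sub_distrib, hg, cE_orth Ω p hp, cE_orth Ω p hp]
  ring

/-- the relation `r` with every class cut in two by `S` -/
def cutRel (r : α → α → Prop) (S : α → Prop) (x y : α) : Prop := r x y ∧ (S x ↔ S y)

instance cutRelDecidable (r : α → α → Prop) [DecidableRel r] (S : α → Prop) [DecidablePred S] :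
    DecidableRel (cutRel r S) :=
  fun x y => inferInstanceAs (Decidable (r x y ∧ (S x ↔ S y)))

theorem cutRel_equiv {r : α → α → Prop} (hr : Equivalence r) (S : α → Prop) :
    Equivalence (cutRel r S) where
  refl x := ⟨hr.refl x, Iff.rfl⟩
  symm h := ⟨hr.symm h.1, h.2.symm⟩
  trans h h' := ⟨hr.trans h.1 h'.1, h.2.trans h'.2⟩

/-- the hypothesis (KL): classes of `r1` over two `r2`-related points with the same `S`-status are
matched along `r2`, preserving the `S`-status -/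
def KL (r1 r2 : α → α → Prop) [DecidableRel r1] (S : α → Prop) : Prop :=
  ∀ x ∈ Ω, ∀ x' ∈ Ω, r2 x x' → (S x ↔ S x') →
    ∃ ψ : α → α, Set.BijOn ψ (fib Ω r1 x) (fib Ω r1 x') ∧
      ∀ y ∈ fib Ω r1 x, r2 y (ψ y) ∧ (S y ↔ S (ψ y))

theorem KL.comm_full {r1 r2 : α → α → Prop} [DecidableRel r1] [DecidableRel r2]
    {S : α → Prop} [DecidablePred S] (h : KL Ω r1 r2 S)
    (hr1 : Equivalence r1) (hr2 : Equivalence r2) (u : α → ℝ) (x : α) (hx : x ∈ Ω) :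
    cE Ω r1 (cE Ω (cutRel r2 S) u) x = cE Ω (cutRel r2 S) (cE Ω r1 u) x := by
  refine cE_comm_of_bij Ω r1 (cutRel r2 S) hr1 (cutRel_equiv hr2 S) ?_ u x hx
  intro a ha b hb hab
  obtain ⟨ψ, hψ, h2⟩ := h a ha b hb hab.1 hab.2
  exact ⟨ψ, hψ, fun y hy => h2 y hy⟩

theorem KL.comm_cut {r1 r2 : α → α → Prop} [DecidableRel r1] [DecidableRel r2]
    {S : α → Prop} [DecidablePred S] (h : KL Ω r1 r2 S)
    (hr1 : Equivalence r1) (hr2 : Equivalence r2) (u : α → ℝ) (x : α) (hx : x ∈ Ω) :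
    cE Ω (cutRel r1 S) (cE Ω (cutRel r2 S) u) x = cE Ω (cutRel r2 S) (cE Ω (cutRel r1 S) u) x := by
  refine cE_comm_of_bij Ω (cutRel r1 S) (cutRel r2 S) (cutRel_equiv hr1 S) (cutRel_equiv hr2 S)
    ?_ u x hx
  intro a ha b hb hab
  obtain ⟨ψ, hψ, h2⟩ := h a ha b hb hab.1 hab.2
  refine ⟨ψ, ⟨?_, ?_, ?_⟩, ?_⟩
  · intro y hy
    have hy' := Finset.mem_filter.mp (Finset.mem_coe.mp hy)
    have hy1 : y ∈ fib Ω r1 a := Finset.mem_filter.mpr ⟨hy'.1, hy'.2.1⟩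
    have hm := Finset.mem_filter.mp (Finset.mem_coe.mp (hψ.mapsTo (Finset.mem_coe.mpr hy1)))
    refine Finset.mem_coe.mpr (Finset.mem_filter.mpr ⟨hm.1, hm.2, ?_⟩)
    exact hab.2.symm.trans (hy'.2.2.trans (h2 y hy1).2)
  · intro y hy z hz hyz
    have hy' := Finset.mem_filter.mp (Finset.mem_coe.mp hy)
    have hz' := Finset.mem_filter.mp (Finset.mem_coe.mp hz)
    exact hψ.injOn (Finset.mem_coe.mpr (Finset.mem_filter.mpr ⟨hy'.1, hy'.2.1⟩))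
      (Finset.mem_coe.mpr (Finset.mem_filter.mpr ⟨hz'.1, hz'.2.1⟩)) hyz
  · intro z hz
    have hz' := Finset.mem_filter.mp (Finset.mem_coe.mp hz)
    obtain ⟨y, hy, rfl⟩ := hψ.surjOn (Finset.mem_coe.mpr (Finset.mem_filter.mpr ⟨hz'.1, hz'.2.1⟩))
    have hy1 : y ∈ fib Ω r1 a := Finset.mem_coe.mp hy
    have hy' := Finset.mem_filter.mp hy1
    refine ⟨y, Finset.mem_coe.mpr (Finset.mem_filter.mpr ⟨hy'.1, hy'.2, ?_⟩), rfl⟩
    exact hab.2.trans (hz'.2.2.trans (h2 y hy1).2.symm)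
  · intro y hy
    have hy' := Finset.mem_filter.mp hy
    exact h2 y (Finset.mem_filter.mpr ⟨hy'.1, hy'.2.1⟩)

/-- where the class of `x` misses `S`, cutting changes nothing -/
theorem cE_cut_eq (r : α → α → Prop) [DecidableRel r] (S : α → Prop) [DecidablePred S]
    (f : α → ℝ) (x : α) (hx : ¬ S x) (h : ∀ y ∈ Ω, r x y → ¬ S y) :
    cE Ω (cutRel r S) f x = cE Ω r f x := by
  have : fib Ω (cutRel r S) x = fib Ω r x := by
    unfold fib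
    refine Finset.filter_congr fun y hy => ⟨fun h' => h'.1, fun h' => ⟨h', ?_⟩⟩
    exact ⟨fun h'' => absurd h'' hx, fun h'' => absurd h'' (h y hy h')⟩
  unfold cE
  rw [this]

/-- (F1), abstract form -/
theorem F1abs (r1 r2 : α → α → Prop) [DecidableRel r1] [DecidableRel r2]
    (S : α → Prop) [DecidablePred S] (hr1 : Equivalence r1) (hr2 : Equivalence r2)
    (τ : α → α) (hτΩ : ∀ x ∈ Ω, τ x ∈ Ω) (hττ : ∀ x ∈ Ω, τ (τ x) = x)
    (hτ1 : ∀ x ∈ Ω, r1 x (τ x)) (hτ2 : ∀ x ∈ Ω, r2 x (τ x)) (hτS : ∀ x ∈ Ω, (S x ↔ S (τ x)))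
    (hKL12 : KL Ω r1 r2 S) (hKL21 : KL Ω r2 r1 S)
    (hsupp : ∀ x ∈ Ω, ¬ S x → (∀ y ∈ Ω, r1 x y → ¬ S y) ∨ (∀ y ∈ Ω, r2 x y → ¬ S y))
    (f : α → ℝ) :
    ∑ x ∈ Ω, ((f x - f (τ x)) / 2) ^ 2
      - (1 / 2) * (∑ x ∈ Ω.filter S, (cE Ω (cutRel r1 S) f x - cE Ω r1 f x) ^ 2
        + ∑ x ∈ Ω.filter S, (cE Ω (cutRel r2 S) f x - cE Ω r2 f x) ^ 2)
      ≤ ∑ x ∈ Ω, (f x - cE Ω r1 f x) * (f x - cE Ω r2 f x) := by
  have hb1 := cutRel_equiv hr1 S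
  have hb2 := cutRel_equiv hr2 S
  have cB : ∀ (u : α → ℝ), ∀ x ∈ Ω, cE Ω (cutRel r1 S) (cE Ω (cutRel r2 S) u) x =
      cE Ω (cutRel r2 S) (cE Ω (cutRel r1 S) u) x := fun u x hx => hKL12.comm_cut Ω hr1 hr2 u x hx
  have cE1 : ∀ (u : α → ℝ), ∀ x ∈ Ω, cE Ω r1 (cE Ω (cutRel r2 S) u) x =
      cE Ω (cutRel r2 S) (cE Ω r1 u) x := fun u x hx => hKL12.comm_full Ω hr1 hr2 u x hx
  have cE2 : ∀ (u : α → ℝ), ∀ x ∈ Ω, cE Ω r2 (cE Ω (cutRel r1 S) u) x =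
      cE Ω (cutRel r1 S) (cE Ω r2 u) x := fun u x hx => hKL21.comm_full Ω hr2 hr1 u x hx
  -- claim 1
  have c1 : ∑ x ∈ Ω, ((f x - f (τ x)) / 2) ^ 2 ≤
      ∑ x ∈ Ω, (f x - cE Ω (cutRel r1 S) f x) * (f x - cE Ω (cutRel r2 S) f x) := by
    rw [cE_comm_dd Ω (cutRel r1 S) (cutRel r2 S) hb1 hb2 cB f]
    set g : α → ℝ := f - cE Ω (cutRel r1 S) f with hg
    set w : α → ℝ := fun x => g x - cE Ω (cutRel r2 S) g x with hw
    have hwτ : ∀ x ∈ Ω, f x - f (τ x) = w x - w (τ x) := by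
      intro x hx
      have e1 : cE Ω (cutRel r1 S) f x = cE Ω (cutRel r1 S) f (τ x) :=
        cE_class Ω _ hb1 f ⟨hτ1 x hx, hτS x hx⟩
      have e2 : cE Ω (cutRel r2 S) g x = cE Ω (cutRel r2 S) g (τ x) :=
        cE_class Ω _ hb2 g ⟨hτ2 x hx, hτS x hx⟩
      simp only [hw, hg, Pi.sub_apply] at e2 ⊢
      rw [← e1, ← e2]; ring
    have hsum : ∑ x ∈ Ω, w (τ x) ^ 2 = ∑ x ∈ Ω, w x ^ 2 :=
      Finset.sum_nbij' τ τ hτΩ hτΩ hττ hττ (fun _ _ => rfl)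
    have hle : ∑ x ∈ Ω, ((f x - f (τ x)) / 2) ^ 2 ≤ ∑ x ∈ Ω, (w x ^ 2 + w (τ x) ^ 2) / 2 := by
      refine sum_le_sum fun x hx => ?_
      rw [hwτ x hx]
      nlinarith [sq_nonneg (w x + w (τ x))]
    have : ∑ x ∈ Ω, (w x ^ 2 + w (τ x) ^ 2) / 2 = ∑ x ∈ Ω, w x ^ 2 := by
      rw [← sum_div, sum_add_distrib, hsum]; ring
    rw [this] at hle
    exact hle
  -- claim 2
  have c2 : 0 ≤ ∑ x ∈ Ω, (cE Ω (cutRel r1 S) f x - cE Ω r1 f x) * (f x - cE Ω (cutRel r2 S) f x) := by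
    have e1 := cE_comm_ip Ω (cutRel r1 S) (cutRel r2 S) hb1 hb2 cB f
    have e2 := cE_comm_ip Ω r1 (cutRel r2 S) hr1 hb2 cE1 f
    have e3 := cE_sq_le_of_le Ω (cutRel r1 S) r1 hb1 hr1 (fun _ _ h => h.1)
      (f - cE Ω (cutRel r2 S) f)
    have : ∑ x ∈ Ω, (cE Ω (cutRel r1 S) f x - cE Ω r1 f x) * (f x - cE Ω (cutRel r2 S) f x) =
        ∑ x ∈ Ω, cE Ω (cutRel r1 S) f x * (f - cE Ω (cutRel r2 S) f) x -
          ∑ x ∈ Ω, cE Ω r1 f x * (f - cE Ω (cutRel r2 S) f) x := by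
      rw [← sum_sub_distrib]
      exact sum_congr rfl fun x _ => by simp only [Pi.sub_apply]; ring
    rw [this, e1, e2]
    linarith
  -- claim 3
  have c3 : 0 ≤ ∑ x ∈ Ω, (f x - cE Ω (cutRel r1 S) f x) * (cE Ω (cutRel r2 S) f x - cE Ω r2 f x) := by
    have e1 := cE_comm_ip Ω (cutRel r2 S) (cutRel r1 S) hb2 hb1 (fun u x hx => (cB u x hx).symm) f
    have e2 := cE_comm_ip Ω r2 (cutRel r1 S) hr2 hb1 cE2 f
    have e3 := cE_sq_le_of_le Ω (cutRel r2 S) r2 hb2 hr2 (fun _ _ h => h.1)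
      (f - cE Ω (cutRel r1 S) f)
    have : ∑ x ∈ Ω, (f x - cE Ω (cutRel r1 S) f x) * (cE Ω (cutRel r2 S) f x - cE Ω r2 f x) =
        ∑ x ∈ Ω, cE Ω (cutRel r2 S) f x * (f - cE Ω (cutRel r1 S) f) x -
          ∑ x ∈ Ω, cE Ω r2 f x * (f - cE Ω (cutRel r1 S) f) x := by
      rw [← sum_sub_distrib]
      exact sum_congr rfl fun x _ => by simp only [Pi.sub_apply]; ring
    rw [this, e1, e2]
    linarith
  -- claim 4
  have c4 : -((1 / 2) * (∑ x ∈ Ω.filter S, (cE Ω (cutRel r1 S) f x - cE Ω r1 f x) ^ 2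
        + ∑ x ∈ Ω.filter S, (cE Ω (cutRel r2 S) f x - cE Ω r2 f x) ^ 2)) ≤
      ∑ x ∈ Ω, (cE Ω (cutRel r1 S) f x - cE Ω r1 f x) * (cE Ω (cutRel r2 S) f x - cE Ω r2 f x) := by
    rw [sum_filter, sum_filter, ← sum_add_distrib, mul_sum, ← sum_neg_distrib]
    refine sum_le_sum fun x hx => ?_
    by_cases hS : S x
    · simp only [hS, if_true]
      nlinarith [sq_nonneg ((cE Ω (cutRel r1 S) f x - cE Ω r1 f x) +
        (cE Ω (cutRel r2 S) f x - cE Ω r2 f x))]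
    · simp only [hS, if_false]
      rcases hsupp x hx hS with h | h
      · rw [cE_cut_eq Ω r1 S f x hS h]; simp
      · rw [cE_cut_eq Ω r2 S f x hS h]; simp
  have hexp : ∑ x ∈ Ω, (f x - cE Ω r1 f x) * (f x - cE Ω r2 f x) =
      ∑ x ∈ Ω, (f x - cE Ω (cutRel r1 S) f x) * (f x - cE Ω (cutRel r2 S) f x)
      + ∑ x ∈ Ω, (cE Ω (cutRel r1 S) f x - cE Ω r1 f x) * (f x - cE Ω (cutRel r2 S) f x)
      + ∑ x ∈ Ω, (f x - cE Ω (cutRel r1 S) f x) * (cE Ω (cutRel r2 S) f x - cE Ω r2 f x)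
      + ∑ x ∈ Ω, (cE Ω (cutRel r1 S) f x - cE Ω r1 f x) *
          (cE Ω (cutRel r2 S) f x - cE Ω r2 f x) := by
    rw [← sum_add_distrib, ← sum_add_distrib, ← sum_add_distrib]
    exact sum_congr rfl fun x _ => by ring
  rw [hexp]
  linarith

/-- (KL) from a family of maps `Ψ x x'` with `Ψ x' x` inverse to `Ψ x x'` -/
theorem KL_of_map (r1 r2 : α → α → Prop) [DecidableRel r1] (S : α → Prop)
    (hr2 : ∀ x y, r2 x y → r2 y x) (Ψ : α → α → α → α)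
    (ha : ∀ x ∈ Ω, ∀ x' ∈ Ω, ∀ y ∈ Ω, r2 x x' → (S x ↔ S x') → r1 x y →
      Ψ x x' y ∈ Ω ∧ r1 x' (Ψ x x' y) ∧ r2 y (Ψ x x' y) ∧ (S y ↔ S (Ψ x x' y)))
    (hb : ∀ x ∈ Ω, ∀ x' ∈ Ω, ∀ y ∈ Ω, r2 x x' → (S x ↔ S x') → r1 x y →
      Ψ x' x (Ψ x x' y) = y) : KL Ω r1 r2 S := by
  intro x hx x' hx' hxx hS
  refine ⟨Ψ x x', ⟨?_, ?_, ?_⟩, ?_⟩
  · intro y hy
    have hy' := Finset.mem_filter.mp (Finset.mem_coe.mp hy)
    have h := ha x hx x' hx' y hy'.1 hxx hS hy'.2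
    exact Finset.mem_coe.mpr (Finset.mem_filter.mpr ⟨h.1, h.2.1⟩)
  · intro y hy z hz hyz
    have hy' := Finset.mem_filter.mp (Finset.mem_coe.mp hy)
    have hz' := Finset.mem_filter.mp (Finset.mem_coe.mp hz)
    rw [← hb x hx x' hx' y hy'.1 hxx hS hy'.2, ← hb x hx x' hx' z hz'.1 hxx hS hz'.2, hyz]
  · intro z hz
    have hz' := Finset.mem_filter.mp (Finset.mem_coe.mp hz)
    have h := ha x' hx' x hx z hz'.1 (hr2 _ _ hxx) hS.symm hz'.2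
    exact ⟨Ψ x' x z, Finset.mem_coe.mpr (Finset.mem_filter.mpr ⟨h.1, h.2.1⟩),
      hb x' hx' x hx z hz'.1 (hr2 _ _ hxx) hS.symm hz'.2⟩
  · intro y hy
    have hy' := Finset.mem_filter.mp hy
    have h := ha x hx x' hx' y hy'.1 hxx hS hy'.2
    exact ⟨h.2.2.1, h.2.2.2⟩

/-- on `S` the cut average is the average inside `Ω.filter S` -/
theorem cE_cut_eq_filter (r : α → α → Prop) [DecidableRel r] (S : α → Prop) [DecidablePred S]
    (f : α → ℝ) (x : α) (hx : S x) :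
    cE Ω (cutRel r S) f x = cE (Ω.filter S) r f x := by
  have : fib Ω (cutRel r S) x = fib (Ω.filter S) r x := by
    unfold fib
    ext y
    rw [Finset.mem_filter, Finset.mem_filter, Finset.mem_filter]
    constructor
    · rintro ⟨h1, h2, h3⟩
      exact ⟨⟨h1, h3.mp hx⟩, h2⟩
    · rintro ⟨⟨h1, h2⟩, h3⟩
      exact ⟨h1, h3, ⟨fun _ => h2, fun _ => hx⟩⟩
  unfold cE
  rw [this]

/-- (F1), abstract form, with the averages inside `Ω.filter S` and `τ` the identity off `S` -/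
theorem F1abs_filter (r1 r2 : α → α → Prop) [DecidableRel r1] [DecidableRel r2]
    (S : α → Prop) [DecidablePred S] (hr1 : Equivalence r1) (hr2 : Equivalence r2)
    (τ : α → α) (hτΩ : ∀ x ∈ Ω, τ x ∈ Ω) (hττ : ∀ x ∈ Ω, τ (τ x) = x)
    (hτ1 : ∀ x ∈ Ω, r1 x (τ x)) (hτ2 : ∀ x ∈ Ω, r2 x (τ x)) (hτS : ∀ x ∈ Ω, (S x ↔ S (τ x)))
    (hτid : ∀ x ∈ Ω, ¬ S x → τ x = x)
    (hKL12 : KL Ω r1 r2 S) (hKL21 : KL Ω r2 r1 S)
    (hsupp : ∀ x ∈ Ω, ¬ S x → (∀ y ∈ Ω, r1 x y → ¬ S y) ∨ (∀ y ∈ Ω, r2 x y → ¬ S y))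
    (f : α → ℝ) :
    (∑ x ∈ Ω.filter S, (f x - f (τ x)) ^ 2) / 2
      - ∑ x ∈ Ω.filter S, (cE (Ω.filter S) r1 f x - cE Ω r1 f x) ^ 2
      - ∑ x ∈ Ω.filter S, (cE (Ω.filter S) r2 f x - cE Ω r2 f x) ^ 2
      ≤ 2 * ∑ x ∈ Ω, (f x - cE Ω r1 f x) * (f x - cE Ω r2 f x) := by
  have h := F1abs Ω r1 r2 S hr1 hr2 τ hτΩ hττ hτ1 hτ2 hτS hKL12 hKL21 hsupp f
  have e0 : ∑ x ∈ Ω, ((f x - f (τ x)) / 2) ^ 2 = (∑ x ∈ Ω.filter S, (f x - f (τ x)) ^ 2) / 4 := by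
    rw [sum_filter, sum_div]
    refine sum_congr rfl fun x hx => ?_
    by_cases hS : S x
    · simp only [hS, if_true]; ring
    · simp only [hS, if_false]; rw [hτid x hx hS]; ring
  have e1 : ∑ x ∈ Ω.filter S, (cE Ω (cutRel r1 S) f x - cE Ω r1 f x) ^ 2 =
      ∑ x ∈ Ω.filter S, (cE (Ω.filter S) r1 f x - cE Ω r1 f x) ^ 2 :=
    sum_congr rfl fun x hx => by rw [cE_cut_eq_filter Ω r1 S f x (Finset.mem_filter.mp hx).2]
  have e2 : ∑ x ∈ Ω.filter S, (cE Ω (cutRel r2 S) f x - cE Ω r2 f x) ^ 2 =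
      ∑ x ∈ Ω.filter S, (cE (Ω.filter S) r2 f x - cE Ω r2 f x) ^ 2 :=
    sum_congr rfl fun x hx => by rw [cE_cut_eq_filter Ω r2 S f x (Finset.mem_filter.mp hx).2]
  rw [e0, e1, e2] at h
  linarith

end AbsF1

end Vale.Agent.Lib.P335
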