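import Vale.Agent.Lib.P335.GraphDefs

/-!
# P335: the switch graph on the realizations of a degree vector is connected
(Havel-Hakimi laying off with a frozen set)
-/

namespace Vale.Agent.Lib.P335

open Finset
open scoped Classical

variable {n : ℕ}

/-- the graph obtained from `G` by removing `ab`, `cd` and inserting `ac`, `bd` -/
def swG (G : SimpleGraph (Fin n)) (a b c d : Fin n) (hac : a ≠ c) (hbd : b ≠ d) :
    SimpleGraph (Fin n) where
  Adj u v := (G.Adj u v ∧ s(u, v) ≠ s(a, b) ∧ s(u, v) ≠ s(c, d)) ∨ s(u, v) = s(a, c) ∨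
    s(u, v) = s(b, d)
  symm := ⟨by
    intro u v h
    rw [Sym2.eq_swap (a := v) (b := u)]
    rcases h with ⟨h1, h2⟩ | h
    · exact Or.inl ⟨h1.symm, h2⟩
    · exact Or.inr h⟩
  loopless := ⟨by
    intro u h
    rcases h with ⟨h1, _⟩ | h | h
    · exact G.loopless.irrefl u h1
    · rw [Sym2.eq_iff] at h
      rcases h with ⟨h1, h2⟩ | ⟨h1, h2⟩
      · exact hac (h1.symm.trans h2)
      · exact hac (h2.symm.trans h1)
    · rw [Sym2.eq_iff] at h
      rcases h with ⟨h1, h2⟩ | ⟨h1, h2⟩
      · exact hbd (h1.symm.trans h2)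
      · exact hbd (h2.symm.trans h1)⟩

theorem swG_adj (G : SimpleGraph (Fin n)) (a b c d : Fin n) (hac : a ≠ c) (hbd : b ≠ d)
    (u v : Fin n) : (swG G a b c d hac hbd).Adj u v ↔
      (G.Adj u v ∧ s(u, v) ≠ s(a, b) ∧ s(u, v) ≠ s(c, d)) ∨ s(u, v) = s(a, c) ∨
        s(u, v) = s(b, d) := Iff.rfl

theorem gc_sum_sym2 (w p q : Fin n) (hpq : p ≠ q) :
    ∑ x, (if s(w, x) = s(p, q) then (1 : ℤ) else 0)
      = (if w = p then 1 else 0) + (if w = q then 1 else 0) := by
  have h : ∀ x, (if s(w, x) = s(p, q) then (1 : ℤ) else 0)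
      = (if x = q then (if w = p then 1 else 0) else 0)
        + (if x = p then (if w = q then 1 else 0) else 0) := by
    intro x
    by_cases h1 : w = p
    · subst h1
      have hwq : ¬ w = q := hpq
      by_cases h2 : x = q
      · subst h2
        have : ¬ x = w := fun h => hpq h.symm
        simp [this]
      · have : ¬ s(w, x) = s(w, q) := by
          rw [Sym2.eq_iff]; tauto
        simp [this, h2, hwq]
    · by_cases h3 : w = q
      · subst h3
        by_cases h2 : x = p
        · subst h2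
          have : ¬ x = w := hpq
          simp [Sym2.eq_swap, this]
        · have : ¬ s(w, x) = s(p, w) := by
            rw [Sym2.eq_iff]; tauto
          simp [this, h2, h1]
      · have : ¬ s(w, x) = s(p, q) := by
          rw [Sym2.eq_iff]; tauto
        simp [this, h1, h3]
  rw [Finset.sum_congr rfl (fun x _ => h x), Finset.sum_add_distrib]
  simp

theorem gc_adj_congr (G : SimpleGraph (Fin n)) {u v a b : Fin n}
    (h : s(u, v) = s(a, b)) : G.Adj u v ↔ G.Adj a b := by
  rw [← SimpleGraph.mem_edgeSet, ← SimpleGraph.mem_edgeSet, h]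

theorem swG_card (G : SimpleGraph (Fin n)) (a b c d : Fin n)
    (hab : a ≠ b) (hac : a ≠ c) (had : a ≠ d) (hbc : b ≠ c) (hbd : b ≠ d) (hcd : c ≠ d)
    (g1 : G.Adj a b) (g2 : G.Adj c d) (g3 : ¬ G.Adj a c) (g4 : ¬ G.Adj b d) (w : Fin n) :
    (univ.filter fun x => (swG G a b c d hac hbd).Adj w x).card
      = (univ.filter fun x => G.Adj w x).card := by
  have key : ∀ x, (if (swG G a b c d hac hbd).Adj w x then (1 : ℤ) else 0)
      = (if G.Adj w x then 1 else 0) - (if s(w, x) = s(a, b) then 1 else 0)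
        - (if s(w, x) = s(c, d) then 1 else 0) + (if s(w, x) = s(a, c) then 1 else 0)
        + (if s(w, x) = s(b, d) then 1 else 0) := by
    intro x
    have e1 : s(a, b) ≠ s(c, d) := by rw [Ne, Sym2.eq_iff]; tauto
    have e2 : s(a, b) ≠ s(a, c) := by rw [Ne, Sym2.eq_iff]; tauto
    have e3 : s(a, b) ≠ s(b, d) := by rw [Ne, Sym2.eq_iff]; tauto
    have e4 : s(c, d) ≠ s(a, c) := by rw [Ne, Sym2.eq_iff]; tauto
    have e5 : s(c, d) ≠ s(b, d) := by rw [Ne, Sym2.eq_iff]; tauto
    have e6 : s(a, c) ≠ s(b, d) := by rw [Ne, Sym2.eq_iff]; tauto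
    rw [swG_adj]
    by_cases h1 : s(w, x) = s(a, b)
    · have := (gc_adj_congr G h1).mpr g1
      simp [h1, this, e1, e2, e3]
    by_cases h2 : s(w, x) = s(c, d)
    · have := (gc_adj_congr G h2).mpr g2
      simp [h2, this, e1.symm, e4, e5]
    by_cases h3 : s(w, x) = s(a, c)
    · have : ¬ G.Adj w x := fun h => g3 ((gc_adj_congr G h3).mp h)
      simp [h3, this, e2.symm, e4.symm, e6]
    by_cases h4 : s(w, x) = s(b, d)
    · have : ¬ G.Adj w x := fun h => g4 ((gc_adj_congr G h4).mp h)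
      simp [h4, this, e3.symm, e5.symm, e6.symm]
    · simp [h1, h2, h3, h4]
  have hz : (((univ.filter fun x => (swG G a b c d hac hbd).Adj w x).card : ℕ) : ℤ)
      = (((univ.filter fun x => G.Adj w x).card : ℕ) : ℤ) := by
    rw [Finset.card_filter, Finset.card_filter]
    push_cast
    rw [Finset.sum_congr rfl (fun x _ => key x)]
    simp only [Finset.sum_add_distrib, Finset.sum_sub_distrib]
    rw [gc_sum_sym2 w a b hab, gc_sum_sym2 w c d hcd, gc_sum_sym2 w a c hac, gc_sum_sym2 w b d hbd]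
    ring
  exact_mod_cast hz

theorem swG_mem {d' : Fin n → ℕ} {G : SimpleGraph (Fin n)} (hG : G ∈ realizations n d')
    (a b c d : Fin n)
    (hab : a ≠ b) (hac : a ≠ c) (had : a ≠ d) (hbc : b ≠ c) (hbd : b ≠ d) (hcd : c ≠ d)
    (g1 : G.Adj a b) (g2 : G.Adj c d) (g3 : ¬ G.Adj a c) (g4 : ¬ G.Adj b d) :
    swG G a b c d hac hbd ∈ realizations n d' := by
  unfold realizations at hG ⊢
  rw [mem_filter] at hG ⊢
  refine ⟨mem_univ _, fun v => ?_⟩
  rw [swG_card G a b c d hab hac had hbc hbd hcd g1 g2 g3 g4 v]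
  exact hG.2 v

theorem swG_isSwitch (G : SimpleGraph (Fin n)) (a b c d : Fin n)
    (hab : a ≠ b) (hac : a ≠ c) (had : a ≠ d) (hbc : b ≠ c) (hbd : b ≠ d) (hcd : c ≠ d)
    (g1 : G.Adj a b) (g2 : G.Adj c d) (g3 : ¬ G.Adj a c) (g4 : ¬ G.Adj b d) :
    IsSwitch G (swG G a b c d hac hbd) :=
  ⟨a, b, c, d, hab, hac, had, hbc, hbd, hcd, g1, g2, g3, g4, fun _ _ => Iff.rfl⟩

/-- `G` and `H` agree on all pairs that are not inside `S` -/
def AgreeOff (S : Finset (Fin n)) (G H : SimpleGraph (Fin n)) : Prop :=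
  ∀ u v, ¬ (u ∈ S ∧ v ∈ S) → (G.Adj u v ↔ H.Adj u v)

theorem AgreeOff.refl (S : Finset (Fin n)) (G : SimpleGraph (Fin n)) : AgreeOff S G G :=
  fun _ _ _ => Iff.rfl

theorem AgreeOff.symm {S : Finset (Fin n)} {G H : SimpleGraph (Fin n)} (h : AgreeOff S G H) :
    AgreeOff S H G := fun u v huv => (h u v huv).symm

theorem AgreeOff.trans {S : Finset (Fin n)} {G H K : SimpleGraph (Fin n)} (h : AgreeOff S G H)
    (h' : AgreeOff S H K) : AgreeOff S G K := fun u v huv => (h u v huv).trans (h' u v huv)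

/-- degree inside `S` -/
noncomputable def degIn (S : Finset (Fin n)) (G : SimpleGraph (Fin n)) (u : Fin n) : ℕ :=
  (S.filter fun x => G.Adj u x).card

theorem degIn_eq {d : Fin n → ℕ} {S : Finset (Fin n)} {G H : SimpleGraph (Fin n)}
    (hG : G ∈ realizations n d) (hH : H ∈ realizations n d) (h : AgreeOff S G H) (u : Fin n) :
    degIn S G u = degIn S H u := by
  have e : ∀ K : SimpleGraph (Fin n), (univ.filter fun x => K.Adj u x).card
      = degIn S K u + (Sᶜ.filter fun x => K.Adj u x).card := by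
    intro K
    unfold degIn
    simp only [Finset.card_filter]
    exact (Finset.sum_add_sum_compl S _).symm
  have e2 : (Sᶜ.filter fun x => G.Adj u x) = (Sᶜ.filter fun x => H.Adj u x) :=
    Finset.filter_congr (fun x hx => h u x (fun hh => (mem_compl.mp hx) hh.2))
  unfold realizations at hG hH
  rw [mem_filter] at hG hH
  have h1 := hG.2 u
  have h2 := hH.2 u
  rw [e G] at h1
  rw [e H, ← e2] at h2
  omega

theorem gc_exists_top (S : Finset (Fin n)) (δ : Fin n → ℕ) :
    ∀ k, k ≤ S.card → ∃ T, T ⊆ S ∧ T.card = k ∧ ∀ t ∈ T, ∀ u ∈ S, u ∉ T → δ u ≤ δ t := by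
  intro k
  induction k with
  | zero => exact fun _ => ⟨∅, empty_subset _, card_empty, fun t ht => absurd ht (notMem_empty t)⟩
  | succ k ih =>
    intro hk
    obtain ⟨T, hTS, hTc, hT⟩ := ih (by omega)
    have hne : (S \ T).Nonempty := by
      rw [← Finset.card_pos, Finset.card_sdiff_of_subset hTS]
      omega
    obtain ⟨m, hm, hmax⟩ := Finset.exists_max_image (S \ T) δ hne
    rw [mem_sdiff] at hm
    refine ⟨insert m T, ?_, ?_, ?_⟩
    · intro y hy
      rcases mem_insert.mp hy with rfl | hy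
      · exact hm.1
      · exact hTS hy
    · rw [card_insert_of_notMem hm.2, hTc]
    · intro t ht u hu hun
      rw [mem_insert, not_or] at hun
      rcases mem_insert.mp ht with rfl | ht
      · exact hmax u (mem_sdiff.mpr ⟨hu, hun.2⟩)
      · exact hT t ht u hu hun.2

theorem gc_mem_of_sym2 {S : Finset (Fin n)} {p q a b : Fin n} (h : s(p, q) = s(a, b))
    (ha : a ∈ S) (hb : b ∈ S) : p ∈ S ∧ q ∈ S := by
  rw [Sym2.eq_iff] at h
  rcases h with ⟨rfl, rfl⟩ | ⟨rfl, rfl⟩
  · exact ⟨ha, hb⟩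
  · exact ⟨hb, ha⟩

theorem swG_agreeOff (S : Finset (Fin n)) (G : SimpleGraph (Fin n)) (a b c d : Fin n)
    (hac : a ≠ c) (hbd : b ≠ d) (ha : a ∈ S) (hb : b ∈ S) (hc : c ∈ S) (hd : d ∈ S) :
    AgreeOff S G (swG G a b c d hac hbd) := by
  intro p q hpq
  rw [swG_adj]
  have n1 : s(p, q) ≠ s(a, b) := fun h => hpq (gc_mem_of_sym2 h ha hb)
  have n2 : s(p, q) ≠ s(c, d) := fun h => hpq (gc_mem_of_sym2 h hc hd)
  have n3 : s(p, q) ≠ s(a, c) := fun h => hpq (gc_mem_of_sym2 h ha hc)
  have n4 : s(p, q) ≠ s(b, d) := fun h => hpq (gc_mem_of_sym2 h hb hd)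
  tauto

/-- a neighbour of `t` inside `S` which is neither `u` nor a neighbour of `u` -/
theorem gc_exists_x (S : Finset (Fin n)) (G : SimpleGraph (Fin n)) (v u t : Fin n)
    (hv : v ∈ S) (ht : t ∈ S) (hu : u ∈ S) (htv : t ≠ v) (hvu : G.Adj v u) (hvt : ¬ G.Adj v t)
    (hdeg : degIn S G u ≤ degIn S G t) :
    ∃ x ∈ S, G.Adj t x ∧ ¬ G.Adj u x ∧ x ≠ u := by
  by_contra hcon
  push Not at hcon
  set A := S.filter fun x => G.Adj t x with hA
  set B := S.filter fun x => G.Adj u x with hB
  have hvB : v ∈ B := mem_filter.mpr ⟨hv, hvu.symm⟩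
  have hvA : v ∉ A := fun h => hvt (mem_filter.mp h).2.symm
  have htA : t ∉ A := fun h => G.loopless.irrefl t (mem_filter.mp h).2
  have hsub : A.erase u ⊆ (B.erase v).erase t := by
    intro x hx
    rw [mem_erase] at hx
    have hxA := hx.2
    have hx2 := mem_filter.mp hx.2
    have hux : G.Adj u x := by
      by_contra hnot
      exact hx.1 (hcon x hx2.1 hx2.2 hnot)
    rw [mem_erase, mem_erase]
    refine ⟨fun h => htA (h ▸ hxA), fun h => hvA (h ▸ hxA), mem_filter.mpr ⟨hx2.1, hux⟩⟩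
  have hcard := Finset.card_le_card hsub
  have hAB : B.card ≤ A.card := hdeg
  have hBv : (B.erase v).card = B.card - 1 := card_erase_of_mem hvB
  have hBpos : 0 < B.card := card_pos.mpr ⟨v, hvB⟩
  by_cases htu : G.Adj t u
  · have h1 : u ∈ A := mem_filter.mpr ⟨hu, htu⟩
    have h2 : t ∈ B.erase v := mem_erase.mpr ⟨htv, mem_filter.mpr ⟨ht, htu.symm⟩⟩
    rw [card_erase_of_mem h1, card_erase_of_mem h2, hBv] at hcard
    have : 0 < A.card := card_pos.mpr ⟨u, h1⟩
    have h3 : 1 < B.card := by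
      have : 0 < (B.erase v).card := card_pos.mpr ⟨t, h2⟩
      omega
    omega
  · have h1 : u ∉ A := fun h => htu (mem_filter.mp h).2
    rw [erase_eq_of_notMem h1] at hcard
    have h2 : ((B.erase v).erase t).card ≤ (B.erase v).card := card_le_card (erase_subset _ _)
    omega

theorem gc_fix (d : Fin n → ℕ) (f : SimpleGraph (Fin n) → ℝ)
    (hf : ∀ G ∈ realizations n d, ∀ H ∈ realizations n d, IsSwitch G H → f H = f G)
    (S : Finset (Fin n)) (v : Fin n) (hv : v ∈ S) (T : Finset (Fin n)) (hTS : T ⊆ S.erase v)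
    (δ : Fin n → ℕ) (hT : ∀ t ∈ T, ∀ u ∈ S.erase v, u ∉ T → δ u ≤ δ t) (hk : T.card = δ v) :
    ∀ j, ∀ G ∈ realizations n d, (∀ u, degIn S G u = δ u) →
      (T.filter fun t => ¬ G.Adj v t).card = j →
      ∃ G' ∈ realizations n d, f G' = f G ∧ AgreeOff S G G' ∧ ∀ x ∈ S, (G'.Adj v x ↔ x ∈ T) := by
  intro j
  induction j with
  | zero =>
    intro G hG hδ hj
    refine ⟨G, hG, rfl, AgreeOff.refl S G, ?_⟩
    have h0 : ∀ t ∈ T, G.Adj v t := by
      intro t ht
      by_contra hnot
      have : t ∈ T.filter fun t => ¬ G.Adj v t := mem_filter.mpr ⟨ht, hnot⟩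
      rw [card_eq_zero.mp hj] at this
      exact absurd this (notMem_empty t)
    have hsub : T ⊆ S.filter fun x => G.Adj v x := by
      intro t ht
      exact mem_filter.mpr ⟨mem_of_mem_erase (hTS ht), h0 t ht⟩
    have heq : T = S.filter fun x => G.Adj v x := by
      refine Finset.eq_of_subset_of_card_le hsub ?_
      have := hδ v
      unfold degIn at this
      rw [this, hk]
    intro x hx
    rw [heq, mem_filter]
    exact ⟨fun h => ⟨hx, h⟩, fun h => h.2⟩
  | succ j ih =>
    intro G hG hδ hj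
    have hne : (T.filter fun t => ¬ G.Adj v t).Nonempty := by
      rw [← card_pos]; omega
    obtain ⟨t, ht⟩ := hne
    rw [mem_filter] at ht
    obtain ⟨htT, hvt⟩ := ht
    have htS' := hTS htT
    have htS : t ∈ S := mem_of_mem_erase htS'
    have htv : t ≠ v := ne_of_mem_erase htS'
    -- a neighbour `u` of `v` in `S` outside `T`
    have hu : ∃ u ∈ S, G.Adj v u ∧ u ∉ T := by
      by_contra hcon
      push Not at hcon
      have hsub : (S.filter fun x => G.Adj v x) ⊆ T := by
        intro x hx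
        rw [mem_filter] at hx
        exact hcon x hx.1 hx.2
      have heq : (S.filter fun x => G.Adj v x) = T := by
        refine Finset.eq_of_subset_of_card_le hsub ?_
        have := hδ v
        unfold degIn at this
        rw [this, hk]
      rw [← heq, mem_filter] at htT
      exact hvt htT.2
    obtain ⟨u, huS, hvu, huT⟩ := hu
    have huv : u ≠ v := fun h => G.loopless.irrefl v (h ▸ hvu)
    have hdeg : degIn S G u ≤ degIn S G t := by
      rw [hδ u, hδ t]
      exact hT t htT u (mem_erase.mpr ⟨huv, huS⟩) huT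
    obtain ⟨x, hxS, htx, hux, hxu⟩ := gc_exists_x S G v u t hv htS huS htv hvu hvt hdeg
    have hvx : v ≠ x := fun h => hvt (h ▸ htx.symm)
    have hut : u ≠ t := fun h => huT (h ▸ htT)
    have htx' : t ≠ x := fun h => G.loopless.irrefl x (h ▸ htx)
    set G1 := swG G v u t x htv.symm hxu.symm with hG1
    have hG1m : G1 ∈ realizations n d :=
      swG_mem hG v u t x huv.symm htv.symm hvx hut hxu.symm htx' hvu htx hvt hux
    have hsw : IsSwitch G G1 :=
      swG_isSwitch G v u t x huv.symm htv.symm hvx hut hxu.symm htx' hvu htx hvt hux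
    have hag : AgreeOff S G G1 := swG_agreeOff S G v u t x htv.symm hxu.symm hv huS htS hxS
    have hδ1 : ∀ w, degIn S G1 w = δ w := fun w => by rw [← degIn_eq hG hG1m hag w, hδ w]
    have hadj : ∀ y ∈ T, (G1.Adj v y ↔ G.Adj v y ∨ y = t) := by
      intro y hy
      have hyu : y ≠ u := fun h => huT (h ▸ hy)
      have hyv : y ≠ v := ne_of_mem_erase (hTS hy)
      rw [hG1, swG_adj]
      have n1 : s(v, y) ≠ s(v, u) := by
        rw [Ne, Sym2.eq_iff]
        rintro (⟨_, h2⟩ | ⟨h2, _⟩)
        · exact hyu h2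
        · exact huv h2.symm
      have n2 : s(v, y) ≠ s(t, x) := by
        rw [Ne, Sym2.eq_iff]
        rintro (⟨h2, _⟩ | ⟨h2, _⟩)
        · exact htv h2.symm
        · exact hvx h2
      have n3 : s(v, y) = s(v, t) ↔ y = t := by
        rw [Sym2.eq_iff]
        constructor
        · rintro (⟨_, h2⟩ | ⟨h2, _⟩)
          · exact h2
          · exact absurd h2.symm htv
        · intro h2
          exact Or.inl ⟨rfl, h2⟩
      have n4 : s(v, y) ≠ s(u, x) := by
        rw [Ne, Sym2.eq_iff]
        rintro (⟨h2, _⟩ | ⟨h2, _⟩)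
        · exact huv h2.symm
        · exact hvx h2
      rw [n3]
      constructor
      · rintro (⟨h1, _, _⟩ | h | h)
        · exact Or.inl h1
        · exact Or.inr h
        · exact absurd h n4
      · rintro (h | h)
        · exact Or.inl ⟨h, n1, n2⟩
        · exact Or.inr (Or.inl h)
    have hfil : (T.filter fun y => ¬ G1.Adj v y) = (T.filter fun y => ¬ G.Adj v y).erase t := by
      ext y
      rw [mem_filter, mem_erase, mem_filter]
      constructor
      · rintro ⟨hy, hn⟩
        rw [hadj y hy, not_or] at hn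
        exact ⟨hn.2, hy, hn.1⟩
      · rintro ⟨h1, hy, h2⟩
        refine ⟨hy, ?_⟩
        rw [hadj y hy, not_or]
        exact ⟨h2, h1⟩
    have hj1 : (T.filter fun y => ¬ G1.Adj v y).card = j := by
      rw [hfil, card_erase_of_mem (mem_filter.mpr ⟨htT, hvt⟩), hj]
      rfl
    obtain ⟨G', hG', e1, e2, e3⟩ := ih G1 hG1m hδ1 hj1
    exact ⟨G', hG', e1.trans (hf G hG G1 hG1m hsw), hag.trans e2, e3⟩

theorem gc_aux (d : Fin n → ℕ) (f : SimpleGraph (Fin n) → ℝ)
    (hf : ∀ G ∈ realizations n d, ∀ H ∈ realizations n d, IsSwitch G H → f H = f G) :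
    ∀ (m : ℕ) (S : Finset (Fin n)), S.card = m →
      ∀ G ∈ realizations n d, ∀ H ∈ realizations n d, AgreeOff S G H → f H = f G := by
  intro m
  induction m with
  | zero =>
    intro S hS G _ H _ hag
    have hS0 : S = ∅ := card_eq_zero.mp hS
    have : G = H := by
      ext u v
      exact hag u v (fun h => by rw [hS0] at h; exact absurd h.1 (notMem_empty u))
    rw [this]
  | succ m ih =>
    intro S hS G hG H hH hag
    have hne : S.Nonempty := by rw [← card_pos]; omega
    obtain ⟨v, hv⟩ := hne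
    set δ : Fin n → ℕ := fun u => degIn S G u with hδ
    have hkle : δ v ≤ (S.erase v).card := by
      refine card_le_card ?_
      intro x hx
      rw [mem_filter] at hx
      exact mem_erase.mpr ⟨fun h => G.loopless.irrefl v (h ▸ hx.2), hx.1⟩
    obtain ⟨T, hTS, hTc, hT⟩ := gc_exists_top (S.erase v) δ (δ v) hkle
    obtain ⟨G', hG', e1, e2, e3⟩ :=
      gc_fix d f hf S v hv T hTS δ hT hTc _ G hG (fun _ => rfl) rfl
    obtain ⟨H', hH', e1', e2', e3'⟩ :=
      gc_fix d f hf S v hv T hTS δ hT hTc _ H hH (fun u => (degIn_eq hG hH hag u).symm) rfl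
    have hag' : AgreeOff S G' H' := (e2.symm.trans hag).trans e2'
    have hag2 : AgreeOff (S.erase v) G' H' := by
      intro p q hpq
      by_cases hS2 : p ∈ S ∧ q ∈ S
      · by_cases hp : p = v
        · subst hp
          rw [e3 q hS2.2, e3' q hS2.2]
        · by_cases hq : q = v
          · subst hq
            rw [G'.adj_comm, H'.adj_comm, e3 p hS2.1, e3' p hS2.1]
          · exact absurd ⟨mem_erase.mpr ⟨hp, hS2.1⟩, mem_erase.mpr ⟨hq, hS2.2⟩⟩ hpq
      · exact hag' p q hS2
    have hcard : (S.erase v).card = m := by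
      rw [card_erase_of_mem hv]; omega
    have := ih (S.erase v) hcard G' hG' H' hH' hag2
    rw [← e1, ← e1', this]

/-- every function on the realizations of `d` that is invariant under switches is constant -/
theorem switch_conn (n : ℕ) (d : Fin n → ℕ) (f : SimpleGraph (Fin n) → ℝ)
    (hf : ∀ G ∈ realizations n d, ∀ H ∈ realizations n d, IsSwitch G H → f H = f G) :
    ∀ G ∈ realizations n d, ∀ H ∈ realizations n d, f H = f G := by
  intro G hG H hH
  exact gc_aux d f hf _ univ rfl G hG H hH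
    (fun u v h => absurd ⟨mem_univ u, mem_univ v⟩ h)

end Vale.Agent.Lib.P335
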