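import Mathlib

/-!
# P335: variance of a weighted cut under a uniformly random k-subset (Gram bound for F2)

Main result `cut_variance_main`: for symmetric weights `z` with zero diagonal on an `m`-set and
`1 ≤ k ≤ m - 1`, the sum over all `k`-subsets `A` of the square of cut z A - mean is at most
one half of (m-2) α Q, where `α = mu m k 1 - mu m k 2` is the number of `A` with `c ∈ A`, `d ∉ A`
and `Q` is the sum of `z c d ^ 2` over ordered pairs.
-/

namespace Vale.Agent.Lib.P335G.CutVar

open Finset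

variable {F : Type*} [Fintype F] [DecidableEq F]

/-- number of `k`-subsets containing a given set. -/
theorem card_filter_superset (k : ℕ) (S : Finset F) (hS : S.card ≤ k) :
    ((powersetCard k (univ : Finset F)).filter (fun A => S ⊆ A)).card =
      (Fintype.card F - S.card).choose (k - S.card) := by
  have h1 : (powersetCard (k - S.card) (Sᶜ)).card = (Fintype.card F - S.card).choose (k - S.card) := by
    rw [card_powersetCard, card_compl]
  rw [← h1]
  apply card_nbij' (fun A => A \ S) (fun B => B ∪ S)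
  · intro A hA
    simp only [mem_coe, mem_filter, mem_powersetCard, subset_univ, true_and] at hA
    simp only [mem_coe, mem_powersetCard]
    refine ⟨?_, ?_⟩
    · intro x hx
      simp only [mem_sdiff] at hx
      simpa using hx.2
    · rw [card_sdiff_of_subset hA.2, hA.1]
  · intro B hB
    simp only [mem_coe, mem_powersetCard] at hB
    simp only [mem_coe, mem_filter, mem_powersetCard, subset_univ, true_and]
    refine ⟨?_, subset_union_right⟩
    rw [card_union_of_disjoint, hB.2]
    · omega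
    · rw [disjoint_left]
      intro x hx hxS
      have := hB.1 hx
      simp at this
      exact this hxS
  · intro A hA
    simp only [mem_coe, mem_filter, mem_powersetCard, subset_univ, true_and] at hA
    exact sdiff_union_of_subset hA.2
  · intro B hB
    simp only [mem_coe, mem_powersetCard] at hB
    apply union_sdiff_cancel_right
    rw [disjoint_left]
    intro x hx hxS
    have := hB.1 hx
    simp at this
    exact this hxS

/-- the number of `k`-subsets of an `m`-set containing `j` given points, as a real number. -/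
noncomputable def mu (m k j : ℕ) : ℝ := if j ≤ k then ((m - j).choose (k - j) : ℝ) else 0

/-- indicator of membership. -/
noncomputable def ind (A : Finset F) (c : F) : ℝ := if c ∈ A then 1 else 0

/-- spin: `1` on `A`, `-1` outside. -/
noncomputable def sp (A : Finset F) (c : F) : ℝ := if c ∈ A then 1 else -1

theorem sp_eq (A : Finset F) (c : F) : sp A c = 2 * ind A c - 1 := by
  unfold sp ind
  split_ifs <;> norm_num

theorem sp_mul_self (A : Finset F) (c : F) : sp A c * sp A c = 1 := by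
  unfold sp
  split_ifs <;> norm_num

theorem sum_prod_ind (k : ℕ) (S : Finset F) :
    ∑ A ∈ powersetCard k (univ : Finset F), ∏ c ∈ S, ind A c = mu (Fintype.card F) k S.card := by
  have h1 : ∀ A : Finset F, ∏ c ∈ S, ind A c = if S ⊆ A then 1 else 0 := by
    intro A
    unfold ind
    rw [Finset.prod_boole]
    rfl
  simp only [h1]
  rw [Finset.sum_boole]
  unfold mu
  split_ifs with h
  · rw [card_filter_superset k S h]
  · have : (powersetCard k (univ : Finset F)).filter (fun A => S ⊆ A) = ∅ := by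
      rw [filter_eq_empty_iff]
      intro A hA hSA
      rw [mem_powersetCard] at hA
      exact h (hA.2 ▸ card_le_card hSA)
    rw [this]
    simp

theorem mom0 (k : ℕ) :
    ((powersetCard k (univ : Finset F)).card : ℝ) = mu (Fintype.card F) k 0 := by
  simp [mu, card_powersetCard]

theorem mom1 (k : ℕ) (c : F) :
    ∑ A ∈ powersetCard k (univ : Finset F), ind A c = mu (Fintype.card F) k 1 := by
  have := sum_prod_ind k ({c} : Finset F)
  simpa using this

theorem mom2 (k : ℕ) {c d : F} (h : c ≠ d) :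
    ∑ A ∈ powersetCard k (univ : Finset F), ind A c * ind A d = mu (Fintype.card F) k 2 := by
  have := sum_prod_ind k ({c, d} : Finset F)
  rw [card_pair h] at this
  simpa [prod_pair h] using this

theorem mom3 (k : ℕ) {c d x : F} (h1 : c ≠ d) (h2 : c ≠ x) (h3 : d ≠ x) :
    ∑ A ∈ powersetCard k (univ : Finset F), ind A c * ind A d * ind A x =
      mu (Fintype.card F) k 3 := by
  have := sum_prod_ind k ({c, d, x} : Finset F)
  rw [card_eq_three.2 ⟨c, d, x, h1, h2, h3, rfl⟩] at this
  rw [← this]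
  apply sum_congr rfl
  intro A _
  rw [prod_insert (by simp [h1, h2]), prod_pair h3]
  ring

theorem mom4 (k : ℕ) {c d x y : F} (h1 : c ≠ d) (h2 : c ≠ x) (h3 : c ≠ y) (h4 : d ≠ x)
    (h5 : d ≠ y) (h6 : x ≠ y) :
    ∑ A ∈ powersetCard k (univ : Finset F), ind A c * ind A d * ind A x * ind A y =
      mu (Fintype.card F) k 4 := by
  have := sum_prod_ind k ({c, d, x, y} : Finset F)
  have hc : ({c, d, x, y} : Finset F).card = 4 := by
    rw [card_insert_of_notMem (by simp [h1, h2, h3]), card_eq_three.2 ⟨d, x, y, h4, h5, h6, rfl⟩]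
  rw [hc] at this
  rw [← this]
  apply sum_congr rfl
  intro A _
  rw [prod_insert (by simp [h1, h2, h3]), prod_insert (by simp [h4, h5]), prod_pair h6]
  ring

theorem mu_rec (m k j : ℕ) (hj : j < m) :
    ((m : ℝ) - j) * mu m k (j + 1) = ((k : ℝ) - j) * mu m k j := by
  unfold mu
  by_cases h1 : j + 1 ≤ k
  · have h2 : j ≤ k := by omega
    rw [if_pos h1, if_pos h2]
    obtain ⟨n, rfl⟩ : ∃ n, m = n + 1 + j := ⟨m - 1 - j, by omega⟩
    obtain ⟨l, rfl⟩ : ∃ l, k = l + 1 + j := ⟨k - 1 - j, by omega⟩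
    have e1 : n + 1 + j - (j + 1) = n := by omega
    have e2 : l + 1 + j - (j + 1) = l := by omega
    have e3 : n + 1 + j - j = n + 1 := by omega
    have e4 : l + 1 + j - j = l + 1 := by omega
    rw [e1, e2, e3, e4]
    have := Nat.add_one_mul_choose_eq n l
    have h' : ((n : ℝ) + 1) * (n.choose l : ℝ) = ((n + 1).choose (l + 1) : ℝ) * ((l : ℝ) + 1) := by
      exact_mod_cast this
    push_cast
    linarith
  · rw [if_neg h1]
    by_cases h2 : j ≤ k
    · have : j = k := by omega
      subst this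
      simp
    · rw [if_neg h2]
      simp

/-! ## Spin moments -/

/-- sum over all `k`-subsets of a product of two distinct spins. -/
noncomputable def S2 (m k : ℕ) : ℝ := 4 * mu m k 2 - 4 * mu m k 1 + mu m k 0

/-- sum over all `k`-subsets of a product of four distinct spins. -/
noncomputable def S4 (m k : ℕ) : ℝ :=
  16 * mu m k 4 - 32 * mu m k 3 + 24 * mu m k 2 - 8 * mu m k 1 + mu m k 0

theorem spin2 (k : ℕ) {c d : F} (h : c ≠ d) :
    ∑ A ∈ powersetCard k (univ : Finset F), sp A c * sp A d = S2 (Fintype.card F) k := by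
  have e : ∀ A : Finset F, sp A c * sp A d =
      4 * (ind A c * ind A d) - 2 * ind A c - 2 * ind A d + 1 := by
    intro A
    rw [sp_eq, sp_eq]
    ring
  simp only [e, sum_add_distrib, sum_sub_distrib, ← mul_sum, mom2 k h, mom1]
  rw [sum_const, nsmul_eq_mul, mom0]
  unfold S2
  ring

theorem spin4 (k : ℕ) {c d x y : F} (h1 : c ≠ d) (h2 : c ≠ x) (h3 : c ≠ y) (h4 : d ≠ x)
    (h5 : d ≠ y) (h6 : x ≠ y) :
    ∑ A ∈ powersetCard k (univ : Finset F), sp A c * sp A d * (sp A x * sp A y) =
      S4 (Fintype.card F) k := by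
  have e : ∀ A : Finset F, sp A c * sp A d * (sp A x * sp A y) =
      16 * (ind A c * ind A d * ind A x * ind A y)
      - 8 * (ind A c * ind A d * ind A x) - 8 * (ind A c * ind A d * ind A y)
      - 8 * (ind A c * ind A x * ind A y) - 8 * (ind A d * ind A x * ind A y)
      + 4 * (ind A c * ind A d) + 4 * (ind A c * ind A x) + 4 * (ind A c * ind A y)
      + 4 * (ind A d * ind A x) + 4 * (ind A d * ind A y) + 4 * (ind A x * ind A y)
      - 2 * ind A c - 2 * ind A d - 2 * ind A x - 2 * ind A y + 1 := by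
    intro A
    rw [sp_eq, sp_eq, sp_eq, sp_eq]
    ring
  simp only [e, sum_add_distrib, sum_sub_distrib, ← mul_sum, mom4 k h1 h2 h3 h4 h5 h6,
    mom3 k h1 h2 h4, mom3 k h1 h3 h5, mom3 k h2 h3 h6, mom3 k h4 h5 h6, mom2 k h1, mom2 k h2,
    mom2 k h3, mom2 k h4, mom2 k h5, mom2 k h6, mom1]
  rw [sum_const, nsmul_eq_mul, mom0]
  unfold S4
  ring

/-- Kronecker delta. -/
noncomputable def dl (x c : F) : ℝ := if x = c then 1 else 0

/-- the fourth spin moment for all coincidence patterns; `s4` is the value on four distinct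
points (any number if there are no four distinct points). -/
theorem spin_moment (k : ℕ) (s4 : ℝ)
    (hs4 : ∀ c d x y : F, c ≠ d → c ≠ x → c ≠ y → d ≠ x → d ≠ y → x ≠ y →
      ∑ A ∈ powersetCard k (univ : Finset F), sp A c * sp A d * (sp A x * sp A y) = s4)
    {c d x y : F} (hcd : c ≠ d) (hxy : x ≠ y) :
    ∑ A ∈ powersetCard k (univ : Finset F), sp A c * sp A d * (sp A x * sp A y) =
      s4 + (dl x c + dl x d + dl y c + dl y d) * (S2 (Fintype.card F) k - s4)
        + (dl x c * dl y d + dl x d * dl y c) *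
          (mu (Fintype.card F) k 0 - 2 * S2 (Fintype.card F) k + s4) := by
  have one : ∑ A ∈ powersetCard k (univ : Finset F), (1 : ℝ) = mu (Fintype.card F) k 0 := by
    rw [sum_const, nsmul_eq_mul, mom0]; ring
  by_cases h1 : x = c
  · subst h1
    have hyx : y ≠ x := hxy.symm
    have hxd : x ≠ d := hcd
    by_cases h4 : y = d
    · subst h4
      have e : ∀ A : Finset F, sp A x * sp A y * (sp A x * sp A y) = 1 := by
        intro A
        calc sp A x * sp A y * (sp A x * sp A y) = (sp A x * sp A x) * (sp A y * sp A y) := by ring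
          _ = 1 := by rw [sp_mul_self, sp_mul_self]; ring
      simp only [e, one, dl, if_true, if_neg hyx, if_neg hxd]
      ring
    · have e : ∀ A : Finset F, sp A x * sp A d * (sp A x * sp A y) = sp A d * sp A y := by
        intro A
        calc sp A x * sp A d * (sp A x * sp A y) = (sp A x * sp A x) * (sp A d * sp A y) := by ring
          _ = sp A d * sp A y := by rw [sp_mul_self]; ring
      simp only [e, spin2 k (Ne.symm h4), dl, if_true, if_neg hyx, if_neg hxd, if_neg h4]
      ring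
  · by_cases h2 : x = d
    · subst h2
      have hyx : y ≠ x := hxy.symm
      by_cases h3 : y = c
      · subst h3
        have e : ∀ A : Finset F, sp A y * sp A x * (sp A x * sp A y) = 1 := by
          intro A
          calc sp A y * sp A x * (sp A x * sp A y) = (sp A x * sp A x) * (sp A y * sp A y) := by ring
            _ = 1 := by rw [sp_mul_self, sp_mul_self]; ring
        simp only [e, one, dl, if_true, if_neg hyx, if_neg h1]
        ring
      · have e : ∀ A : Finset F, sp A c * sp A x * (sp A x * sp A y) = sp A c * sp A y := by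
          intro A
          calc sp A c * sp A x * (sp A x * sp A y) = (sp A x * sp A x) * (sp A c * sp A y) := by ring
            _ = sp A c * sp A y := by rw [sp_mul_self]; ring
        simp only [e, spin2 k (Ne.symm h3), dl, if_true, if_neg hyx, if_neg h1, if_neg h3]
        ring
    · by_cases h3 : y = c
      · subst h3
        have e : ∀ A : Finset F, sp A y * sp A d * (sp A x * sp A y) = sp A d * sp A x := by
          intro A
          calc sp A y * sp A d * (sp A x * sp A y) = (sp A y * sp A y) * (sp A d * sp A x) := by ring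
            _ = sp A d * sp A x := by rw [sp_mul_self]; ring
        simp only [e, spin2 k (Ne.symm h2), dl, if_true, if_neg h1, if_neg h2, if_neg hcd]
        ring
      · by_cases h4 : y = d
        · subst h4
          have e : ∀ A : Finset F, sp A c * sp A y * (sp A x * sp A y) = sp A c * sp A x := by
            intro A
            calc sp A c * sp A y * (sp A x * sp A y) = (sp A y * sp A y) * (sp A c * sp A x) := by ring
              _ = sp A c * sp A x := by rw [sp_mul_self]; ring
          simp only [e, spin2 k (Ne.symm h1), dl, if_true, if_neg h1, if_neg h2, if_neg h3]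
          ring
        · rw [hs4 c d x y hcd (Ne.symm h1) (Ne.symm h3) (Ne.symm h2) (Ne.symm h4) hxy]
          simp only [dl, if_neg h1, if_neg h2, if_neg h3, if_neg h4]
          ring

/-! ## Sums of quadratic forms in the spins -/

theorem sum_mul_dl (g : F → ℝ) (c : F) : ∑ x, g x * dl x c = g c := by
  simp [dl]

theorem sq_double_sum {ι : Type*} (Ω : Finset ι) (g : ι → F → F → ℝ) (z : F → F → ℝ) :
    ∑ A ∈ Ω, (∑ c, ∑ d, z c d * g A c d) ^ 2 =
      ∑ c, ∑ d, z c d * (∑ x, ∑ y, z x y * ∑ A ∈ Ω, g A c d * g A x y) := by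
  have e1 : ∀ A ∈ Ω, (∑ c, ∑ d, z c d * g A c d) ^ 2 =
      ∑ c, ∑ d, ∑ x, ∑ y, z c d * (z x y * (g A c d * g A x y)) := by
    intro A _
    rw [sq, sum_mul]
    apply sum_congr rfl
    intro c _
    rw [sum_mul]
    apply sum_congr rfl
    intro d _
    rw [mul_sum]
    apply sum_congr rfl
    intro x _
    rw [mul_sum]
    apply sum_congr rfl
    intro y _
    ring
  rw [sum_congr rfl e1, sum_comm]
  apply sum_congr rfl
  intro c _
  rw [sum_comm]
  apply sum_congr rfl
  intro d _
  rw [sum_comm, mul_sum]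
  apply sum_congr rfl
  intro x _
  rw [sum_comm, mul_sum]
  apply sum_congr rfl
  intro y _
  rw [mul_sum, mul_sum]

variable (z : F → F → ℝ)

/-- row sums. -/
noncomputable def Zr (c : F) : ℝ := ∑ d, z c d
/-- total weight (ordered pairs). -/
noncomputable def Tt : ℝ := ∑ c, ∑ d, z c d
/-- sum of squares of the row sums. -/
noncomputable def Ww : ℝ := ∑ c, (∑ d, z c d) ^ 2
/-- sum of squares (ordered pairs). -/
noncomputable def Qz : ℝ := ∑ c, ∑ d, z c d ^ 2
/-- the quadratic form in the spins. -/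
noncomputable def Hh (A : Finset F) : ℝ := ∑ c, ∑ d, z c d * (sp A c * sp A d)

variable {z}

theorem sum_Hh (k : ℕ) (hd : ∀ c, z c c = 0) :
    ∑ A ∈ powersetCard k (univ : Finset F), Hh z A = S2 (Fintype.card F) k * Tt z := by
  unfold Hh Tt
  rw [sum_comm, mul_sum]
  apply sum_congr rfl
  intro c _
  rw [sum_comm, mul_sum]
  apply sum_congr rfl
  intro d _
  rw [← mul_sum]
  by_cases h : c = d
  · subst h
    rw [hd]; ring
  · rw [spin2 k h]; ring

theorem inner_sum (hs : ∀ c d, z c d = z d c) (hd : ∀ c, z c c = 0) (k : ℕ) (s4 : ℝ)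
    (hs4 : ∀ c d x y : F, c ≠ d → c ≠ x → c ≠ y → d ≠ x → d ≠ y → x ≠ y →
      ∑ A ∈ powersetCard k (univ : Finset F), sp A c * sp A d * (sp A x * sp A y) = s4)
    {c d : F} (hcd : c ≠ d) :
    ∑ x, ∑ y, z x y * ∑ A ∈ powersetCard k (univ : Finset F),
        sp A c * sp A d * (sp A x * sp A y) =
      s4 * Tt z + (S2 (Fintype.card F) k - s4) * (2 * Zr z c + 2 * Zr z d)
        + (mu (Fintype.card F) k 0 - 2 * S2 (Fintype.card F) k + s4) * (2 * z c d) := by
  have e1 : ∀ x y : F, z x y * ∑ A ∈ powersetCard k (univ : Finset F),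
        sp A c * sp A d * (sp A x * sp A y) =
      s4 * z x y + (S2 (Fintype.card F) k - s4) *
          (z x y * dl x c + z x y * dl x d + z x y * dl y c + z x y * dl y d)
        + (mu (Fintype.card F) k 0 - 2 * S2 (Fintype.card F) k + s4) *
          (z x y * dl y d * dl x c + z x y * dl y c * dl x d) := by
    intro x y
    by_cases hxy : x = y
    · subst hxy
      rw [hd]; ring
    · rw [spin_moment k s4 hs4 hcd hxy]; ring
  simp only [e1, sum_add_distrib, ← mul_sum, ← sum_mul, sum_mul_dl]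
  have a2 : ∀ e : F, ∑ x, z x e = Zr z e := by
    intro e
    unfold Zr
    exact sum_congr rfl (fun x _ => hs x e)
  rw [a2, a2, hs d c]
  unfold Tt Zr
  ring

theorem sum_Hh_sq (hs : ∀ c d, z c d = z d c) (hd : ∀ c, z c c = 0) (k : ℕ) (s4 : ℝ)
    (hs4 : ∀ c d x y : F, c ≠ d → c ≠ x → c ≠ y → d ≠ x → d ≠ y → x ≠ y →
      ∑ A ∈ powersetCard k (univ : Finset F), sp A c * sp A d * (sp A x * sp A y) = s4) :
    ∑ A ∈ powersetCard k (univ : Finset F), Hh z A ^ 2 =
      s4 * Tt z ^ 2 + 4 * (S2 (Fintype.card F) k - s4) * Ww z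
        + 2 * (mu (Fintype.card F) k 0 - 2 * S2 (Fintype.card F) k + s4) * Qz z := by
  unfold Hh
  rw [sq_double_sum]
  have e1 : ∀ c d : F, z c d * (∑ x, ∑ y, z x y * ∑ A ∈ powersetCard k (univ : Finset F),
        sp A c * sp A d * (sp A x * sp A y)) =
      (s4 * Tt z) * z c d + (S2 (Fintype.card F) k - s4) * (2 * (z c d * Zr z c) + 2 * (z c d * Zr z d))
        + (mu (Fintype.card F) k 0 - 2 * S2 (Fintype.card F) k + s4) * (2 * z c d ^ 2) := by
    intro c d
    by_cases hcd : c = d
    · subst hcd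
      rw [hd]; ring
    · rw [inner_sum hs hd k s4 hs4 hcd]; ring
  simp only [e1, sum_add_distrib, ← mul_sum, ← sum_mul]
  have a1 : ∑ c, (∑ d, z c d) * Zr z c = Ww z := by
    unfold Ww Zr
    exact sum_congr rfl (fun c _ => by ring)
  have a2 : ∑ c, ∑ d, z c d * Zr z d = Ww z := by
    rw [sum_comm]
    unfold Ww Zr
    apply sum_congr rfl
    intro d _
    rw [← sum_mul, sq]
    congr 1
    exact sum_congr rfl (fun c _ => hs c d)
  rw [a1, a2]
  unfold Tt Qz
  ring

/-! ## Inequalities between the three quadratic invariants -/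

theorem Tt_eq : Tt z = ∑ c, Zr z c := rfl

theorem Ww_eq : Ww z = ∑ c, Zr z c ^ 2 := rfl

theorem Tt_sq_le : Tt z ^ 2 ≤ (Fintype.card F : ℝ) * Ww z := by
  rw [Tt_eq, Ww_eq]
  have := sq_sum_le_card_mul_sum_sq (s := (univ : Finset F)) (f := fun c => Zr z c)
  simpa using this

theorem Qz_nonneg : 0 ≤ Qz z :=
  sum_nonneg (fun _ _ => sum_nonneg (fun _ _ => sq_nonneg _))

theorem fit_nonneg (hs : ∀ c d, z c d = z d c) (hd : ∀ c, z c c = 0) (a : F → ℝ) :
    0 ≤ Qz z - 4 * ∑ c, a c * Zr z c + (2 * (Fintype.card F : ℝ) - 4) * ∑ c, a c ^ 2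
      + 2 * (∑ c, a c) ^ 2 := by
  have h0 : 0 ≤ ∑ c, ∑ d, (if c = d then 0 else (z c d - a c - a d) ^ 2) := by
    apply sum_nonneg
    intro c _
    apply sum_nonneg
    intro d _
    split_ifs
    · exact le_refl _
    · exact sq_nonneg _
  have e1 : ∀ c d : F, (if c = d then 0 else (z c d - a c - a d) ^ 2) =
      z c d ^ 2 - 2 * (a c * z c d) - 2 * (z c d * a d) + a c ^ 2 + a d ^ 2 + 2 * (a c * a d)
        - (4 * a c ^ 2) * dl d c := by
    intro c d
    by_cases h : c = d
    · subst h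
      rw [if_pos rfl, hd]
      simp only [dl, if_true]
      ring
    · rw [if_neg h]
      simp only [dl, if_neg (Ne.symm h)]
      ring
  simp only [e1, sum_add_distrib, sum_sub_distrib, ← mul_sum, sum_const, card_univ,
    nsmul_eq_mul] at h0
  have a2 : ∑ c, ∑ d, z c d * a d = ∑ c, a c * Zr z c := by
    rw [sum_comm]
    apply sum_congr rfl
    intro d _
    rw [← sum_mul, mul_comm]
    congr 1
    exact sum_congr rfl (fun c _ => hs c d)
  have a3 : ∑ c, a c * ∑ d, a d = (∑ c, a c) ^ 2 := by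
    rw [← sum_mul, sq]
  have a4 : ∑ c, a c * ∑ d, z c d = ∑ c, a c * Zr z c := rfl
  have a5 : ∀ x : F, ∑ i, dl i x = 1 := by
    intro x
    simp [dl]
  rw [a2, a3, a4] at h0
  simp only [a5, mul_one, ← mul_sum] at h0
  unfold Qz
  linarith

theorem fit_nonneg' (hs : ∀ c d, z c d = z d c) (hd : ∀ c, z c c = 0) (s τ : ℝ) :
    0 ≤ Qz z - 4 * s * (Ww z - τ * Tt z)
      + (2 * (Fintype.card F : ℝ) - 4) * s ^ 2 *
        (Ww z - 2 * τ * Tt z + (Fintype.card F : ℝ) * τ ^ 2)
      + 2 * s ^ 2 * (Tt z - (Fintype.card F : ℝ) * τ) ^ 2 := by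
  have h := fit_nonneg hs hd (fun c => s * (Zr z c - τ))
  have b1 : ∑ c, s * (Zr z c - τ) * Zr z c = s * (Ww z - τ * Tt z) := by
    rw [Ww_eq, Tt_eq, mul_sum, ← sum_sub_distrib, mul_sum]
    exact sum_congr rfl (fun c _ => by ring)
  have b2 : ∑ c, (s * (Zr z c - τ)) ^ 2 =
      s ^ 2 * (Ww z - 2 * τ * Tt z + (Fintype.card F : ℝ) * τ ^ 2) := by
    have : ∀ c : F, (s * (Zr z c - τ)) ^ 2 =
        s ^ 2 * Zr z c ^ 2 - 2 * τ * s ^ 2 * Zr z c + s ^ 2 * τ ^ 2 := fun c => by ring
    simp only [this, sum_add_distrib, sum_sub_distrib, ← mul_sum, sum_const, card_univ,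
      nsmul_eq_mul]
    rw [Ww_eq, Tt_eq]
    ring
  have b3 : ∑ c, s * (Zr z c - τ) = s * (Tt z - (Fintype.card F : ℝ) * τ) := by
    rw [← mul_sum, sum_sub_distrib, Tt_eq]
    simp
  rw [b1, b2, b3] at h
  linarith

theorem Ww_le (hs : ∀ c d, z c d = z d c) (hd : ∀ c, z c c = 0) (hm : 2 ≤ Fintype.card F) :
    Ww z ≤ ((Fintype.card F : ℝ) - 2) / 2 * Qz z + Tt z ^ 2 / (2 * ((Fintype.card F : ℝ) - 1)) := by
  have hm' : (2 : ℝ) ≤ (Fintype.card F : ℝ) := by exact_mod_cast hm
  rcases hm.lt_or_eq with h3 | h2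
  · have h3' : (3 : ℝ) ≤ (Fintype.card F : ℝ) := by exact_mod_cast h3
    have h := fit_nonneg' hs hd (1 / ((Fintype.card F : ℝ) - 2))
      (Tt z / (2 * ((Fintype.card F : ℝ) - 1)))
    have hp : (0 : ℝ) < (Fintype.card F : ℝ) - 2 := by linarith
    have hq : (0 : ℝ) < (Fintype.card F : ℝ) - 1 := by linarith
    have key : ((Fintype.card F : ℝ) - 2) / 2 * Qz z + Tt z ^ 2 / (2 * ((Fintype.card F : ℝ) - 1))
        - Ww z = ((Fintype.card F : ℝ) - 2) / 2 *
      (Qz z - 4 * (1 / ((Fintype.card F : ℝ) - 2)) *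
          (Ww z - Tt z / (2 * ((Fintype.card F : ℝ) - 1)) * Tt z)
      + (2 * (Fintype.card F : ℝ) - 4) * (1 / ((Fintype.card F : ℝ) - 2)) ^ 2 *
        (Ww z - 2 * (Tt z / (2 * ((Fintype.card F : ℝ) - 1))) * Tt z
          + (Fintype.card F : ℝ) * (Tt z / (2 * ((Fintype.card F : ℝ) - 1))) ^ 2)
      + 2 * (1 / ((Fintype.card F : ℝ) - 2)) ^ 2 *
        (Tt z - (Fintype.card F : ℝ) * (Tt z / (2 * ((Fintype.card F : ℝ) - 1)))) ^ 2) := by
      field_simp
      ring
    have : 0 ≤ ((Fintype.card F : ℝ) - 2) / 2 * Qz z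
        + Tt z ^ 2 / (2 * ((Fintype.card F : ℝ) - 1)) - Ww z := by
      rw [key]
      exact mul_nonneg (by linarith) h
    linarith
  · have h2' : (Fintype.card F : ℝ) = 2 := by exact_mod_cast h2.symm
    rw [h2']
    by_contra hcon
    rw [not_le] at hcon
    norm_num at hcon
    have hpos : 0 < Ww z - Tt z ^ 2 / 2 := by linarith
    have h := fit_nonneg' hs hd ((Qz z + 1) / (4 * (Ww z - Tt z ^ 2 / 2))) (Tt z / 2)
    rw [h2'] at h
    have e : 4 * ((Qz z + 1) / (4 * (Ww z - Tt z ^ 2 / 2))) * (Ww z - Tt z / 2 * Tt z) = Qz z + 1 := by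
      have : Ww z - Tt z / 2 * Tt z = Ww z - Tt z ^ 2 / 2 := by ring
      rw [this]
      have gen : ∀ D : ℝ, 0 < D → 4 * ((Qz z + 1) / (4 * D)) * D = Qz z + 1 := by
        intro D hD
        field_simp
      exact gen _ hpos
    rw [e] at h
    have e2 : Tt z - 2 * (Tt z / 2) = 0 := by ring
    rw [e2] at h
    norm_num at h

/-! ## The core inequality in real numbers -/

theorem core_ineq (m k N α γ Q W T : ℝ) (hm : 2 ≤ m) (hk1 : 1 ≤ k) (hk2 : k ≤ m - 1) (hN : 0 < N)
    (h4 : 4 ≤ m ∨ γ = 0)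
    (R1 : m * (m - 1) * α = N * k * (m - k))
    (R2 : (m - 2) * (m - 3) * γ = α * (k - 1) * (m - k - 1))
    (I1 : W ≤ (m - 2) / 2 * Q + T ^ 2 / (2 * (m - 1))) (I2 : T ^ 2 ≤ m * W) :
    γ * T ^ 2 - α ^ 2 * T ^ 2 / N + (α - 4 * γ) * W + 2 * γ * Q ≤ (m - 2) / 2 * α * Q := by
  have hm0 : 0 < m := by linarith
  have hm1 : 0 < m - 1 := by linarith
  have hmm : 0 < m * (m - 1) := mul_pos hm0 hm1
  have hα : 0 ≤ α := by
    have h1 : 0 ≤ N * k * (m - k) := by
      apply mul_nonneg (mul_nonneg hN.le (by linarith)) (by linarith)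
    rw [← R1] at h1
    by_contra hneg
    rw [not_le] at hneg
    have := mul_neg_of_pos_of_neg hmm hneg
    linarith
  obtain ⟨U, hU⟩ : ∃ U, T ^ 2 = m * (m - 1) * U := ⟨T ^ 2 / (m * (m - 1)), by field_simp⟩
  have hU0 : 0 ≤ U := by
    have h1 : 0 ≤ m * (m - 1) * U := hU ▸ sq_nonneg T
    by_contra hneg
    rw [not_le] at hneg
    have := mul_neg_of_pos_of_neg hmm hneg
    linarith
  have e1 : α ^ 2 * T ^ 2 / N = α * (k * (m - k)) * U := by
    rw [hU, div_eq_iff hN.ne']
    linear_combination (α * U) * R1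
  have e2 : α * (k * (m - k)) = (m - 2) * (m - 3) * γ + (m - 1) * α := by
    linear_combination -R2
  have I1' : W ≤ (m - 2) / 2 * Q + m / 2 * U := by
    have : T ^ 2 / (2 * (m - 1)) = m / 2 * U := by
      rw [hU]
      field_simp
    rwa [this] at I1
  have I2' : (m - 1) * U ≤ W := by
    rw [hU] at I2
    have : m * ((m - 1) * U) ≤ m * W := by linarith
    exact le_of_mul_le_mul_left this hm0
  rw [e1, e2, hU]
  rcases h4 with h4 | h0
  · -- `4 ≤ m`
    have hp : 0 < (m - 2) * (m - 3) := mul_pos (by linarith) (by linarith)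
    have hγ : 0 ≤ γ := by
      have h1 : 0 ≤ α * (k - 1) * (m - k - 1) :=
        mul_nonneg (mul_nonneg hα (by linarith)) (by linarith)
      rw [← R2] at h1
      by_contra hneg
      rw [not_le] at hneg
      have := mul_neg_of_pos_of_neg hp hneg
      linarith
    have h4γ : 4 * γ ≤ (m - 2) * α := by
      have h1 : 4 * ((k - 1) * (m - k - 1)) ≤ (m - 2) ^ 2 := by nlinarith [sq_nonneg (2 * k - m)]
      have h2 : (m - 2) * (m - 3) * (4 * γ) ≤ (m - 2) * (m - 3) * ((m - 2) * α) := by
        have h3 : (m - 2) * (m - 3) * (4 * γ) = α * (4 * ((k - 1) * (m - k - 1))) := by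
          linear_combination 4 * R2
        rw [h3]
        have h5 : α * (4 * ((k - 1) * (m - k - 1))) ≤ α * (m - 2) ^ 2 :=
          mul_le_mul_of_nonneg_left h1 hα
        have h6 : α * (m - 2) ^ 2 ≤ (m - 2) * (m - 3) * ((m - 2) * α) := by
          have : 0 ≤ α * (m - 2) ^ 2 * (m - 4) :=
            mul_nonneg (mul_nonneg hα (sq_nonneg _)) (by linarith)
          nlinarith
        linarith
      exact le_of_mul_le_mul_left h2 hp
    have I3 : U ≤ Q := by
      have : (m - 2) / 2 * U ≤ (m - 2) / 2 * Q := by linarith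
      exact le_of_mul_le_mul_left this (by linarith)
    rcases le_total 0 (α - 4 * γ) with hA | hB
    · have h1 := mul_le_mul_of_nonneg_left I1' hA
      have h2 : 0 ≤ (m - 2) / 2 * α * U := mul_nonneg (mul_nonneg (by linarith) hα) hU0
      have h3 : 0 ≤ (2 * m - 6) * γ * (Q - U) :=
        mul_nonneg (mul_nonneg (by linarith) hγ) (by linarith)
      nlinarith
    · have h1 : (α - 4 * γ) * W ≤ (α - 4 * γ) * ((m - 1) * U) :=
        mul_le_mul_of_nonpos_left I2' hB
      have h2 : (4 * γ) * (Q - U) ≤ ((m - 2) * α) * (Q - U) :=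
        mul_le_mul_of_nonneg_right h4γ (by linarith)
      have h3 : 0 ≤ (m - 2) * α * U := mul_nonneg (mul_nonneg (by linarith) hα) hU0
      nlinarith
  · subst h0
    have h1 := mul_le_mul_of_nonneg_left I1' hα
    have h2 : 0 ≤ (m - 2) / 2 * α * U := mul_nonneg (mul_nonneg (by linarith) hα) hU0
    nlinarith

/-! ## The cut functional -/

variable (z) in
/-- total weight of the pairs split by `A`. -/
noncomputable def cut (A : Finset F) : ℝ := ∑ c ∈ A, ∑ d ∈ Aᶜ, z c d

theorem sum_mem_eq (A : Finset F) (g : F → ℝ) : ∑ c ∈ A, g c = ∑ c, ind A c * g c := by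
  simp [ind, sum_ite_mem]

theorem sum_compl_eq (A : Finset F) (g : F → ℝ) : ∑ c ∈ Aᶜ, g c = ∑ c, (1 - ind A c) * g c := by
  have h := sum_compl_add_sum A g
  have h2 : ∑ c, (1 - ind A c) * g c = ∑ c, g c - ∑ c, ind A c * g c := by
    rw [← sum_sub_distrib]
    exact sum_congr rfl (fun c _ => by ring)
  rw [h2, ← sum_mem_eq]
  linarith

theorem cut_eq (hs : ∀ c d, z c d = z d c) (A : Finset F) : cut z A = Tt z / 4 - Hh z A / 4 := by
  have h1 : cut z A = ∑ c, ∑ d, z c d * (ind A c * (1 - ind A d)) := by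
    unfold cut
    rw [sum_mem_eq]
    apply sum_congr rfl
    intro c _
    rw [sum_compl_eq, mul_sum]
    exact sum_congr rfl (fun d _ => by ring)
  have h2 : cut z A = ∑ c, ∑ d, z c d * (ind A d * (1 - ind A c)) := by
    rw [h1, sum_comm]
    apply sum_congr rfl
    intro c _
    apply sum_congr rfl
    intro d _
    rw [hs d c]
  have h3 : 2 * cut z A = Tt z / 2 - Hh z A / 2 := by
    have : 2 * cut z A = cut z A + cut z A := by ring
    rw [this]
    nth_rewrite 1 [h1]
    rw [h2]
    unfold Tt Hh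
    rw [← sum_add_distrib, div_eq_mul_inv, div_eq_mul_inv, sum_mul, sum_mul, ← sum_sub_distrib]
    apply sum_congr rfl
    intro c _
    rw [← sum_add_distrib, sum_mul, sum_mul, ← sum_sub_distrib]
    apply sum_congr rfl
    intro d _
    rw [sp_eq, sp_eq]
    ring
  linarith

theorem variance_formula {ι : Type*} (Ω : Finset ι) (g : ι → ℝ) (hΩ : (Ω.card : ℝ) ≠ 0) :
    ∑ A ∈ Ω, (g A - (∑ B ∈ Ω, g B) / Ω.card) ^ 2 =
      ∑ A ∈ Ω, g A ^ 2 - (∑ B ∈ Ω, g B) ^ 2 / Ω.card := by
  have e : ∀ A, (g A - (∑ B ∈ Ω, g B) / Ω.card) ^ 2 =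
      g A ^ 2 - 2 * ((∑ B ∈ Ω, g B) / Ω.card) * g A + ((∑ B ∈ Ω, g B) / Ω.card) ^ 2 := by
    intro A; ring
  simp only [e, sum_add_distrib, sum_sub_distrib, ← mul_sum, sum_const, nsmul_eq_mul]
  field_simp
  ring

/-- the main case `1 ≤ k ≤ m - 1`. -/
theorem cut_variance_main (hs : ∀ c d, z c d = z d c) (hd : ∀ c, z c c = 0) (k : ℕ)
    (hk1 : 1 ≤ k) (hk2 : k + 1 ≤ Fintype.card F) :
    ∑ A ∈ powersetCard k (univ : Finset F),
        (cut z A - (∑ B ∈ powersetCard k (univ : Finset F), cut z B) /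
          ((powersetCard k (univ : Finset F)).card : ℝ)) ^ 2 ≤
      ((Fintype.card F : ℝ) - 2) / 2 * (mu (Fintype.card F) k 1 - mu (Fintype.card F) k 2) *
        Qz z := by
  set m := Fintype.card F with hmdef
  have hm2 : 2 ≤ m := by omega
  have hNpos : 0 < mu m k 0 := by
    unfold mu
    rw [if_pos (Nat.zero_le _)]
    have : 0 < (m - 0).choose (k - 0) := Nat.choose_pos (by simp; omega)
    exact_mod_cast this
  have hcard : ((powersetCard k (univ : Finset F)).card : ℝ) = mu m k 0 := mom0 k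
  have rec0 := mu_rec m k 0 (by omega)
  have rec1 := mu_rec m k 1 (by omega)
  -- choice of the fourth moment
  obtain ⟨s4, hs4, hγ, R2⟩ : ∃ s4 : ℝ,
      (∀ c d x y : F, c ≠ d → c ≠ x → c ≠ y → d ≠ x → d ≠ y → x ≠ y →
        ∑ A ∈ powersetCard k (univ : Finset F), sp A c * sp A d * (sp A x * sp A y) = s4) ∧
      ((4 : ℝ) ≤ m ∨ (mu m k 0 - 2 * S2 m k + s4) / 16 = 0) ∧
      ((m : ℝ) - 2) * ((m : ℝ) - 3) * ((mu m k 0 - 2 * S2 m k + s4) / 16) =
        (mu m k 1 - mu m k 2) * ((k : ℝ) - 1) * ((m : ℝ) - k - 1) := by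
    by_cases h4 : 4 ≤ m
    · refine ⟨S4 m k, fun c d x y h1 h2 h3 h4 h5 h6 => spin4 k h1 h2 h3 h4 h5 h6,
        Or.inl (by exact_mod_cast h4), ?_⟩
      have rec2 := mu_rec m k 2 (by omega)
      have rec3 := mu_rec m k 3 (by omega)
      unfold S2 S4
      push_cast at rec0 rec1 rec2 rec3
      norm_num at rec0 rec1 rec2 rec3
      linear_combination ((m : ℝ) - 2) * rec3 + ((k : ℝ) - 3 - 2 * ((m : ℝ) - 3)) * rec2
        + ((m : ℝ) - k - 1) * rec1
    · refine ⟨2 * S2 m k - mu m k 0, ?_, Or.inr (by ring), ?_⟩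
      · intro c d x y h1 h2 h3 h4' h5 h6
        exfalso
        have hc : ({c, d, x, y} : Finset F).card = 4 := by
          rw [card_insert_of_notMem (by simp [h1, h2, h3]),
            card_eq_three.2 ⟨d, x, y, h4', h5, h6, rfl⟩]
        have := card_le_univ ({c, d, x, y} : Finset F)
        omega
      · have hz : (mu m k 0 - 2 * S2 m k + (2 * S2 m k - mu m k 0)) / 16 = 0 := by ring
        rw [hz, mul_zero]
        have hcases : (k = 1 ∨ k + 1 = m) := by omega
        rcases hcases with h | h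
        · subst h
          simp
        · have : (m : ℝ) = (k : ℝ) + 1 := by exact_mod_cast h.symm
          rw [this]
          ring
  have hH : ∀ A : Finset F, cut z A = Tt z / 4 - Hh z A / 4 := cut_eq hs
  rw [variance_formula _ _ (by rw [hcard]; exact hNpos.ne'), hcard]
  have c1 : ∑ A ∈ powersetCard k (univ : Finset F), cut z A =
      mu m k 0 * (Tt z / 4) - S2 m k * Tt z / 4 := by
    simp only [hH, sum_sub_distrib, sum_const, nsmul_eq_mul, hcard, ← sum_div, sum_Hh k hd]
    rfl
  have c2 : ∑ A ∈ powersetCard k (univ : Finset F), cut z A ^ 2 =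
      mu m k 0 * (Tt z / 4) ^ 2 - 2 * (Tt z / 4) * (S2 m k * Tt z / 4)
        + (s4 * Tt z ^ 2 + 4 * (S2 m k - s4) * Ww z
          + 2 * (mu m k 0 - 2 * S2 m k + s4) * Qz z) / 16 := by
    have e : ∀ A : Finset F, cut z A ^ 2 =
        (Tt z / 4) ^ 2 - 2 * (Tt z / 4) * (Hh z A / 4) + Hh z A ^ 2 / 16 := by
      intro A
      rw [hH]; ring
    simp only [e, sum_add_distrib, sum_sub_distrib, sum_const, nsmul_eq_mul, hcard, ← sum_div,
      ← mul_sum, sum_Hh k hd, sum_Hh_sq hs hd k s4 hs4]
    rfl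
  rw [c1, c2]
  have R1 : (m : ℝ) * ((m : ℝ) - 1) * (mu m k 1 - mu m k 2) =
      mu m k 0 * (k : ℝ) * ((m : ℝ) - k) := by
    push_cast at rec0 rec1
    norm_num at rec0 rec1
    linear_combination ((m : ℝ) - k) * rec0 - (m : ℝ) * rec1
  have hcore := core_ineq (m : ℝ) (k : ℝ) (mu m k 0) (mu m k 1 - mu m k 2)
    ((mu m k 0 - 2 * S2 m k + s4) / 16) (Qz z) (Ww z) (Tt z) (by exact_mod_cast hm2)
    (by exact_mod_cast hk1) (by
      have : ((k + 1 : ℕ) : ℝ) ≤ (m : ℝ) := by exact_mod_cast hk2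
      push_cast at this
      linarith) hNpos hγ R1 R2 (Ww_le hs hd hm2) Tt_sq_le
  have hfin : mu m k 0 * (Tt z / 4) ^ 2 - 2 * (Tt z / 4) * (S2 m k * Tt z / 4)
        + (s4 * Tt z ^ 2 + 4 * (S2 m k - s4) * Ww z
          + 2 * (mu m k 0 - 2 * S2 m k + s4) * Qz z) / 16
        - (mu m k 0 * (Tt z / 4) - S2 m k * Tt z / 4) ^ 2 / mu m k 0 =
      (mu m k 0 - 2 * S2 m k + s4) / 16 * Tt z ^ 2
        - (mu m k 1 - mu m k 2) ^ 2 * Tt z ^ 2 / mu m k 0
        + ((mu m k 1 - mu m k 2) - 4 * ((mu m k 0 - 2 * S2 m k + s4) / 16)) * Ww z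
        + 2 * ((mu m k 0 - 2 * S2 m k + s4) / 16) * Qz z := by
    unfold S2
    field_simp
    ring
  rw [hfin]
  exact hcore

end Vale.Agent.Lib.P335G.CutVar
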