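import Vale.Agent.Lib.P335F1.KL
import Vale.Agent.Lib.P335G.AbsF1

/-!
# P335 (all degree vectors): the definitions used by the skeleton

`Ω` is always `realizations n dg`.  `E_ab f = cE Ω (relV {a, b}) f`.
-/

namespace Vale.Agent.Lib.P335
open Finset
open scoped Classical

variable {n : ℕ}

/-- `f` minus its average over the fibre of the pair `a b` (all pairs not meeting `a b` frozen) -/
noncomputable def gD (Ω : Finset (SimpleGraph (Fin n))) (a b : Fin n)
    (f : SimpleGraph (Fin n) → ℝ) (G : SimpleGraph (Fin n)) : ℝ :=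
  f G - cE Ω (relV {a, b}) f G

/-- four distinct vertices -/
def D4 (a b c d : Fin n) : Prop := a ≠ b ∧ a ≠ c ∧ a ≠ d ∧ b ≠ c ∧ b ≠ d ∧ c ≠ d

/-- the Gram numbers `<h_ab f, h_cd f>` -/
noncomputable def GG (Ω : Finset (SimpleGraph (Fin n))) (f : SimpleGraph (Fin n) → ℝ)
    (a b c d : Fin n) : ℝ :=
  ∑ G ∈ Ω, gD Ω a b f G * gD Ω c d f G

/-- the correction term `N_{ab|cd}` -/
noncomputable def NN (Ω : Finset (SimpleGraph (Fin n))) (f : SimpleGraph (Fin n) → ℝ)
    (a b c d : Fin n) : ℝ :=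
  ∑ G ∈ Ω.filter (fun G => Av G a b c d),
    (cE Ω (cutRel (relV {a, b}) (fun G => Av G a b c d)) f G - cE Ω (relV {a, b}) f G) ^ 2

/-- `H` is the other state of the alternating four-cycle `a c b d` of `G` -/
def SwR (a b c d : Fin n) (G H : SimpleGraph (Fin n)) : Prop :=
  Av G a b c d ∧ Av H a b c d ∧ G ≠ H ∧ relV {a, b} G H ∧ relV {c, d} G H

/-- the Dirichlet form of the switches on the four-cycle `a c b d` -/
noncomputable def DD (Ω : Finset (SimpleGraph (Fin n))) (f : SimpleGraph (Fin n) → ℝ)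
    (a b c d : Fin n) : ℝ :=
  ∑ G ∈ Ω, ∑ H ∈ Ω, if SwR a b c d G H then (f G - f H) ^ 2 else 0

end Vale.Agent.Lib.P335
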