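import Vale.Agent.Lib.P335G.F2Graph
import Vale.Agent.Lib.P335G.GDefs

/-!
# P335: inequality (F2) on graphs, the computations on one class
-/

namespace Vale.Agent.Lib.P335
open Finset
open scoped Classical

section AbsClass
variable {α : Type} [DecidableEq α] (Ω : Finset α) (r : α → α → Prop) [DecidableRel r]

theorem fib_cut_eq (hr : Equivalence r) (S : α → Prop) [DecidablePred S] {x0 x : α}
    (hx : x ∈ fib Ω r x0) (hS : S x) :
    fib Ω (cutRel r S) x = (fib Ω r x0).filter S := by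
  have hx' := mem_filter.mp hx
  ext y
  unfold fib
  rw [mem_filter, mem_filter, mem_filter]
  constructor
  · rintro ⟨hy, h1, h2⟩
    exact ⟨⟨hy, hr.trans hx'.2 h1⟩, h2.mp hS⟩
  · rintro ⟨⟨hy, h1⟩, h2⟩
    exact ⟨hy, hr.trans (hr.symm hx'.2) h1, ⟨fun _ => h2, fun _ => hS⟩⟩

/-- the correction term on one class -/
theorem class_NN (hr : Equivalence r) (S : α → Prop) [DecidablePred S] (f : α → ℝ) (x0 : α) :
    ∑ x ∈ fib Ω r x0, (if S x then (cE Ω (cutRel r S) f x - cE Ω r f x) ^ 2 else 0) =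
      (∑ x ∈ (fib Ω r x0).filter S, (f x - cE Ω r f x0)) ^ 2 / (((fib Ω r x0).filter S).card : ℝ) := by
  set Φ := fib Ω r x0 with hΦ
  set μ := cE Ω r f x0 with hμ
  rw [← sum_filter]
  have h1 : ∀ x ∈ Φ.filter S, (cE Ω (cutRel r S) f x - cE Ω r f x) ^ 2 =
      ((∑ y ∈ Φ.filter S, f y) / ((Φ.filter S).card : ℝ) - μ) ^ 2 := by
    intro x hx
    rw [mem_filter] at hx
    have e1 : cE Ω r f x = μ := (cE_class Ω r hr f (mem_filter.mp hx.1).2).symm
    rw [e1]
    unfold cE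
    rw [fib_cut_eq Ω r hr S hx.1 hx.2]
  rw [sum_congr rfl h1, sum_const, nsmul_eq_mul, sum_sub_distrib, sum_const, nsmul_eq_mul]
  by_cases hc : ((Φ.filter S).card : ℝ) = 0
  · rw [hc]; simp
  · field_simp

end AbsClass

section Fibre2
variable {n : ℕ}

/-- on the class of `G0`, for free `c d`: the switch is available iff `c d` are split -/
theorem av_iff_enc {dg : Fin n → ℕ} {a b : Fin n} (hab : a ≠ b) {G0 G : SimpleGraph (Fin n)}
    (hG0 : G0 ∈ realizations n dg) (hG : G ∈ realizations n dg) (h : relV {a, b} G0 G)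
    (x y : FrT a b G0) : Av G a b x.1 y.1 ↔ encG a b G0 G x ≠ encG a b G0 G y := by
  have h1 := adjInd_of_relV_mem hG0 hG hab h x.2
  have h2 := adjInd_of_relV_mem hG0 hG hab h y.2
  rw [av_iff_adjInd]
  unfold encG
  have e1 : (decide (G.Adj a x.1) ≠ decide (G.Adj a y.1)) ↔ adjInd G a x.1 ≠ adjInd G a y.1 := by
    unfold adjInd
    by_cases p : G.Adj a x.1 <;> by_cases q : G.Adj a y.1 <;> simp [p, q]
  rw [e1]
  have b1 := adjInd_le_one G a x.1
  have b2 := adjInd_le_one G a y.1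
  omega

/-- on the class of `G0`: if the switch is available then `c d` are free -/
theorem free_of_av {dg : Fin n → ℕ} {a b c d : Fin n} (h4 : D4 a b c d) {G0 G : SimpleGraph (Fin n)}
    (hG0 : G0 ∈ realizations n dg) (hG : G ∈ realizations n dg) (h : relV {a, b} G0 G)
    (hav : Av G a b c d) : c ∈ frS a b G0 ∧ d ∈ frS a b G0 := by
  obtain ⟨hab, hac, had, hbc, hbd, hcd⟩ := h4
  have k1 := kap_eq_of_relV hG0 hG hab h hac.symm hbc.symm
  have k2 := kap_eq_of_relV hG0 hG hab h had.symm hbd.symm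
  rw [av_iff_adjInd] at hav
  rw [mem_frS_iff_kap, mem_frS_iff_kap]
  refine ⟨⟨hac.symm, hbc.symm, ?_⟩, ⟨had.symm, hbd.symm, ?_⟩⟩
  · rw [k1]; unfold kap
    rw [adjInd_comm G c a, adjInd_comm G c b]; omega
  · rw [k2]; unfold kap
    rw [adjInd_comm G d a, adjInd_comm G d b]; omega

theorem not_av_self (G : SimpleGraph (Fin n)) (a b c : Fin n) : ¬ Av G a b c c := by
  unfold Av; tauto

/-- reindexing of the double sums -/
theorem sum_D4_eq (a b : Fin n) (hab : a ≠ b) (G0 : SimpleGraph (Fin n)) (W : Fin n → Fin n → ℝ)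
    (h1 : ∀ c, W c c = 0)
    (h2 : ∀ c d, D4 a b c d → (c ∉ frS a b G0 ∨ d ∉ frS a b G0) → W c d = 0) :
    ∑ c, ∑ d, (if D4 a b c d then W c d else 0) = ∑ x : FrT a b G0, ∑ y : FrT a b G0, W x.1 y.1 := by
  have e1 : ∑ x : FrT a b G0, ∑ y : FrT a b G0, W x.1 y.1 =
      ∑ c ∈ frS a b G0, ∑ d ∈ frS a b G0, W c d := by
    rw [← Finset.sum_coe_sort (frS a b G0) (fun c => ∑ d ∈ frS a b G0, W c d)]
    refine sum_congr rfl fun x _ => ?_
    rw [← Finset.sum_coe_sort (frS a b G0) (fun d => W x.1 d)]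
  rw [e1]
  have e2 : ∑ c ∈ frS a b G0, ∑ d ∈ frS a b G0, W c d =
      ∑ c, ∑ d, (if c ∈ frS a b G0 ∧ d ∈ frS a b G0 then W c d else 0) := by
    rw [← Finset.sum_filter_add_sum_filter_not univ (fun c => c ∈ frS a b G0)
      (fun c => ∑ d, (if c ∈ frS a b G0 ∧ d ∈ frS a b G0 then W c d else 0))]
    have z : ∑ c ∈ univ.filter (fun c => ¬ c ∈ frS a b G0),
        ∑ d, (if c ∈ frS a b G0 ∧ d ∈ frS a b G0 then W c d else 0) = 0 := by
      refine sum_eq_zero fun c hc => sum_eq_zero fun d _ => ?_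
      rw [mem_filter] at hc
      rw [if_neg (fun hh => hc.2 hh.1)]
    rw [z, add_zero, Finset.filter_mem_eq_inter, Finset.univ_inter]
    refine sum_congr rfl fun c hc => ?_
    rw [← Finset.sum_filter_add_sum_filter_not univ (fun d => d ∈ frS a b G0)
      (fun d => (if c ∈ frS a b G0 ∧ d ∈ frS a b G0 then W c d else 0))]
    have z' : ∑ d ∈ univ.filter (fun d => ¬ d ∈ frS a b G0),
        (if c ∈ frS a b G0 ∧ d ∈ frS a b G0 then W c d else 0) = 0 := by
      refine sum_eq_zero fun d hd => ?_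
      rw [mem_filter] at hd
      rw [if_neg (fun hh => hd.2 hh.2)]
    rw [z', add_zero, Finset.filter_mem_eq_inter, Finset.univ_inter]
    exact sum_congr rfl fun d hd => by rw [if_pos ⟨hc, hd⟩]
  rw [e2]
  refine sum_congr rfl fun c _ => sum_congr rfl fun d _ => ?_
  by_cases hm : c ∈ frS a b G0 ∧ d ∈ frS a b G0
  · rw [if_pos hm]
    by_cases hcd : c = d
    · subst hcd
      rw [h1 c]; simp
    · have hc := mem_frS.mp hm.1
      have hd := mem_frS.mp hm.2
      rw [if_pos ⟨hab, hc.1.symm, hd.1.symm, hc.2.1.symm, hd.2.1.symm, hcd⟩]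
  · rw [if_neg hm]
    by_cases h4 : D4 a b c d
    · rw [if_pos h4]
      exact h2 c d h4 (by tauto)
    · rw [if_neg h4]

end Fibre2

end Vale.Agent.Lib.P335
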