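import Vale.Agent.Lib.P335G.JohnsonF2
import Vale.Agent.Lib.P335G.AbsF1
import Vale.Agent.Lib.P335F1.KL

/-!
# P335: inequality (F2) on graphs

Transport of `johnson_F2` to the classes of `relV {a,b}` inside `realizations n d`.
-/

namespace Vale.Agent.Lib.P335
open Finset
open scoped Classical

section ClassSum
variable {α : Type} [DecidableEq α] (Ω : Finset α) (r : α → α → Prop) [DecidableRel r]

theorem sum_eq_sum_cE (hr : Equivalence r) (g : α → ℝ) :
    ∑ x ∈ Ω, g x = ∑ x ∈ Ω, cE Ω r g x := by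
  have h := cE_symm Ω r hr (fun _ => 1) g
  have h1 : ∀ x ∈ Ω, cE Ω r (fun _ => (1 : ℝ)) x = 1 :=
    fun x hx => cE_of_inv Ω r hr _ hx (fun _ _ _ => rfl)
  have h2 : ∑ x ∈ Ω, cE Ω r (fun _ => (1 : ℝ)) x * g x = ∑ x ∈ Ω, g x :=
    sum_congr rfl fun x hx => by rw [h1 x hx, one_mul]
  rw [h2] at h
  rw [← h]
  exact sum_congr rfl fun x _ => by rw [one_mul]

theorem sum_nonneg_of_class (hr : Equivalence r) (g : α → ℝ)
    (h : ∀ x ∈ Ω, 0 ≤ ∑ y ∈ fib Ω r x, g y) : 0 ≤ ∑ x ∈ Ω, g x := by
  rw [sum_eq_sum_cE Ω r hr g]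
  refine sum_nonneg fun x hx => ?_
  unfold cE
  exact div_nonneg (h x hx) (Nat.cast_nonneg _)

end ClassSum

section AbsJ
variable {α : Type} {F : Type} [Fintype F] [DecidableEq F]

/-- `johnson_F2` transported along a bijection `enc / dec` between a finite set `Φ` and a layer -/
theorem johnson_F2_transport (Φ : Finset α) (k : ℕ) (enc : α → F → Bool) (dec : (F → Bool) → α)
    (h1 : ∀ G ∈ Φ, enc G ∈ jfLay k) (h2 : ∀ t ∈ jfLay (F := F) k, dec t ∈ Φ)
    (h3 : ∀ G ∈ Φ, dec (enc G) = G) (h4 : ∀ t ∈ jfLay (F := F) k, enc (dec t) = t)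
    (f : α → ℝ) (μ : ℝ) (hμ : μ = (∑ G ∈ Φ, f G) / (Φ.card : ℝ)) :
    4 * ∑ x : F, ∑ y : F, (∑ G ∈ Φ.filter (fun G => enc G x ≠ enc G y), (f G - μ)) ^ 2 /
          ((Φ.filter (fun G => enc G x ≠ enc G y)).card : ℝ)
        + 8 * ∑ G ∈ Φ, (f G - μ) ^ 2
      ≤ ∑ x : F, ∑ y : F, ∑ G ∈ Φ, (f G - f (dec (jfTw x y (enc G)))) ^ 2 := by
  have key : ∀ g : α → ℝ, ∑ G ∈ Φ, g G = ∑ t ∈ jfLay (F := F) k, g (dec t) := by
    intro g
    exact Finset.sum_nbij' enc dec h1 h2 h3 h4 (fun G hG => by rw [h3 G hG])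
  have hcard : Φ.card = (jfLay (F := F) k).card :=
    Finset.card_nbij' enc dec h1 h2 h3 h4
  have hmean : jfMean k (fun t => f (dec t)) = μ := by
    unfold jfMean
    rw [hμ, key f, hcard]
  have hJ := johnson_F2 (F := F) k (fun t => f (dec t))
  rw [hmean] at hJ
  have e1 : ∑ G ∈ Φ, (f G - μ) ^ 2 = ∑ t ∈ jfLay (F := F) k, (f (dec t) - μ) ^ 2 :=
    key (fun G => (f G - μ) ^ 2)
  have e2 : ∀ x y : F, ∑ G ∈ Φ, (f G - f (dec (jfTw x y (enc G)))) ^ 2 =
      ∑ t ∈ jfLay (F := F) k, (f (dec t) - f (dec (jfTw x y t))) ^ 2 := by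
    intro x y
    rw [key (fun G => (f G - f (dec (jfTw x y (enc G)))) ^ 2)]
    exact sum_congr rfl fun t ht => by rw [h4 t ht]
  have e3 : ∀ x y : F, ∑ G ∈ Φ.filter (fun G => enc G x ≠ enc G y), (f G - μ) =
      ∑ t ∈ jfLay (F := F) k, jfXi x y t * (f (dec t) - μ) := by
    intro x y
    rw [sum_filter, key (fun G => if enc G x ≠ enc G y then (f G - μ) else 0)]
    refine sum_congr rfl fun t ht => ?_
    rw [h4 t ht]
    unfold jfXi
    by_cases h : t x = t y
    · simp [h]
    · simp [h]
  have e4 : ∀ x y : F, ((Φ.filter (fun G => enc G x ≠ enc G y)).card : ℝ) = (jfCnt k x y : ℝ) := by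
    intro x y
    unfold jfCnt
    congr 1
    refine Finset.card_nbij' enc dec ?_ ?_ ?_ ?_
    · intro G hG
      rw [mem_coe, mem_filter] at hG
      rw [mem_coe, mem_filter]
      exact ⟨h1 G hG.1, hG.2⟩
    · intro t ht
      rw [mem_coe, mem_filter] at ht
      rw [mem_coe, mem_filter]
      refine ⟨h2 t ht.1, ?_⟩
      rw [h4 t ht.1]
      exact ht.2
    · intro G hG
      rw [mem_coe, mem_filter] at hG
      exact h3 G hG.1
    · intro t ht
      rw [mem_coe, mem_filter] at ht
      exact h4 t ht.1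
  simp only [e1, e2, e3, e4]
  exact hJ

end AbsJ

section Fibre
variable {n : ℕ}

/-- the free vertices of the pair `a b`: adjacent to exactly one of them -/
noncomputable def frS (a b : Fin n) (G0 : SimpleGraph (Fin n)) : Finset (Fin n) :=
  univ.filter fun w => w ≠ a ∧ w ≠ b ∧ (G0.Adj a w ↔ ¬ G0.Adj b w)

theorem mem_frS {a b : Fin n} {G0 : SimpleGraph (Fin n)} {w : Fin n} :
    w ∈ frS a b G0 ↔ w ≠ a ∧ w ≠ b ∧ (G0.Adj a w ↔ ¬ G0.Adj b w) := by
  unfold frS
  rw [mem_filter]
  simp

theorem adjInd_eq_zero_iff (G : SimpleGraph (Fin n)) (u v : Fin n) :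
    adjInd G u v = 0 ↔ ¬ G.Adj u v := by
  unfold adjInd
  split_ifs with h <;> simp [h]

theorem mem_frS_iff_kap {a b : Fin n} {G0 : SimpleGraph (Fin n)} {w : Fin n} :
    w ∈ frS a b G0 ↔ w ≠ a ∧ w ≠ b ∧ kap G0 a b w = 1 := by
  rw [mem_frS]
  unfold kap adjInd
  simp only [G0.adj_comm w a, G0.adj_comm w b]
  by_cases h1 : G0.Adj a w <;> by_cases h2 : G0.Adj b w <;> simp [h1, h2]

/-- the edge `a b` is determined by the class -/
theorem adjInd_ab_of_relV {d : Fin n → ℕ} {G H : SimpleGraph (Fin n)} (hG : G ∈ realizations n d)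
    (hH : H ∈ realizations n d) {a b : Fin n} (hab : a ≠ b) (h : relV {a, b} G H) :
    adjInd G a b = adjInd H a b := by
  have key : ∀ K : SimpleGraph (Fin n), K ∈ realizations n d →
      d a + d b = 2 * adjInd K a b + ∑ w ∈ (univ.erase a).erase b, kap K a b w := by
    intro K hK
    have h1 := mem_real_iff.mp hK a
    have h2 := mem_real_iff.mp hK b
    rw [sum_split_pair a b hab] at h1 h2
    rw [adjInd_self] at h1 h2
    have h3 : ∑ w ∈ (univ.erase a).erase b, kap K a b w =
        ∑ w ∈ (univ.erase a).erase b, adjInd K a w + ∑ w ∈ (univ.erase a).erase b, adjInd K b w := by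
      rw [← sum_add_distrib]
      refine sum_congr rfl fun w _ => ?_
      unfold kap
      rw [adjInd_comm K w a, adjInd_comm K w b]
    rw [adjInd_comm K b a] at h2
    omega
  have e1 := key G hG
  have e2 := key H hH
  have e3 : ∑ w ∈ (univ.erase a).erase b, kap G a b w = ∑ w ∈ (univ.erase a).erase b, kap H a b w := by
    refine sum_congr rfl fun w hw => ?_
    rw [mem_erase, mem_erase] at hw
    exact kap_eq_of_relV hG hH hab h hw.2.1 hw.1
  omega

/-- off the free set the rows `a`, `b` are determined by the class -/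
theorem adjInd_of_relV_notMem {d : Fin n → ℕ} {G0 G : SimpleGraph (Fin n)}
    (hG0 : G0 ∈ realizations n d) (hG : G ∈ realizations n d) {a b : Fin n} (hab : a ≠ b)
    (h : relV {a, b} G0 G) {w : Fin n} (hw : w ∉ frS a b G0) :
    adjInd G a w = adjInd G0 a w ∧ adjInd G b w = adjInd G0 b w := by
  by_cases hwa : w = a
  · subst hwa
    rw [adjInd_self, adjInd_self, adjInd_comm G b w, adjInd_comm G0 b w]
    exact ⟨rfl, (adjInd_ab_of_relV hG0 hG hab h).symm⟩
  by_cases hwb : w = b
  · subst hwb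
    rw [adjInd_self, adjInd_self]
    exact ⟨(adjInd_ab_of_relV hG0 hG hab h).symm, rfl⟩
  have hk := kap_eq_of_relV hG0 hG hab h hwa hwb
  rw [mem_frS_iff_kap] at hw
  have hk1 : kap G0 a b w ≠ 1 := fun hh => hw ⟨hwa, hwb, hh⟩
  unfold kap at hk hk1
  rw [adjInd_comm G0 w a, adjInd_comm G0 w b] at hk hk1
  rw [adjInd_comm G w a, adjInd_comm G w b] at hk
  have b1 := adjInd_le_one G0 a w
  have b2 := adjInd_le_one G0 b w
  have b3 := adjInd_le_one G a w
  have b4 := adjInd_le_one G b w
  omega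

/-- on the free set the row `b` is the complement of the row `a` -/
theorem adjInd_of_relV_mem {d : Fin n → ℕ} {G0 G : SimpleGraph (Fin n)}
    (hG0 : G0 ∈ realizations n d) (hG : G ∈ realizations n d) {a b : Fin n} (hab : a ≠ b)
    (h : relV {a, b} G0 G) {w : Fin n} (hw : w ∈ frS a b G0) :
    adjInd G a w + adjInd G b w = 1 := by
  rw [mem_frS_iff_kap] at hw
  have hk := kap_eq_of_relV hG0 hG hab h hw.1 hw.2.1
  have := hw.2.2
  unfold kap at hk this
  rw [adjInd_comm G w a, adjInd_comm G w b] at hk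
  omega

/-- the type of free vertices -/
abbrev FrT (a b : Fin n) (G0 : SimpleGraph (Fin n)) := {w : Fin n // w ∈ frS a b G0}

/-- coding of a graph of the class: which free vertices are attached to `a` -/
noncomputable def encG (a b : Fin n) (G0 G : SimpleGraph (Fin n)) : FrT a b G0 → Bool :=
  fun w => decide (G.Adj a w.1)

/-- row `a` of the decoded graph -/
def attA (a b : Fin n) (G0 : SimpleGraph (Fin n)) (t : FrT a b G0 → Bool) (w : Fin n) : Prop :=
  if h : w ∈ frS a b G0 then t ⟨w, h⟩ = true else G0.Adj a w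

/-- row `b` of the decoded graph -/
def attB (a b : Fin n) (G0 : SimpleGraph (Fin n)) (t : FrT a b G0 → Bool) (w : Fin n) : Prop :=
  if h : w ∈ frS a b G0 then t ⟨w, h⟩ = false else G0.Adj b w

theorem attA_mem {a b : Fin n} {G0 : SimpleGraph (Fin n)} (t : FrT a b G0 → Bool) {w : Fin n}
    (h : w ∈ frS a b G0) : attA a b G0 t w ↔ t ⟨w, h⟩ = true := by
  unfold attA; rw [dif_pos h]

theorem attB_mem {a b : Fin n} {G0 : SimpleGraph (Fin n)} (t : FrT a b G0 → Bool) {w : Fin n}
    (h : w ∈ frS a b G0) : attB a b G0 t w ↔ t ⟨w, h⟩ = false := by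
  unfold attB; rw [dif_pos h]

theorem attA_notMem {a b : Fin n} {G0 : SimpleGraph (Fin n)} (t : FrT a b G0 → Bool) {w : Fin n}
    (h : w ∉ frS a b G0) : attA a b G0 t w ↔ G0.Adj a w := by
  unfold attA; rw [dif_neg h]

theorem attB_notMem {a b : Fin n} {G0 : SimpleGraph (Fin n)} (t : FrT a b G0 → Bool) {w : Fin n}
    (h : w ∉ frS a b G0) : attB a b G0 t w ↔ G0.Adj b w := by
  unfold attB; rw [dif_neg h]

theorem a_notMem_frS (a b : Fin n) (G0 : SimpleGraph (Fin n)) : a ∉ frS a b G0 := by
  rw [mem_frS]; tauto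

theorem b_notMem_frS (a b : Fin n) (G0 : SimpleGraph (Fin n)) : b ∉ frS a b G0 := by
  rw [mem_frS]; tauto

/-- the graph of the class of `G0` coded by `t` -/
def decG (a b : Fin n) (hab : a ≠ b) (G0 : SimpleGraph (Fin n)) (t : FrT a b G0 → Bool) :
    SimpleGraph (Fin n) where
  Adj u v := if u = a then attA a b G0 t v else if u = b then attB a b G0 t v
    else if v = a then attA a b G0 t u else if v = b then attB a b G0 t u else G0.Adj u v
  symm := ⟨by
    intro u v h
    by_cases hua : u = a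
    · subst hua
      rw [if_pos rfl] at h
      by_cases hva : v = u
      · subst hva; rw [if_pos rfl]; exact h
      · rw [if_neg hva]
        by_cases hvb : v = b
        · subst hvb
          rw [if_pos rfl]
          rw [attA_notMem t (b_notMem_frS u v G0)] at h
          rw [attB_notMem t (a_notMem_frS u v G0)]
          exact h.symm
        · rw [if_neg hvb, if_pos rfl]; exact h
    · rw [if_neg hua] at h
      by_cases hub : u = b
      · subst hub
        rw [if_pos rfl] at h
        by_cases hva : v = a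
        · subst hva
          rw [if_pos rfl]
          rw [attB_notMem t (a_notMem_frS v u G0)] at h
          rw [attA_notMem t (b_notMem_frS v u G0)]
          exact h.symm
        · rw [if_neg hva]
          by_cases hvb : v = u
          · subst hvb; rw [if_pos rfl]; exact h
          · rw [if_neg hvb, if_neg hua, if_pos rfl]; exact h
      · rw [if_neg hub] at h
        by_cases hva : v = a
        · subst hva
          rw [if_pos rfl] at h
          rw [if_pos rfl]; exact h
        · rw [if_neg hva] at h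
          rw [if_neg hva]
          by_cases hvb : v = b
          · subst hvb
            rw [if_pos rfl] at h
            rw [if_pos rfl]; exact h
          · rw [if_neg hvb] at h
            rw [if_neg hvb, if_neg hua, if_neg hub]
            exact h.symm⟩
  loopless := ⟨by
    intro u h
    by_cases hua : u = a
    · subst hua
      rw [if_pos rfl, attA_notMem t (a_notMem_frS u b G0)] at h
      exact G0.loopless.irrefl _ h
    · rw [if_neg hua] at h
      by_cases hub : u = b
      · subst hub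
        rw [if_pos rfl, attB_notMem t (b_notMem_frS a u G0)] at h
        exact G0.loopless.irrefl _ h
      · rw [if_neg hub, if_neg hua, if_neg hub] at h
        exact G0.loopless.irrefl _ h⟩

theorem decG_adj_a (a b : Fin n) (hab : a ≠ b) (G0 : SimpleGraph (Fin n)) (t : FrT a b G0 → Bool)
    (w : Fin n) : (decG a b hab G0 t).Adj a w ↔ attA a b G0 t w := by
  change (if a = a then attA a b G0 t w else _) ↔ _
  rw [if_pos rfl]

theorem decG_adj_b (a b : Fin n) (hab : a ≠ b) (G0 : SimpleGraph (Fin n)) (t : FrT a b G0 → Bool)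
    (w : Fin n) : (decG a b hab G0 t).Adj b w ↔ attB a b G0 t w := by
  change (if b = a then _ else if b = b then attB a b G0 t w else _) ↔ _
  rw [if_neg hab.symm, if_pos rfl]

theorem decG_adj_off (a b : Fin n) (hab : a ≠ b) (G0 : SimpleGraph (Fin n)) (t : FrT a b G0 → Bool)
    {u v : Fin n} (hua : u ≠ a) (hub : u ≠ b) (hva : v ≠ a) (hvb : v ≠ b) :
    (decG a b hab G0 t).Adj u v ↔ G0.Adj u v := by
  change (if u = a then _ else if u = b then _ else if v = a then _ else if v = b then _
    else G0.Adj u v) ↔ _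
  rw [if_neg hua, if_neg hub, if_neg hva, if_neg hvb]

theorem decG_relV (a b : Fin n) (hab : a ≠ b) (G0 : SimpleGraph (Fin n)) (t : FrT a b G0 → Bool) :
    relV {a, b} G0 (decG a b hab G0 t) := by
  intro u v hu hv
  simp only [mem_insert, mem_singleton, not_or] at hu hv
  exact (decG_adj_off a b hab G0 t hu.1 hu.2 hv.1 hv.2).symm

theorem adjInd_decG_a (a b : Fin n) (hab : a ≠ b) (G0 : SimpleGraph (Fin n)) (t : FrT a b G0 → Bool)
    (w : Fin n) : adjInd (decG a b hab G0 t) a w = if attA a b G0 t w then 1 else 0 := by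
  unfold adjInd
  simp only [decG_adj_a]

theorem adjInd_decG_b (a b : Fin n) (hab : a ≠ b) (G0 : SimpleGraph (Fin n)) (t : FrT a b G0 → Bool)
    (w : Fin n) : adjInd (decG a b hab G0 t) b w = if attB a b G0 t w then 1 else 0 := by
  unfold adjInd
  simp only [decG_adj_b]

theorem adjInd_decG_off (a b : Fin n) (hab : a ≠ b) (G0 : SimpleGraph (Fin n))
    (t : FrT a b G0 → Bool) {u v : Fin n} (hua : u ≠ a) (hub : u ≠ b) (hva : v ≠ a) (hvb : v ≠ b) :
    adjInd (decG a b hab G0 t) u v = adjInd G0 u v := by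
  unfold adjInd
  simp only [decG_adj_off a b hab G0 t hua hub hva hvb]

/-- number of free vertices attached to `a` -/
noncomputable def cntT {a b : Fin n} {G0 : SimpleGraph (Fin n)} (t : FrT a b G0 → Bool) : ℕ :=
  (univ.filter fun x : FrT a b G0 => t x = true).card

theorem sum_attA (a b : Fin n) (G0 : SimpleGraph (Fin n)) (t : FrT a b G0 → Bool) :
    ∑ w ∈ frS a b G0, (if attA a b G0 t w then 1 else 0) = cntT t := by
  rw [← Finset.sum_coe_sort (frS a b G0) (fun w => if attA a b G0 t w then 1 else 0)]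
  unfold cntT
  rw [Finset.card_filter]
  refine sum_congr rfl fun x _ => ?_
  simp only [attA_mem t x.2, Subtype.coe_eta]

theorem sum_adjInd_frS (a b : Fin n) (G0 G : SimpleGraph (Fin n)) :
    ∑ w ∈ frS a b G0, adjInd G a w = cntT (encG a b G0 G) := by
  rw [← Finset.sum_coe_sort (frS a b G0) (fun w => adjInd G a w)]
  unfold cntT
  rw [Finset.card_filter]
  refine sum_congr rfl fun x _ => ?_
  unfold adjInd encG
  simp only [decide_eq_true_eq]

theorem attAB_one (a b : Fin n) (G0 : SimpleGraph (Fin n)) (t : FrT a b G0 → Bool) {w : Fin n}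
    (hw : w ∈ frS a b G0) :
    (if attA a b G0 t w then 1 else 0) + (if attB a b G0 t w then 1 else 0) = 1 := by
  simp only [attA_mem t hw, attB_mem t hw]
  cases t ⟨w, hw⟩ <;> simp

theorem decG_mem {d : Fin n → ℕ} {a b : Fin n} (hab : a ≠ b) {G0 : SimpleGraph (Fin n)}
    (hG0 : G0 ∈ realizations n d) (t : FrT a b G0 → Bool)
    (ht : cntT t = cntT (encG a b G0 G0)) : decG a b hab G0 t ∈ realizations n d := by
  rw [mem_real_iff]
  have h0 := mem_real_iff.mp hG0
  have hA : ∑ w ∈ frS a b G0, (if attA a b G0 t w then 1 else 0) = ∑ w ∈ frS a b G0, adjInd G0 a w := by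
    rw [sum_attA, sum_adjInd_frS, ht]
  have hB : ∑ w ∈ frS a b G0, (if attB a b G0 t w then 1 else 0) = ∑ w ∈ frS a b G0, adjInd G0 b w := by
    have e1 : ∑ w ∈ frS a b G0, ((if attA a b G0 t w then 1 else 0) + (if attB a b G0 t w then 1 else 0))
        = ∑ w ∈ frS a b G0, (adjInd G0 a w + adjInd G0 b w) := by
      refine sum_congr rfl fun w hw => ?_
      rw [attAB_one a b G0 t hw, adjInd_of_relV_mem hG0 hG0 hab ((relV_equiv _).refl G0) hw]
    rw [sum_add_distrib, sum_add_distrib] at e1
    omega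
  intro v
  by_cases hva : v = a
  · subst hva
    rw [← h0 v, ← Finset.sum_add_sum_compl (frS v b G0), ← Finset.sum_add_sum_compl (frS v b G0)
      (fun w => adjInd G0 v w)]
    simp only [adjInd_decG_a]
    rw [hA]
    congr 1
    refine sum_congr rfl fun w hw => ?_
    rw [mem_compl] at hw
    unfold adjInd
    simp only [attA_notMem t hw]
  by_cases hvb : v = b
  · subst hvb
    rw [← h0 v, ← Finset.sum_add_sum_compl (frS a v G0), ← Finset.sum_add_sum_compl (frS a v G0)
      (fun w => adjInd G0 v w)]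
    simp only [adjInd_decG_b]
    rw [hB]
    congr 1
    refine sum_congr rfl fun w hw => ?_
    rw [mem_compl] at hw
    unfold adjInd
    simp only [attB_notMem t hw]
  rw [← h0 v, sum_split_pair a b hab, sum_split_pair a b hab (fun w => adjInd G0 v w)]
  have e1 : ∑ w ∈ (univ.erase a).erase b, adjInd (decG a b hab G0 t) v w =
      ∑ w ∈ (univ.erase a).erase b, adjInd G0 v w := by
    refine sum_congr rfl fun w hw => ?_
    rw [mem_erase, mem_erase] at hw
    exact adjInd_decG_off a b hab G0 t hva hvb hw.2.1 hw.1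
  rw [e1]
  congr 1
  rw [adjInd_comm _ v a, adjInd_comm _ v b, adjInd_comm G0 v a, adjInd_comm G0 v b,
    adjInd_decG_a, adjInd_decG_b]
  by_cases hv : v ∈ frS a b G0
  · rw [attAB_one a b G0 t hv, adjInd_of_relV_mem hG0 hG0 hab ((relV_equiv _).refl G0) hv]
  · unfold adjInd
    simp only [attA_notMem t hv, attB_notMem t hv]

theorem encG_cnt {d : Fin n → ℕ} {a b : Fin n} (hab : a ≠ b) {G0 G : SimpleGraph (Fin n)}
    (hG0 : G0 ∈ realizations n d) (hG : G ∈ realizations n d) (h : relV {a, b} G0 G) :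
    cntT (encG a b G0 G) = cntT (encG a b G0 G0) := by
  rw [← sum_adjInd_frS, ← sum_adjInd_frS]
  have h1 := mem_real_iff.mp hG a
  have h2 := mem_real_iff.mp hG0 a
  rw [← Finset.sum_add_sum_compl (frS a b G0)] at h1 h2
  have e : ∑ w ∈ (frS a b G0)ᶜ, adjInd G a w = ∑ w ∈ (frS a b G0)ᶜ, adjInd G0 a w := by
    refine sum_congr rfl fun w hw => ?_
    rw [mem_compl] at hw
    exact (adjInd_of_relV_notMem hG0 hG hab h hw).1
  omega

theorem encG_decG (a b : Fin n) (hab : a ≠ b) (G0 : SimpleGraph (Fin n)) (t : FrT a b G0 → Bool) :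
    encG a b G0 (decG a b hab G0 t) = t := by
  funext x
  unfold encG
  have := decG_adj_a a b hab G0 t x.1
  rw [attA_mem t x.2, Subtype.coe_eta] at this
  cases hx : t x
  · rw [decide_eq_false_iff_not, this, hx]; simp
  · rw [decide_eq_true_eq, this, hx]

theorem adj_iff_of_adjInd {G H : SimpleGraph (Fin n)} {u v : Fin n}
    (h : adjInd G u v = adjInd H u v) : G.Adj u v ↔ H.Adj u v := by
  rw [← adjInd_eq_one_iff, ← adjInd_eq_one_iff, h]

theorem decG_encG {d : Fin n → ℕ} {a b : Fin n} (hab : a ≠ b) {G0 G : SimpleGraph (Fin n)}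
    (hG0 : G0 ∈ realizations n d) (hG : G ∈ realizations n d) (h : relV {a, b} G0 G) :
    decG a b hab G0 (encG a b G0 G) = G := by
  have rowA : ∀ w, (decG a b hab G0 (encG a b G0 G)).Adj a w ↔ G.Adj a w := by
    intro w
    rw [decG_adj_a]
    by_cases hw : w ∈ frS a b G0
    · rw [attA_mem _ hw]
      unfold encG
      simp only [decide_eq_true_eq]
    · rw [attA_notMem _ hw]
      exact (adj_iff_of_adjInd (adjInd_of_relV_notMem hG0 hG hab h hw).1).symm
  have rowB : ∀ w, (decG a b hab G0 (encG a b G0 G)).Adj b w ↔ G.Adj b w := by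
    intro w
    rw [decG_adj_b]
    by_cases hw : w ∈ frS a b G0
    · rw [attB_mem _ hw]
      unfold encG
      simp only [decide_eq_false_iff_not]
      have := adjInd_of_relV_mem hG0 hG hab h hw
      rw [← adjInd_eq_zero_iff, ← adjInd_eq_one_iff]
      omega
    · rw [attB_notMem _ hw]
      exact (adj_iff_of_adjInd (adjInd_of_relV_notMem hG0 hG hab h hw).2).symm
  ext u v
  by_cases hua : u = a
  · subst hua; exact rowA v
  by_cases hub : u = b
  · subst hub; exact rowB v
  by_cases hva : v = a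
  · subst hva
    rw [SimpleGraph.adj_comm, G.adj_comm]; exact rowA u
  by_cases hvb : v = b
  · subst hvb
    rw [SimpleGraph.adj_comm, G.adj_comm]; exact rowB u
  rw [decG_adj_off a b hab G0 _ hua hub hva hvb]
  exact h u v (by simp [hua, hub]) (by simp [hva, hvb])

end Fibre

end Vale.Agent.Lib.P335
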