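import Vale.Agent.Lib.P335G.F2Class

namespace Vale.Agent.Lib.P335
open Finset
open scoped Classical

variable {n : ℕ}

theorem cntT_jfTw {a b : Fin n} {G0 : SimpleGraph (Fin n)} (x y : FrT a b G0)
    (t : FrT a b G0 → Bool) : cntT (jfTw x y t) = cntT t := by
  have h : t ∈ jfLay (cntT t) := by
    unfold jfLay cntT
    rw [mem_filter]
    exact ⟨mem_univ _, rfl⟩
  have h' := jfTw_mem x y h
  unfold jfLay at h'
  rw [mem_filter] at h'
  exact h'.2

theorem attA_congr {a b : Fin n} {G0 : SimpleGraph (Fin n)} (t t' : FrT a b G0 → Bool) {w : Fin n}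
    (hw : ∀ h : w ∈ frS a b G0, t ⟨w, h⟩ = t' ⟨w, h⟩) : attA a b G0 t w ↔ attA a b G0 t' w := by
  by_cases h : w ∈ frS a b G0
  · rw [attA_mem t h, attA_mem t' h, hw h]
  · rw [attA_notMem t h, attA_notMem t' h]

theorem attB_congr {a b : Fin n} {G0 : SimpleGraph (Fin n)} (t t' : FrT a b G0 → Bool) {w : Fin n}
    (hw : ∀ h : w ∈ frS a b G0, t ⟨w, h⟩ = t' ⟨w, h⟩) : attB a b G0 t w ↔ attB a b G0 t' w := by
  by_cases h : w ∈ frS a b G0
  · rw [attB_mem t h, attB_mem t' h, hw h]
  · rw [attB_notMem t h, attB_notMem t' h]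

theorem decG_adj_congr {a b : Fin n} (hab : a ≠ b) {G0 : SimpleGraph (Fin n)}
    (t t' : FrT a b G0 → Bool) {u v : Fin n}
    (hu : ∀ h : u ∈ frS a b G0, t ⟨u, h⟩ = t' ⟨u, h⟩)
    (hv : ∀ h : v ∈ frS a b G0, t ⟨v, h⟩ = t' ⟨v, h⟩) :
    (decG a b hab G0 t).Adj u v ↔ (decG a b hab G0 t').Adj u v := by
  by_cases hua : u = a
  · subst hua
    rw [decG_adj_a, decG_adj_a]; exact attA_congr t t' hv
  by_cases hub : u = b
  · subst hub
    rw [decG_adj_b, decG_adj_b]; exact attB_congr t t' hv
  by_cases hva : v = a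
  · subst hva
    rw [SimpleGraph.adj_comm, decG_adj_a, SimpleGraph.adj_comm, decG_adj_a]
    exact attA_congr t t' hu
  by_cases hvb : v = b
  · subst hvb
    rw [SimpleGraph.adj_comm, decG_adj_b, SimpleGraph.adj_comm, decG_adj_b]
    exact attB_congr t t' hu
  rw [decG_adj_off a b hab G0 t hua hub hva hvb, decG_adj_off a b hab G0 t' hua hub hva hvb]

theorem jfTw_off {F : Type} [DecidableEq F] (x y z : F) (t : F → Bool) (h1 : z ≠ x) (h2 : z ≠ y) :
    jfTw x y t z = t z := by
  unfold jfTw
  rw [Equiv.swap_apply_of_ne_of_ne h1 h2]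

theorem jfTw_left {F : Type} [DecidableEq F] (x y : F) (t : F → Bool) : jfTw x y t x = t y := by
  unfold jfTw
  rw [Equiv.swap_apply_left]

theorem jfTw_right {F : Type} [DecidableEq F] (x y : F) (t : F → Bool) : jfTw x y t y = t x := by
  unfold jfTw
  rw [Equiv.swap_apply_right]

theorem sw_sum_eq {dg : Fin n → ℕ} {a b : Fin n} (hab : a ≠ b) {G0 G : SimpleGraph (Fin n)}
    (hG0 : G0 ∈ realizations n dg) (hG : G ∈ realizations n dg) (h : relV {a, b} G0 G)
    (x y : FrT a b G0) (hxy : encG a b G0 G x ≠ encG a b G0 G y) (f : SimpleGraph (Fin n) → ℝ) :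
    ∑ H ∈ realizations n dg, (if SwR a b x.1 y.1 G H then (f G - f H) ^ 2 else 0) =
      (f G - f (decG a b hab G0 (jfTw x y (encG a b G0 G)))) ^ 2 := by
  set t := encG a b G0 G with ht
  set Hs := decG a b hab G0 (jfTw x y t) with hHs
  have hr := relV_equiv (n := n) {a, b}
  have hHsΩ : Hs ∈ realizations n dg :=
    decG_mem hab hG0 _ (by rw [cntT_jfTw, ht, encG_cnt hab hG0 hG h])
  have hHsrel : relV {a, b} G0 Hs := decG_relV a b hab G0 _
  have hencHs : encG a b G0 Hs = jfTw x y t := encG_decG a b hab G0 _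
  have hGdec : decG a b hab G0 t = G := decG_encG hab hG0 hG h
  have hB : SwR a b x.1 y.1 G Hs := by
    refine ⟨(av_iff_enc hab hG0 hG h x y).mpr hxy, ?_, ?_, hr.trans (hr.symm h) hHsrel, ?_⟩
    · rw [av_iff_enc hab hG0 hHsΩ hHsrel x y, hencHs, jfTw_left, jfTw_right]
      exact fun hh => hxy hh.symm
    · intro hh
      have : t x = jfTw x y t x := by
        rw [← hencHs, ← hh]
      rw [jfTw_left] at this
      exact hxy this
    · intro u v hu hv
      simp only [mem_insert, mem_singleton, not_or] at hu hv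
      rw [← hGdec]
      refine decG_adj_congr hab t (jfTw x y t) ?_ ?_
      · intro hm
        rw [jfTw_off]
        · intro hh; exact hu.1 (congrArg Subtype.val hh)
        · intro hh; exact hu.2 (congrArg Subtype.val hh)
      · intro hm
        rw [jfTw_off]
        · intro hh; exact hv.1 (congrArg Subtype.val hh)
        · intro hh; exact hv.2 (congrArg Subtype.val hh)
  have hC : ∀ H ∈ realizations n dg, SwR a b x.1 y.1 G H → H = Hs := by
    intro H hH hs
    obtain ⟨_, havH, hne, hrab, hrcd⟩ := hs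
    have hrelH : relV {a, b} G0 H := hr.trans h hrab
    have hHdec : decG a b hab G0 (encG a b G0 H) = H := decG_encG hab hG0 hH hrelH
    have hsplit := (av_iff_enc hab hG0 hH hrelH x y).mp havH
    have hoff : ∀ z : FrT a b G0, z ≠ x → z ≠ y → encG a b G0 H z = t z := by
      intro z hzx hzy
      have hxa := (mem_frS.mp x.2).1
      have hya := (mem_frS.mp y.2).1
      have := hrcd a z.1 (by simp [hxa.symm, hya.symm])
        (by
          simp only [mem_insert, mem_singleton, not_or]
          exact ⟨fun hh => hzx (Subtype.ext hh), fun hh => hzy (Subtype.ext hh)⟩)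
      rw [ht]
      unfold encG
      simp only [this]
    have hnot : ¬ (encG a b G0 H x = t x) := by
      intro hx
      have hy : encG a b G0 H y = t y := by
        cases h1 : encG a b G0 H y <;> cases h2 : t y <;> cases h3 : encG a b G0 H x <;>
          cases h4 : t x <;> simp_all
      have : encG a b G0 H = t := by
        funext z
        by_cases hzx : z = x
        · rw [hzx]; exact hx
        by_cases hzy : z = y
        · rw [hzy]; exact hy
        exact hoff z hzx hzy
      apply hne
      rw [← hGdec, ← hHdec, this]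
    have hfin : encG a b G0 H = jfTw x y t := by
      funext z
      by_cases hzx : z = x
      · rw [hzx, jfTw_left]
        cases h1 : encG a b G0 H y <;> cases h2 : t y <;> cases h3 : encG a b G0 H x <;>
          cases h4 : t x <;> simp_all
      by_cases hzy : z = y
      · rw [hzy, jfTw_right]
        cases h1 : encG a b G0 H y <;> cases h2 : t y <;> cases h3 : encG a b G0 H x <;>
          cases h4 : t x <;> simp_all
      rw [jfTw_off x y z t hzx hzy]
      exact hoff z hzx hzy
    rw [← hHdec, hfin]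
  rw [Finset.sum_eq_single Hs]
  · rw [if_pos hB]
  · intro H hH hne
    rw [if_neg (fun hs => hne (hC H hH hs))]
  · intro hh
    exact absurd hHsΩ hh

end Vale.Agent.Lib.P335
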