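import Vale.Agent.Lib.P335.Spec

/-!
# P335: the Johnson scheme lemmas (sharp gap `m` and inequality (F2))

Configurations are maps `a : F → Bool` with exactly `k` entries `true` (`jfLay k`), i.e. the
`k`-subsets of the `m`-set `F`.  `jfTw x y` transposes the positions `x y`.
-/

namespace Vale.Agent.Lib.P335
open Finset

section JohnsonF2
variable {F : Type} [Fintype F] [DecidableEq F]

/-- configurations with exactly `k` entries `true` -/
def jfLay (k : ℕ) : Finset (F → Bool) :=
  univ.filter fun a => (univ.filter fun j => a j = true).card = k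

/-- transposition of the positions `x y` -/
def jfTw (x y : F) (a : F → Bool) : F → Bool := fun j => a (Equiv.swap x y j)

/-- sign of an entry -/
def jfSg (a : F → Bool) (x : F) : ℝ := if a x = true then 1 else -1

/-- overlap of two configurations -/
def jfOvl (a b : F → Bool) : ℝ := ∑ x, jfSg a x * jfSg b x

/-- indicator of the event that the pair `x y` is split by `a` -/
def jfXi (x y : F) (a : F → Bool) : ℝ := if a x = a y then 0 else 1

/-- number of configurations of the layer splitting the pair `x y` -/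
def jfCnt (k : ℕ) (x y : F) : ℕ := ((jfLay (F := F) k).filter fun b => b x ≠ b y).card

theorem jfTw_mem {k : ℕ} {a : F → Bool} (x y : F) (h : a ∈ jfLay k) : jfTw x y a ∈ jfLay k := by
  simp only [jfLay, mem_filter, mem_univ, true_and] at h ⊢
  rw [← h]
  refine Finset.card_equiv (Equiv.swap x y) fun i => ?_
  rw [mem_filter, mem_filter]
  simp [jfTw]

omit [Fintype F] in
theorem jfTw_tw (x y : F) (a : F → Bool) : jfTw x y (jfTw x y a) = a := by
  funext j; simp [jfTw]

omit [Fintype F] in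
theorem jfTw_comm (x y : F) (a : F → Bool) : jfTw x y a = jfTw y x a := by
  funext j; simp [jfTw, Equiv.swap_comm]

omit [Fintype F] in
theorem jfTw_fix {c d : F} {a : F → Bool} (h : a c = a d) : jfTw c d a = a := by
  funext j
  unfold jfTw
  by_cases h1 : j = c
  · subst h1; simp [h]
  by_cases h2 : j = d
  · subst h2; simp [h]
  rw [Equiv.swap_apply_of_ne_of_ne h1 h2]

omit [Fintype F] in
theorem jfTw_conj (c d x y : F) (a : F → Bool) :
    jfTw c d (jfTw x y a) = jfTw (Equiv.swap c d x) (Equiv.swap c d y) (jfTw c d a) := by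
  funext j
  unfold jfTw
  rw [Equiv.swap_apply_apply]
  simp [Equiv.Perm.mul_apply]

theorem jf_sum_tw (k : ℕ) (c d : F) (G : (F → Bool) → ℝ) :
    ∑ b ∈ jfLay k, G (jfTw c d b) = ∑ b ∈ jfLay k, G b := by
  refine Finset.sum_nbij' (jfTw c d) (jfTw c d) (fun b hb => jfTw_mem c d hb)
    (fun b hb => jfTw_mem c d hb) (fun b _ => jfTw_tw c d b) (fun b _ => jfTw_tw c d b)
    (fun b _ => rfl)


/-- the layer is connected under transpositions -/
theorem jf_conn (k : ℕ) (v : (F → Bool) → ℝ)
    (h : ∀ a ∈ jfLay k, ∀ x y, v (jfTw x y a) = v a) :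
    ∀ a ∈ jfLay k, ∀ b ∈ jfLay k, v a = v b := by
  have key : ∀ n : ℕ, ∀ a ∈ jfLay (F := F) k, ∀ b ∈ jfLay (F := F) k,
      (univ.filter fun j => a j ≠ b j).card = n → v a = v b := by
    intro n
    induction n using Nat.strong_induction_on with
    | _ n ih =>
      intro a ha b hb hn
      by_cases hab : a = b
      · rw [hab]
      have hex : ∃ x, a x ≠ b x := by
        by_contra hcon
        push Not at hcon
        exact hab (funext hcon)
      obtain ⟨x, hx⟩ := hex
      have hca : (univ.filter fun j => a j = true).card = k := by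
        simpa [jfLay] using ha
      have hcb : (univ.filter fun j => b j = true).card = k := by
        simpa [jfLay] using hb
      -- the opposite discrepancy
      have hy : ∃ y, a y = b x ∧ b y = a x := by
        by_contra hcon
        push Not at hcon
        cases hax : a x with
        | true =>
          have hbx : b x = false := by
            cases hbx : b x with
            | true => exact absurd (hax.trans hbx.symm) hx
            | false => rfl
          have hss : (univ.filter fun j => b j = true) ⊂ (univ.filter fun j => a j = true) := by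
            refine (Finset.ssubset_iff_of_subset ?_).2 ⟨x, by simp [hax], by simp [hbx]⟩
            intro j hj
            simp only [mem_filter, mem_univ, true_and] at hj ⊢
            by_contra hj2
            have hj3 : a j = false := by simpa using hj2
            exact hcon j (by rw [hj3, hbx]) (by rw [hj, hax])
          have := Finset.card_lt_card hss
          omega
        | false =>
          have hbx : b x = true := by
            cases hbx : b x with
            | false => exact absurd (hax.trans hbx.symm) hx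
            | true => rfl
          have hss : (univ.filter fun j => a j = true) ⊂ (univ.filter fun j => b j = true) := by
            refine (Finset.ssubset_iff_of_subset ?_).2 ⟨x, by simp [hbx], by simp [hax]⟩
            intro j hj
            simp only [mem_filter, mem_univ, true_and] at hj ⊢
            by_contra hj2
            have hj3 : b j = false := by simpa using hj2
            exact hcon j (by rw [hj, hbx]) (by rw [hj3, hax])
          have := Finset.card_lt_card hss
          omega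
      obtain ⟨y, hy1, hy2⟩ := hy
      have hlt : (univ.filter fun j => jfTw x y a j ≠ b j).card < n := by
        rw [← hn]
        apply Finset.card_lt_card
        refine (Finset.ssubset_iff_of_subset ?_).2 ⟨x, by simp [hx], ?_⟩
        · intro j hj
          simp only [mem_filter, mem_univ, true_and] at hj ⊢
          by_cases h1 : j = x
          · subst h1; exact hx
          by_cases h2 : j = y
          · subst h2
            exfalso; apply hj
            simp [jfTw, hy2]
          · simpa [jfTw, Equiv.swap_apply_of_ne_of_ne h1 h2] using hj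
        · rw [mem_filter]
          simp [jfTw, hy1]
      rw [← h a ha x y]
      exact ih _ hlt _ (jfTw_mem x y ha) b hb rfl
  intro a ha b hb
  exact key _ a ha b hb rfl

theorem jfCnt_swap (k : ℕ) (c d x y : F) :
    jfCnt k (Equiv.swap c d x) (Equiv.swap c d y) = jfCnt k x y := by
  unfold jfCnt
  refine Finset.card_nbij' (jfTw c d) (jfTw c d) ?_ ?_ (fun b _ => jfTw_tw c d b)
    (fun b _ => jfTw_tw c d b)
  · intro b hb
    rw [mem_coe, mem_filter] at hb ⊢
    exact ⟨jfTw_mem c d hb.1, hb.2⟩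
  · intro b hb
    rw [mem_coe, mem_filter] at hb ⊢
    refine ⟨jfTw_mem c d hb.1, ?_⟩
    simpa [jfTw] using hb.2

theorem jfCnt_eq (k : ℕ) {x y x' y' : F} (h : x ≠ y) (h' : x' ≠ y') :
    jfCnt k x y = jfCnt k x' y' := by
  set y1 := Equiv.swap x x' y with hy1
  have h1 : jfCnt k x' y1 = jfCnt k x y := by
    have := jfCnt_swap k x x' x y
    rwa [Equiv.swap_apply_left] at this
  have hne : x' ≠ y1 := by
    intro hcon
    have : Equiv.swap x x' x = Equiv.swap x x' y := by
      rw [Equiv.swap_apply_left]; exact hcon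
    exact h ((Equiv.swap x x').injective this)
  have h2 : jfCnt k x' y' = jfCnt k x' y1 := by
    have := jfCnt_swap k y1 y' x' y1
    rwa [Equiv.swap_apply_left, Equiv.swap_apply_of_ne_of_ne hne h'] at this
  rw [h2, h1]


/-- twice the Johnson Laplacian (sum over ordered pairs of positions) -/
def jfL (v : (F → Bool) → ℝ) (a : F → Bool) : ℝ := ∑ x, ∑ y, (v a - v (jfTw x y a))

/-- weights used in the maximum principle -/
def jfG (a : F → Bool) (c d x y : F) : ℝ :=
  (if x = c ∧ a y = a d then 1 else 0) + (if y = c ∧ a x = a d then 1 else 0)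
    + (if y = d ∧ a x = a c then 1 else 0) + (if x = d ∧ a y = a c then 1 else 0)

omit [Fintype F] in
theorem jf_term (v : (F → Bool) → ℝ) (a : F → Bool) (c d : F) (δ : ℝ) (hcd : a c ≠ a d)
    (hδ : v a - v (jfTw c d a) = δ) (x y : F)
    (hle : v (jfTw x y a) - v (jfTw c d (jfTw x y a)) ≤ δ) :
    δ * jfG a c d x y ≤ δ - (v (jfTw x y a) - v (jfTw c d (jfTw x y a))) := by
  have hne : c ≠ d := fun h => hcd (h ▸ rfl)
  unfold jfG
  by_cases h1 : x = c ∧ a y = a d
  · obtain ⟨rfl, hy⟩ := h1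
    have hyx : y ≠ x := fun h => hcd (by rw [← hy, h])
    by_cases hyd : y = d
    · subst hyd
      rw [jfTw_tw]
      simp only [true_and, hyx, false_and, if_false, if_true, hne]
      linarith
    · have hfix : jfTw x d (jfTw x y a) = jfTw x y a := by
        apply jfTw_fix
        have hd : Equiv.swap x y d = d := Equiv.swap_apply_of_ne_of_ne (Ne.symm hne) (Ne.symm hyd)
        simp only [jfTw, Equiv.swap_apply_left, hd, hy]
      rw [hfix]
      simp only [true_and, hy, hyx, hyd, false_and, if_false, if_true, hne]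
      linarith
  by_cases h2 : y = c ∧ a x = a d
  · obtain ⟨rfl, hx⟩ := h2
    have hxy : x ≠ y := fun h => hcd (by rw [← hx, h])
    by_cases hxd : x = d
    · subst hxd
      rw [jfTw_comm x y a, jfTw_tw]
      simp only [true_and, hxy, false_and, if_false, if_true, hne]
      linarith
    · have hfix : jfTw y d (jfTw x y a) = jfTw x y a := by
        apply jfTw_fix
        have hd : Equiv.swap x y d = d := Equiv.swap_apply_of_ne_of_ne (Ne.symm hxd) (Ne.symm hne)
        simp only [jfTw, Equiv.swap_apply_right, hd, hx]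
      rw [hfix]
      simp only [true_and, hx, hxy, hxd, false_and, if_false, if_true, hne]
      linarith
  by_cases h3 : y = d ∧ a x = a c
  · obtain ⟨rfl, hx⟩ := h3
    have hxy : x ≠ y := fun h => hcd (by rw [← hx, h])
    have hxc : x ≠ c := fun h => h1 ⟨h, rfl⟩
    have hfix : jfTw c y (jfTw x y a) = jfTw x y a := by
      apply jfTw_fix
      have hc : Equiv.swap x y c = c := Equiv.swap_apply_of_ne_of_ne (Ne.symm hxc) hne
      simp only [jfTw, Equiv.swap_apply_right, hc, hx]
    rw [hfix]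
    simp only [true_and, hx, hxy, hxc, false_and, if_false, if_true, Ne.symm hne]
    linarith
  by_cases h4 : x = d ∧ a y = a c
  · obtain ⟨rfl, hy⟩ := h4
    have hyx : y ≠ x := fun h => hcd (by rw [← hy, h])
    have hyc : y ≠ c := fun h => h2 ⟨h, rfl⟩
    have hfix : jfTw c x (jfTw x y a) = jfTw x y a := by
      apply jfTw_fix
      have hc : Equiv.swap x y c = c := Equiv.swap_apply_of_ne_of_ne hne (Ne.symm hyc)
      simp only [jfTw, Equiv.swap_apply_left, hc, hy]
    rw [hfix]
    simp only [true_and, hy, hyx, hyc, false_and, if_false, if_true, Ne.symm hne]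
    linarith
  simp only [h1, h2, h3, h4, if_false]
  linarith

theorem jf_sum_G (a : F → Bool) (c d : F) (hcd : a c ≠ a d) :
    ∑ x, ∑ y, jfG a c d x y = 2 * (Fintype.card F : ℝ) := by
  have e1 : ∑ x, ∑ y, (if x = c ∧ a y = a d then (1 : ℝ) else 0)
      = ∑ y, (if a y = a d then (1 : ℝ) else 0) := by
    rw [Finset.sum_eq_single c]
    · simp
    · intro x _ hx; simp [hx]
    · simp
  have e2 : ∑ x, ∑ y, (if y = c ∧ a x = a d then (1 : ℝ) else 0)
      = ∑ y, (if a y = a d then (1 : ℝ) else 0) := by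
    rw [Finset.sum_comm, Finset.sum_eq_single c]
    · simp
    · intro x _ hx; simp [hx]
    · simp
  have e3 : ∑ x, ∑ y, (if y = d ∧ a x = a c then (1 : ℝ) else 0)
      = ∑ y, (if a y = a c then (1 : ℝ) else 0) := by
    rw [Finset.sum_comm, Finset.sum_eq_single d]
    · simp
    · intro x _ hx; simp [hx]
    · simp
  have e4 : ∑ x, ∑ y, (if x = d ∧ a y = a c then (1 : ℝ) else 0)
      = ∑ y, (if a y = a c then (1 : ℝ) else 0) := by
    rw [Finset.sum_eq_single d]
    · simp
    · intro x _ hx; simp [hx]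
    · simp
  have e5 : ∑ y, ((if a y = a d then (1 : ℝ) else 0) + (if a y = a c then (1 : ℝ) else 0))
      = (Fintype.card F : ℝ) := by
    have : ∀ y, ((if a y = a d then (1 : ℝ) else 0) + (if a y = a c then (1 : ℝ) else 0)) = 1 := by
      intro y
      cases h1 : a y <;> cases h2 : a c <;> cases h3 : a d <;> simp_all
    simp [this]
  rw [Finset.sum_add_distrib] at e5
  unfold jfG
  simp only [Finset.sum_add_distrib]
  rw [e1, e2, e3, e4]
  linarith

theorem jfL_diff (k : ℕ) (v : (F → Bool) → ℝ) {a : F → Bool} (ha : a ∈ jfLay k) (c d : F)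
    (hcd : a c ≠ a d) (δ : ℝ) (hδ : v a - v (jfTw c d a) = δ)
    (hmax : ∀ b ∈ jfLay k, v b - v (jfTw c d b) ≤ δ) :
    2 * (Fintype.card F : ℝ) * δ ≤ jfL v a - jfL v (jfTw c d a) := by
  have e1 : jfL v (jfTw c d a)
      = ∑ x, ∑ y, (v (jfTw c d a) - v (jfTw c d (jfTw x y a))) := by
    unfold jfL
    rw [← Equiv.sum_comp (Equiv.swap c d)]
    refine Finset.sum_congr rfl fun x _ => ?_
    rw [← Equiv.sum_comp (Equiv.swap c d)]
    refine Finset.sum_congr rfl fun y _ => ?_
    rw [jfTw_conj c d x y a]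
  have e2 : jfL v a - jfL v (jfTw c d a)
      = ∑ x, ∑ y, (δ - (v (jfTw x y a) - v (jfTw c d (jfTw x y a)))) := by
    rw [e1]
    unfold jfL
    rw [← Finset.sum_sub_distrib]
    refine Finset.sum_congr rfl fun x _ => ?_
    rw [← Finset.sum_sub_distrib]
    refine Finset.sum_congr rfl fun y _ => ?_
    rw [← hδ]; ring
  rw [e2]
  calc 2 * (Fintype.card F : ℝ) * δ = ∑ x, ∑ y, δ * jfG a c d x y := by
        simp only [← Finset.mul_sum]
        rw [jf_sum_G a c d hcd]; ring
    _ ≤ _ := Finset.sum_le_sum fun x _ => Finset.sum_le_sum fun y _ =>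
        jf_term v a c d δ hcd hδ x y (hmax _ (jfTw_mem x y ha))


/-- the operator with kernel `overlap ^ 2` -/
def jfU (k : ℕ) (v : (F → Bool) → ℝ) (a : F → Bool) : ℝ :=
  ∑ b ∈ jfLay k, (jfOvl a b) ^ 2 * v b

omit [Fintype F] in
theorem jfSg_tw (c d : F) (a : F → Bool) (x : F) :
    jfSg (jfTw c d a) x = jfSg a (Equiv.swap c d x) := rfl

theorem jfOvl_tw (c d : F) (a b : F → Bool) :
    jfOvl (jfTw c d a) b = jfOvl a (jfTw c d b) := by
  unfold jfOvl
  rw [← Equiv.sum_comp (Equiv.swap c d)]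
  refine Finset.sum_congr rfl fun x _ => ?_
  rw [jfSg_tw, jfSg_tw, Equiv.swap_apply_self]

omit [DecidableEq F] in
theorem jfOvl_comm (a b : F → Bool) : jfOvl a b = jfOvl b a := by
  unfold jfOvl
  exact Finset.sum_congr rfl fun x _ => mul_comm _ _

omit [Fintype F] [DecidableEq F] in
theorem jfSg_abs (a : F → Bool) (x : F) : |jfSg a x| = 1 := by
  unfold jfSg; split_ifs <;> simp

theorem jf_w_bound (a b : F → Bool) (c d : F) (hcd : a c ≠ a d) :
    |(jfOvl a b) ^ 2 - (jfOvl a (jfTw c d b)) ^ 2| ≤ 8 * ((Fintype.card F : ℝ) - 2) := by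
  have hne : c ≠ d := fun h => hcd (h ▸ rfl)
  set R : Finset F := (univ.erase c).erase d with hR
  have hdm : d ∈ (univ : Finset F).erase c := by simp [Ne.symm hne]
  have hcard : (R.card : ℝ) = (Fintype.card F : ℝ) - 2 := by
    have h1 : R.card = (univ.erase c : Finset F).card - 1 := Finset.card_erase_of_mem hdm
    have h2 : (univ.erase c : Finset F).card = Fintype.card F - 1 := by
      rw [Finset.card_erase_of_mem (mem_univ c)]; rfl
    have h3 : 2 ≤ Fintype.card F := by
      have : ({c, d} : Finset F).card ≤ Fintype.card F := Finset.card_le_univ _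
      rwa [Finset.card_pair hne] at this
    have h4 : R.card + 2 = Fintype.card F := by omega
    have h5 : (R.card : ℝ) + 2 = (Fintype.card F : ℝ) := by exact_mod_cast h4
    linarith
  have split : ∀ h : F → ℝ, ∑ x, h x = h c + (h d + ∑ x ∈ R, h x) := by
    intro h
    rw [hR, Finset.add_sum_erase _ h hdm, Finset.add_sum_erase _ h (mem_univ c)]
  set ρ : ℝ := ∑ x ∈ R, jfSg a x * jfSg b x with hρ
  have hρ' : ∑ x ∈ R, jfSg a x * jfSg (jfTw c d b) x = ρ := by
    refine Finset.sum_congr rfl fun x hx => ?_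
    have hx1 : x ≠ d := (Finset.mem_erase.1 hx).1
    have hx2 : x ≠ c := (Finset.mem_erase.1 (Finset.mem_erase.1 hx).2).1
    rw [jfSg_tw, Equiv.swap_apply_of_ne_of_ne hx2 hx1]
  have hρb : |ρ| ≤ (Fintype.card F : ℝ) - 2 := by
    rw [← hcard]
    calc |ρ| ≤ ∑ x ∈ R, |jfSg a x * jfSg b x| := Finset.abs_sum_le_sum_abs _ _
      _ = ∑ x ∈ R, (1 : ℝ) := by
          refine Finset.sum_congr rfl fun x _ => ?_
          rw [abs_mul, jfSg_abs, jfSg_abs, mul_one]
      _ = (R.card : ℝ) := by simp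
  have hu : jfOvl a b = jfSg a c * jfSg b c + (jfSg a d * jfSg b d + ρ) := by
    unfold jfOvl; rw [split]
  have hu' : jfOvl a (jfTw c d b) = jfSg a c * jfSg b d + (jfSg a d * jfSg b c + ρ) := by
    unfold jfOvl
    rw [split, hρ', jfSg_tw, jfSg_tw, Equiv.swap_apply_left, Equiv.swap_apply_right]
  rw [hu, hu']
  obtain ⟨h1, h2⟩ := abs_le.1 hρb
  have hs : ∀ (e : F → Bool) (x : F), jfSg e x = 1 ∨ jfSg e x = -1 := by
    intro e x; unfold jfSg; split_ifs <;> simp
  have hpq : jfSg a d = - jfSg a c := by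
    unfold jfSg
    cases e1 : a c <;> cases e2 : a d <;> simp_all
  rw [hpq]
  clear_value ρ
  rw [abs_le]
  rcases hs a c with h3 | h3 <;> rcases hs b c with h4 | h4 <;> rcases hs b d with h5 | h5 <;>
    rw [h3, h4, h5] <;> constructor <;> nlinarith

theorem jfU_diff (k : ℕ) (v : (F → Bool) → ℝ) (a : F → Bool) (c d : F)
    (hcd : a c ≠ a d) (δ : ℝ)
    (hmax : ∀ b ∈ jfLay k, v b - v (jfTw c d b) ≤ δ) :
    jfU k v a - jfU k v (jfTw c d a)
      ≤ 4 * (jfCnt k c d : ℝ) * ((Fintype.card F : ℝ) - 2) * δ := by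
  set w : (F → Bool) → ℝ := fun b => (jfOvl a b) ^ 2 - (jfOvl a (jfTw c d b)) ^ 2 with hw
  have e1 : jfU k v a - jfU k v (jfTw c d a) = ∑ b ∈ jfLay k, w b * v b := by
    unfold jfU
    rw [← Finset.sum_sub_distrib]
    refine Finset.sum_congr rfl fun b _ => ?_
    rw [jfOvl_tw, hw]; ring
  have e2 : ∑ b ∈ jfLay k, w b * v b = ∑ b ∈ jfLay k, (- w b) * v (jfTw c d b) := by
    rw [← jf_sum_tw k c d (fun b => w b * v b)]
    refine Finset.sum_congr rfl fun b _ => ?_
    simp only [hw, jfTw_tw]; ring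
  have e3 : 2 * ∑ b ∈ jfLay k, w b * v b = ∑ b ∈ jfLay k, w b * (v b - v (jfTw c d b)) := by
    have : ∑ b ∈ jfLay k, w b * (v b - v (jfTw c d b))
        = ∑ b ∈ jfLay k, w b * v b + ∑ b ∈ jfLay k, (- w b) * v (jfTw c d b) := by
      rw [← Finset.sum_add_distrib]
      exact Finset.sum_congr rfl fun b _ => by ring
    rw [this, ← e2]; ring
  have hm : 0 ≤ (Fintype.card F : ℝ) - 2 := by
    have := jf_w_bound a a c d hcd
    have h0 := abs_nonneg ((jfOvl a a) ^ 2 - (jfOvl a (jfTw c d a)) ^ 2)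
    linarith
  have e4 : ∀ b ∈ jfLay k, w b * (v b - v (jfTw c d b))
      ≤ if b c ≠ b d then 8 * ((Fintype.card F : ℝ) - 2) * δ else 0 := by
    intro b hb
    split_ifs with hbs
    · have h1 : |w b| ≤ 8 * ((Fintype.card F : ℝ) - 2) := jf_w_bound a b c d hcd
      have h2 : |v b - v (jfTw c d b)| ≤ δ := by
        rw [abs_le]
        refine ⟨?_, hmax b hb⟩
        have := hmax _ (jfTw_mem c d hb)
        rw [jfTw_tw] at this
        linarith
      calc w b * (v b - v (jfTw c d b)) ≤ |w b * (v b - v (jfTw c d b))| := le_abs_self _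
        _ = |w b| * |v b - v (jfTw c d b)| := abs_mul _ _
        _ ≤ 8 * ((Fintype.card F : ℝ) - 2) * δ :=
            mul_le_mul h1 h2 (abs_nonneg _) (by linarith)
    · have hbs' : b c = b d := by simpa using hbs
      rw [jfTw_fix hbs']; simp
  have e5 : ∑ b ∈ jfLay (F := F) k, (if b c ≠ b d then 8 * ((Fintype.card F : ℝ) - 2) * δ else 0)
      = (jfCnt k c d : ℝ) * (8 * ((Fintype.card F : ℝ) - 2) * δ) := by
    rw [← Finset.sum_filter, Finset.sum_const, nsmul_eq_mul]
    rfl
  have e6 := Finset.sum_le_sum e4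
  rw [e5, ← e3] at e6
  rw [e1]
  linarith


/-- choice of the extremal transposition in the maximum principle -/
theorem jf_max (k : ℕ) (v : (F → Bool) → ℝ)
    (hnot : ¬ ∀ a ∈ jfLay k, ∀ x y, v (jfTw x y a) = v a) :
    ∃ a ∈ jfLay (F := F) k, ∃ c d : F, ∃ δ : ℝ, 0 < δ ∧ a c ≠ a d ∧ v a - v (jfTw c d a) = δ ∧
      ∀ b ∈ jfLay k, v b - v (jfTw c d b) ≤ δ := by
  push Not at hnot
  obtain ⟨a0, ha0, x0, y0, h0⟩ := hnot
  set S : Finset ((F → Bool) × F × F) := jfLay k ×ˢ (univ ×ˢ univ) with hS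
  have hSne : S.Nonempty := ⟨(a0, x0, y0), by simp [hS, ha0]⟩
  obtain ⟨⟨a, c, d⟩, hmem, hmx⟩ :=
    Finset.exists_max_image S (fun t => v t.1 - v (jfTw t.2.1 t.2.2 t.1)) hSne
  have ha : a ∈ jfLay k := by
    simp only [hS, mem_product, mem_univ, and_true] at hmem; exact hmem
  have hpos : 0 < v a - v (jfTw c d a) := by
    rcases lt_or_gt_of_ne h0 with h | h
    · have := hmx (a0, x0, y0) (by simp [hS, ha0])
      simp only at this
      linarith
    · have := hmx (jfTw x0 y0 a0, x0, y0) (by simp [hS, jfTw_mem x0 y0 ha0])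
      simp only [jfTw_tw] at this
      linarith
  refine ⟨a, ha, c, d, _, hpos, ?_, rfl, ?_⟩
  · intro hcd
    rw [jfTw_fix hcd] at hpos
    simp at hpos
  · intro b hb
    have := hmx (b, c, d) (by simp [hS, hb])
    simpa using this

/-- the operator of (F2), multiplied by `4 N` -/
noncomputable def jfT (k : ℕ) (N : ℝ) (v : (F → Bool) → ℝ) (a : F → Bool) : ℝ :=
  N * jfL v a - 4 * N * v a - (1 / 2) * jfU k v a

theorem jfT_eigen (k : ℕ) (N : ℝ) (hN : ∀ x y : F, x ≠ y → (jfCnt k x y : ℝ) = N)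
    (lam : ℝ) (v : (F → Bool) → ℝ) (hv : ∀ a ∈ jfLay k, jfT k N v a = lam * v a) :
    0 ≤ lam ∨ ∀ a ∈ jfLay k, ∀ b ∈ jfLay k, v a = v b := by
  by_cases hall : ∀ a ∈ jfLay k, ∀ x y, v (jfTw x y a) = v a
  · exact Or.inr (jf_conn k v hall)
  left
  obtain ⟨a, ha, c, d, δ, hpos, hcd, hδ, hmax⟩ := jf_max k v hall
  have hne : c ≠ d := fun h => hcd (h ▸ rfl)
  have hNc := hN c d hne
  have hN0 : 0 ≤ N := by rw [← hNc]; exact Nat.cast_nonneg _
  have h1 := jfL_diff k v ha c d hcd δ hδ hmax
  have h2 := jfU_diff k v a c d hcd δ hmax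
  rw [hNc] at h2
  have h3 : lam * δ = jfT k N v a - jfT k N v (jfTw c d a) := by
    rw [hv a ha, hv _ (jfTw_mem c d ha), ← hδ]; ring
  have h4 : N * (2 * (Fintype.card F : ℝ) * δ) ≤ N * (jfL v a - jfL v (jfTw c d a)) :=
    mul_le_mul_of_nonneg_left h1 hN0
  have h5 : 0 ≤ lam * δ := by
    rw [h3]; unfold jfT
    nlinarith
  by_contra hlam
  push Not at hlam
  nlinarith

theorem jfL_eigen (k : ℕ) (lam : ℝ) (v : (F → Bool) → ℝ)
    (hv : ∀ a ∈ jfLay k, jfL v a = lam * v a) :
    2 * (Fintype.card F : ℝ) ≤ lam ∨ ∀ a ∈ jfLay k, ∀ b ∈ jfLay k, v a = v b := by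
  by_cases hall : ∀ a ∈ jfLay k, ∀ x y, v (jfTw x y a) = v a
  · exact Or.inr (jf_conn k v hall)
  left
  obtain ⟨a, ha, c, d, δ, hpos, hcd, hδ, hmax⟩ := jf_max k v hall
  have h1 := jfL_diff k v ha c d hcd δ hδ hmax
  have h3 : lam * δ = jfL v a - jfL v (jfTw c d a) := by
    rw [hv a ha, hv _ (jfTw_mem c d ha), ← hδ]; ring
  rw [← h3] at h1
  by_contra hlam
  push Not at hlam
  nlinarith


/-! ### linearity, locality, symmetry -/

theorem jfL_add (f g : (F → Bool) → ℝ) (a : F → Bool) : jfL (f + g) a = jfL f a + jfL g a := by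
  unfold jfL
  rw [← Finset.sum_add_distrib]
  refine Finset.sum_congr rfl fun x _ => ?_
  rw [← Finset.sum_add_distrib]
  refine Finset.sum_congr rfl fun y _ => ?_
  simp only [Pi.add_apply]; ring

theorem jfL_smul (t : ℝ) (f : (F → Bool) → ℝ) (a : F → Bool) : jfL (t • f) a = t * jfL f a := by
  unfold jfL
  rw [Finset.mul_sum]
  refine Finset.sum_congr rfl fun x _ => ?_
  rw [Finset.mul_sum]
  refine Finset.sum_congr rfl fun y _ => ?_
  simp only [Pi.smul_apply, smul_eq_mul]; ring

theorem jfL_loc (k : ℕ) (f g : (F → Bool) → ℝ) (h : ∀ a ∈ jfLay k, f a = g a) :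
    ∀ a ∈ jfLay k, jfL f a = jfL g a := by
  intro a ha
  unfold jfL
  refine Finset.sum_congr rfl fun x _ => Finset.sum_congr rfl fun y _ => ?_
  rw [h a ha, h _ (jfTw_mem x y ha)]

theorem jf_cross (k : ℕ) (x y : F) (f g : (F → Bool) → ℝ) :
    ∑ a ∈ jfLay k, f a * g (jfTw x y a) = ∑ a ∈ jfLay k, f (jfTw x y a) * g a := by
  rw [← jf_sum_tw k x y (fun b => f (jfTw x y b) * g b)]
  refine Finset.sum_congr rfl fun a _ => ?_
  simp only [jfTw_tw]

theorem jfL_inner (k : ℕ) (f g : (F → Bool) → ℝ) :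
    ∑ a ∈ jfLay k, f a * jfL g a
      = ∑ x, ∑ y, ∑ a ∈ jfLay k, (f a * g a - f a * g (jfTw x y a)) := by
  unfold jfL
  simp only [Finset.mul_sum]
  rw [Finset.sum_comm]
  refine Finset.sum_congr rfl fun x _ => ?_
  rw [Finset.sum_comm]
  refine Finset.sum_congr rfl fun y _ => Finset.sum_congr rfl fun a _ => ?_
  ring

theorem jfL_symm (k : ℕ) (f g : (F → Bool) → ℝ) :
    ∑ a ∈ jfLay k, f a * jfL g a = ∑ a ∈ jfLay k, jfL f a * g a := by
  have h2 : ∑ a ∈ jfLay k, jfL f a * g a = ∑ a ∈ jfLay k, g a * jfL f a :=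
    Finset.sum_congr rfl fun a _ => mul_comm _ _
  rw [h2, jfL_inner, jfL_inner]
  refine Finset.sum_congr rfl fun x _ => Finset.sum_congr rfl fun y _ => ?_
  rw [Finset.sum_sub_distrib, Finset.sum_sub_distrib, jf_cross k x y f g]
  congr 1
  · exact Finset.sum_congr rfl fun a _ => mul_comm _ _
  · exact Finset.sum_congr rfl fun a _ => mul_comm _ _

theorem jfL_dirichlet (k : ℕ) (g : (F → Bool) → ℝ) :
    2 * ∑ a ∈ jfLay k, g a * jfL g a
      = ∑ x, ∑ y, ∑ a ∈ jfLay k, (g a - g (jfTw x y a)) ^ 2 := by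
  rw [jfL_inner, Finset.mul_sum]
  refine Finset.sum_congr rfl fun x _ => ?_
  rw [Finset.mul_sum]
  refine Finset.sum_congr rfl fun y _ => ?_
  have h1 : ∑ a ∈ jfLay k, (g (jfTw x y a)) ^ 2 = ∑ a ∈ jfLay k, (g a) ^ 2 :=
    jf_sum_tw k x y (fun b => (g b) ^ 2)
  have h2 : ∑ a ∈ jfLay k, (g a - g (jfTw x y a)) ^ 2
      = ∑ a ∈ jfLay k, (g a) ^ 2 + ∑ a ∈ jfLay k, (g (jfTw x y a)) ^ 2
        - 2 * ∑ a ∈ jfLay k, g a * g (jfTw x y a) := by
    rw [Finset.mul_sum, ← Finset.sum_add_distrib, ← Finset.sum_sub_distrib]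
    exact Finset.sum_congr rfl fun a _ => by ring
  rw [h2, h1, Finset.sum_sub_distrib]
  have h3 : ∑ a ∈ jfLay k, g a * g a = ∑ a ∈ jfLay k, (g a) ^ 2 :=
    Finset.sum_congr rfl fun a _ => by ring
  rw [h3]; ring

theorem jfU_add (k : ℕ) (f g : (F → Bool) → ℝ) (a : F → Bool) :
    jfU k (f + g) a = jfU k f a + jfU k g a := by
  unfold jfU
  rw [← Finset.sum_add_distrib]
  refine Finset.sum_congr rfl fun x _ => ?_
  simp only [Pi.add_apply]; ring

theorem jfU_smul (k : ℕ) (t : ℝ) (f : (F → Bool) → ℝ) (a : F → Bool) :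
    jfU k (t • f) a = t * jfU k f a := by
  unfold jfU
  rw [Finset.mul_sum]
  refine Finset.sum_congr rfl fun x _ => ?_
  simp only [Pi.smul_apply, smul_eq_mul]; ring

theorem jfU_loc (k : ℕ) (f g : (F → Bool) → ℝ) (h : ∀ a ∈ jfLay k, f a = g a) (a : F → Bool) :
    jfU k f a = jfU k g a := by
  unfold jfU
  exact Finset.sum_congr rfl fun b hb => by rw [h b hb]

theorem jfU_symm (k : ℕ) (f g : (F → Bool) → ℝ) :
    ∑ a ∈ jfLay k, f a * jfU k g a = ∑ a ∈ jfLay k, jfU k f a * g a := by
  unfold jfU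
  simp only [Finset.mul_sum, Finset.sum_mul]
  rw [Finset.sum_comm]
  refine Finset.sum_congr rfl fun a _ => Finset.sum_congr rfl fun b _ => ?_
  rw [jfOvl_comm a b]; ring

/-- second moment identity: the quadratic form of `jfU` -/
theorem jfU_inner (k : ℕ) (g : (F → Bool) → ℝ) :
    ∑ a ∈ jfLay k, g a * jfU k g a
      = ∑ x, ∑ y, (∑ b ∈ jfLay k, jfSg b x * jfSg b y * g b) ^ 2 := by
  have h1 : ∀ x y : F, (∑ b ∈ jfLay k, jfSg b x * jfSg b y * g b) ^ 2
      = ∑ a ∈ jfLay k, ∑ b ∈ jfLay k,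
          (jfSg a x * jfSg a y * g a) * (jfSg b x * jfSg b y * g b) := by
    intro x y
    rw [sq, Finset.sum_mul_sum]
  have h2 : ∀ a b : F → Bool, (jfOvl a b) ^ 2
      = ∑ x, ∑ y, (jfSg a x * jfSg b x) * (jfSg a y * jfSg b y) := by
    intro a b
    unfold jfOvl
    rw [sq, Finset.sum_mul_sum]
  simp only [h1]
  unfold jfU
  simp only [h2, Finset.mul_sum, Finset.sum_mul]
  -- reorder the four sums
  calc ∑ a ∈ jfLay k, ∑ b ∈ jfLay k, ∑ x, ∑ y,
          g a * (jfSg a x * jfSg b x * (jfSg a y * jfSg b y) * g b)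
      = ∑ a ∈ jfLay k, ∑ x, ∑ b ∈ jfLay k, ∑ y,
          g a * (jfSg a x * jfSg b x * (jfSg a y * jfSg b y) * g b) :=
        Finset.sum_congr rfl fun a _ => Finset.sum_comm
    _ = ∑ x, ∑ a ∈ jfLay k, ∑ b ∈ jfLay k, ∑ y,
          g a * (jfSg a x * jfSg b x * (jfSg a y * jfSg b y) * g b) := Finset.sum_comm
    _ = ∑ x, ∑ a ∈ jfLay k, ∑ y, ∑ b ∈ jfLay k,
          g a * (jfSg a x * jfSg b x * (jfSg a y * jfSg b y) * g b) :=
        Finset.sum_congr rfl fun x _ => Finset.sum_congr rfl fun a _ => Finset.sum_comm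
    _ = ∑ x, ∑ y, ∑ a ∈ jfLay k, ∑ b ∈ jfLay k,
          g a * (jfSg a x * jfSg b x * (jfSg a y * jfSg b y) * g b) :=
        Finset.sum_congr rfl fun x _ => Finset.sum_comm
    _ = _ := by
        refine Finset.sum_congr rfl fun x _ => Finset.sum_congr rfl fun y _ =>
          Finset.sum_congr rfl fun a _ => Finset.sum_congr rfl fun b _ => ?_
        ring

omit [Fintype F] [DecidableEq F] in
theorem jfXi_eq (x y : F) (a : F → Bool) : jfXi x y a = (1 - jfSg a x * jfSg a y) / 2 := by
  unfold jfXi jfSg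
  cases h1 : a x <;> cases h2 : a y <;> simp


/-- mean over the layer -/
noncomputable def jfMean (k : ℕ) (f : (F → Bool) → ℝ) : ℝ :=
  (∑ a ∈ jfLay k, f a) / ((jfLay (F := F) k).card : ℝ)

theorem jf_sum_centered (k : ℕ) (f : (F → Bool) → ℝ) :
    ∑ a ∈ jfLay k, (f a - jfMean k f) = 0 := by
  rw [Finset.sum_sub_distrib, Finset.sum_const, nsmul_eq_mul]
  unfold jfMean
  by_cases h : ((jfLay (F := F) k).card : ℝ) = 0
  · have h' : (jfLay (F := F) k) = ∅ := by
      rw [← Finset.card_eq_zero]; exact_mod_cast h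
    simp [h']
  · field_simp; ring

theorem jf_orth (k : ℕ) (f : (F → Bool) → ℝ) (q : (F → Bool) → ℝ)
    (hq : ∀ a ∈ jfLay k, ∀ b ∈ jfLay k, q a = q b) :
    ∑ a ∈ jfLay k, q a * (f a - jfMean k f) = 0 := by
  rcases (jfLay (F := F) k).eq_empty_or_nonempty with h | ⟨a0, ha0⟩
  · simp [h]
  · have : ∑ a ∈ jfLay k, q a * (f a - jfMean k f)
        = q a0 * ∑ a ∈ jfLay k, (f a - jfMean k f) := by
      rw [Finset.mul_sum]
      exact Finset.sum_congr rfl fun a ha => by rw [hq a ha a0 ha0]
    rw [this, jf_sum_centered, mul_zero]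

/-- (J1) the sharp spectral gap `m` of the Johnson graph `J(m,k)` (ordered pairs of positions:
every transposition is counted twice). -/
theorem johnson_gap (k : ℕ) (f : (F → Bool) → ℝ) :
    4 * (Fintype.card F : ℝ) * ∑ a ∈ jfLay k, (f a - jfMean k f) ^ 2
      ≤ ∑ x, ∑ y, ∑ a ∈ jfLay k, (f a - f (jfTw x y a)) ^ 2 := by
  set g : (F → Bool) → ℝ := fun a => f a - jfMean k f with hg
  have hspec := specOn (jfLay (F := F) k) jfL (fun f g x _ => jfL_add f g x)
    (fun t f x _ => jfL_smul t f x) (jfL_loc k) (jfL_symm k)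
    (fun q => ∀ a ∈ jfLay k, ∀ b ∈ jfLay k, q a = q b) (2 * (Fintype.card F : ℝ))
    (fun lam v _ hv => jfL_eigen k lam v hv) g (fun q hq => jf_orth k f q hq)
  have hd := jfL_dirichlet k g
  have hgf : ∑ x, ∑ y, ∑ a ∈ jfLay k, (g a - g (jfTw x y a)) ^ 2
      = ∑ x, ∑ y, ∑ a ∈ jfLay k, (f a - f (jfTw x y a)) ^ 2 := by
    refine Finset.sum_congr rfl fun x _ => Finset.sum_congr rfl fun y _ =>
      Finset.sum_congr rfl fun a _ => ?_
    simp only [hg]; ring
  rw [← hgf, ← hd]
  have : ∑ a ∈ jfLay k, (f a - jfMean k f) ^ 2 = ∑ a ∈ jfLay k, g a ^ 2 := rfl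
  rw [this]
  linarith

/-- (J2) = inequality (F2) on one fibre.  Sums over ordered pairs `x y`; `jfXi x y b` is the
indicator that `b` splits the pair, `jfCnt k x y` the number of such `b` in the layer. -/
theorem johnson_F2 (k : ℕ) (f : (F → Bool) → ℝ) :
    4 * ∑ x, ∑ y, (∑ b ∈ jfLay k, jfXi x y b * (f b - jfMean k f)) ^ 2 / (jfCnt k x y : ℝ)
        + 8 * ∑ a ∈ jfLay k, (f a - jfMean k f) ^ 2
      ≤ ∑ x, ∑ y, ∑ a ∈ jfLay k, (f a - f (jfTw x y a)) ^ 2 := by
  set g : (F → Bool) → ℝ := fun a => f a - jfMean k f with hg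
  have hgf : ∑ x, ∑ y, ∑ a ∈ jfLay k, (g a - g (jfTw x y a)) ^ 2
      = ∑ x, ∑ y, ∑ a ∈ jfLay k, (f a - f (jfTw x y a)) ^ 2 := by
    refine Finset.sum_congr rfl fun x _ => Finset.sum_congr rfl fun y _ =>
      Finset.sum_congr rfl fun a _ => ?_
    simp only [hg]; ring
  have hg0 : ∑ a ∈ jfLay k, g a = 0 := jf_sum_centered k f
  by_cases hA : ∃ a ∈ jfLay (F := F) k, ∃ x y, a x ≠ a y
  · obtain ⟨a0, ha0, x0, y0, hxy⟩ := hA
    have hne0 : x0 ≠ y0 := fun h => hxy (h ▸ rfl)
    set N : ℝ := (jfCnt k x0 y0 : ℝ) with hNdef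
    have hN : ∀ x y : F, x ≠ y → (jfCnt k x y : ℝ) = N := by
      intro x y h
      rw [hNdef, jfCnt_eq k h hne0]
    have hNpos : 0 < N := by
      rw [hNdef]
      have : 0 < jfCnt k x0 y0 := by
        unfold jfCnt
        exact Finset.card_pos.2 ⟨a0, by rw [mem_filter]; exact ⟨ha0, hxy⟩⟩
      exact_mod_cast this
    have hspec := specOn (jfLay (F := F) k) (jfT k N)
      (fun f g x _ => by unfold jfT; rw [jfL_add, jfU_add]; simp only [Pi.add_apply]; ring)
      (fun t f x _ => by unfold jfT; rw [jfL_smul, jfU_smul]; simp only [Pi.smul_apply, smul_eq_mul]; ring)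
      (fun f g h x hx => by unfold jfT; rw [jfL_loc k f g h x hx, jfU_loc k f g h x, h x hx])
      (fun f g => by
        unfold jfT
        have e1 : ∀ u w : (F → Bool) → ℝ, ∑ x ∈ jfLay k, u x * (N * jfL w x - 4 * N * w x - 1 / 2 * jfU k w x)
            = N * ∑ x ∈ jfLay k, u x * jfL w x - 4 * N * ∑ x ∈ jfLay k, u x * w x
              - 1 / 2 * ∑ x ∈ jfLay k, u x * jfU k w x := by
          intro u w
          simp only [Finset.mul_sum]
          rw [← Finset.sum_sub_distrib, ← Finset.sum_sub_distrib]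
          exact Finset.sum_congr rfl fun x _ => by ring
        have e2 : ∑ x ∈ jfLay k, (N * jfL f x - 4 * N * f x - 1 / 2 * jfU k f x) * g x
            = ∑ x ∈ jfLay k, g x * (N * jfL f x - 4 * N * f x - 1 / 2 * jfU k f x) :=
          Finset.sum_congr rfl fun x _ => mul_comm _ _
        rw [e2, e1, e1, jfL_symm k f g, jfU_symm k f g]
        congr 1
        · congr 1
          · congr 1
            exact Finset.sum_congr rfl fun x _ => mul_comm _ _
          · congr 1
            exact Finset.sum_congr rfl fun x _ => mul_comm _ _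
        · congr 1
          exact Finset.sum_congr rfl fun x _ => mul_comm _ _)
      (fun q => ∀ a ∈ jfLay k, ∀ b ∈ jfLay k, q a = q b) 0
      (fun lam v _ hv => jfT_eigen k N hN lam v hv) g (fun q hq => jf_orth k f q hq)
    have hexp : ∑ a ∈ jfLay k, g a * jfT k N g a
        = N * ∑ a ∈ jfLay k, g a * jfL g a - 4 * N * ∑ a ∈ jfLay k, g a ^ 2
          - 1 / 2 * ∑ a ∈ jfLay k, g a * jfU k g a := by
      unfold jfT
      simp only [Finset.mul_sum]
      rw [← Finset.sum_sub_distrib, ← Finset.sum_sub_distrib]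
      exact Finset.sum_congr rfl fun x _ => by ring
    have hS : ∀ x y : F, (∑ b ∈ jfLay k, jfXi x y b * g b) ^ 2
        = (1 / 4) * (∑ b ∈ jfLay k, jfSg b x * jfSg b y * g b) ^ 2 := by
      intro x y
      have : ∑ b ∈ jfLay k, jfXi x y b * g b
          = (1 / 2) * ∑ b ∈ jfLay k, g b
            - (1 / 2) * ∑ b ∈ jfLay k, jfSg b x * jfSg b y * g b := by
        simp only [Finset.mul_sum]
        rw [← Finset.sum_sub_distrib]
        exact Finset.sum_congr rfl fun b _ => by rw [jfXi_eq]; ring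
      rw [this, hg0]; ring
    have hdiv : ∀ x y : F, (∑ b ∈ jfLay k, jfXi x y b * g b) ^ 2 / (jfCnt k x y : ℝ)
        = (∑ b ∈ jfLay k, jfXi x y b * g b) ^ 2 / N := by
      intro x y
      by_cases h : x = y
      · subst h
        have : ∑ b ∈ jfLay k, jfXi x x b * g b = 0 :=
          Finset.sum_eq_zero fun b _ => by simp [jfXi]
        rw [this]; simp
      · rw [hN x y h]
    have hsum : ∑ x, ∑ y, (∑ b ∈ jfLay k, jfXi x y b * g b) ^ 2 / (jfCnt k x y : ℝ)
        = (1 / (4 * N)) * ∑ a ∈ jfLay k, g a * jfU k g a := by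
      rw [jfU_inner, Finset.mul_sum]
      refine Finset.sum_congr rfl fun x _ => ?_
      rw [Finset.mul_sum]
      refine Finset.sum_congr rfl fun y _ => ?_
      rw [hdiv, hS]
      field_simp
    have hd := jfL_dirichlet k g
    rw [← hgf, ← hd]
    change 4 * ∑ x, ∑ y, (∑ b ∈ jfLay k, jfXi x y b * g b) ^ 2 / (jfCnt k x y : ℝ)
        + 8 * ∑ a ∈ jfLay k, g a ^ 2 ≤ _
    rw [hsum]
    rw [hexp] at hspec
    set A := ∑ a ∈ jfLay k, g a * jfL g a
    set B := ∑ a ∈ jfLay k, g a ^ 2
    set C := ∑ a ∈ jfLay k, g a * jfU k g a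
    have h1 : 0 ≤ N * A - 4 * N * B - 1 / 2 * C := by simpa using hspec
    have h2 : 4 * (1 / (4 * N) * C) = C / N := by field_simp
    rw [h2]
    have h3 : C / N ≤ 2 * A - 8 * B := by
      rw [div_le_iff₀ hNpos]; nlinarith
    linarith
  · push Not at hA
    have hconst : ∀ a ∈ jfLay k, ∀ b ∈ jfLay k, f a = f b :=
      jf_conn k f fun a ha x y => by rw [jfTw_fix (hA a ha x y)]
    have hz : ∀ a ∈ jfLay k, g a = 0 := by
      intro a ha
      have h1 : ∑ b ∈ jfLay k, g b = ((jfLay (F := F) k).card : ℝ) * g a := by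
        rw [← nsmul_eq_mul, ← Finset.sum_const]
        exact Finset.sum_congr rfl fun b hb => by simp only [hg]; rw [hconst b hb a ha]
      rw [hg0] at h1
      have hc : ((jfLay (F := F) k).card : ℝ) ≠ 0 := by
        have : 0 < (jfLay (F := F) k).card := Finset.card_pos.2 ⟨a, ha⟩
        positivity
      rcases mul_eq_zero.1 h1.symm with h | h
      · exact absurd h hc
      · exact h
    have e1 : ∑ x, ∑ y, (∑ b ∈ jfLay k, jfXi x y b * (f b - jfMean k f)) ^ 2 / (jfCnt k x y : ℝ)
        = 0 := by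
      refine Finset.sum_eq_zero fun x _ => Finset.sum_eq_zero fun y _ => ?_
      have : ∑ b ∈ jfLay k, jfXi x y b * (f b - jfMean k f) = 0 :=
        Finset.sum_eq_zero fun b hb => by
          have := hz b hb
          simp only [hg] at this
          rw [this, mul_zero]
      rw [this]; simp
    have e2 : ∑ a ∈ jfLay k, (f a - jfMean k f) ^ 2 = 0 :=
      Finset.sum_eq_zero fun b hb => by
        have := hz b hb
        simp only [hg] at this
        rw [this]; simp
    rw [e1, e2]
    simp only [mul_zero, add_zero]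
    exact Finset.sum_nonneg fun x _ => Finset.sum_nonneg fun y _ =>
      Finset.sum_nonneg fun a _ => sq_nonneg _

end JohnsonF2

end Vale.Agent.Lib.P335
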