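import Vale.Agent.Lib.P335G.GDefs
import Vale.Agent.Lib.P335G.JohnsonF2
import Vale.Agent.Lib.P335G.F2Class
import Vale.Agent.Lib.P335G.F2Sw

namespace Vale.Agent.Lib.P335
open Finset
open scoped Classical

variable {n : ℕ}

/-- (F2) on one class -/
theorem F2_class (dg : Fin n → ℕ) (a b : Fin n) (hab : a ≠ b) (f : SimpleGraph (Fin n) → ℝ)
    (G0 : SimpleGraph (Fin n)) (hG0 : G0 ∈ realizations n dg) :
    (∑ c, ∑ d, if D4 a b c d then
        ∑ G ∈ fib (realizations n dg) (relV {a, b}) G0, (if Av G a b c d then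
          (cE (realizations n dg) (cutRel (relV {a, b}) (fun G => Av G a b c d)) f G
            - cE (realizations n dg) (relV {a, b}) f G) ^ 2 else 0) else 0)
      + 2 * ∑ G ∈ fib (realizations n dg) (relV {a, b}) G0,
          (f G - cE (realizations n dg) (relV {a, b}) f G) ^ 2
      ≤ (1 / 4) * ∑ c, ∑ d, if D4 a b c d then
        ∑ G ∈ fib (realizations n dg) (relV {a, b}) G0, ∑ H ∈ realizations n dg,
          (if SwR a b c d G H then (f G - f H) ^ 2 else 0) else 0 := by
  set Ω := realizations n dg with hΩ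
  set Φ := fib Ω (relV {a, b}) G0 with hΦ
  set μ := cE Ω (relV {a, b}) f G0 with hμ
  have hr := relV_equiv (n := n) {a, b}
  have hmem : ∀ G ∈ Φ, G ∈ Ω ∧ relV {a, b} G0 G := fun G hG => mem_filter.mp hG
  set k := cntT (encG a b G0 G0) with hk
  have hlay : ∀ t : FrT a b G0 → Bool, t ∈ jfLay k ↔ cntT t = k := by
    intro t
    unfold jfLay cntT
    rw [mem_filter]
    simp
  have hJ := johnson_F2_transport Φ k (encG a b G0) (decG a b hab G0)
    (fun G hG => (hlay _).mpr (encG_cnt hab hG0 (hmem G hG).1 (hmem G hG).2))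
    (fun t ht => mem_filter.mpr ⟨decG_mem hab hG0 t ((hlay t).mp ht), decG_relV a b hab G0 t⟩)
    (fun G hG => decG_encG hab hG0 (hmem G hG).1 (hmem G hG).2)
    (fun t _ => encG_decG a b hab G0 t) f μ rfl
  -- the three terms
  have tV : ∑ G ∈ Φ, (f G - cE Ω (relV {a, b}) f G) ^ 2 = ∑ G ∈ Φ, (f G - μ) ^ 2 := by
    refine sum_congr rfl fun G hG => ?_
    rw [← cE_class Ω (relV {a, b}) hr f (hmem G hG).2]
  have tN : (∑ c, ∑ d, if D4 a b c d then
        ∑ G ∈ Φ, (if Av G a b c d then
          (cE Ω (cutRel (relV {a, b}) (fun G => Av G a b c d)) f G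
            - cE Ω (relV {a, b}) f G) ^ 2 else 0) else 0) =
      ∑ x : FrT a b G0, ∑ y : FrT a b G0,
        (∑ G ∈ Φ.filter (fun G => encG a b G0 G x ≠ encG a b G0 G y), (f G - μ)) ^ 2 /
          ((Φ.filter (fun G => encG a b G0 G x ≠ encG a b G0 G y)).card : ℝ) := by
    have e0 : ∀ c d, ∑ G ∈ Φ, (if Av G a b c d then
          (cE Ω (cutRel (relV {a, b}) (fun G => Av G a b c d)) f G
            - cE Ω (relV {a, b}) f G) ^ 2 else 0) =
        (∑ G ∈ Φ.filter (fun G => Av G a b c d), (f G - μ)) ^ 2 /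
          ((Φ.filter (fun G => Av G a b c d)).card : ℝ) := fun c d =>
      class_NN Ω (relV {a, b}) hr (fun G => Av G a b c d) f G0
    simp only [e0]
    rw [sum_D4_eq a b hab G0 (fun c d => (∑ G ∈ Φ.filter (fun G => Av G a b c d), (f G - μ)) ^ 2 /
          ((Φ.filter (fun G => Av G a b c d)).card : ℝ))]
    · refine sum_congr rfl fun x _ => sum_congr rfl fun y _ => ?_
      have : Φ.filter (fun G => Av G a b x.1 y.1) =
          Φ.filter (fun G => encG a b G0 G x ≠ encG a b G0 G y) :=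
        filter_congr fun G hG => av_iff_enc hab hG0 (hmem G hG).1 (hmem G hG).2 x y
      rw [this]
    · intro c
      have : Φ.filter (fun G => Av G a b c c) = ∅ :=
        filter_eq_empty_iff.mpr fun G _ => not_av_self G a b c
      simp only [this]; simp
    · intro c d h4 hcd
      have : Φ.filter (fun G => Av G a b c d) = ∅ := by
        refine filter_eq_empty_iff.mpr fun G hG hav => ?_
        have := free_of_av h4 hG0 (hmem G hG).1 (hmem G hG).2 hav
        tauto
      simp only [this]; simp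
  have tD : (∑ c, ∑ d, if D4 a b c d then
        ∑ G ∈ Φ, ∑ H ∈ Ω, (if SwR a b c d G H then (f G - f H) ^ 2 else 0) else 0) =
      ∑ x : FrT a b G0, ∑ y : FrT a b G0,
        ∑ G ∈ Φ, (f G - f (decG a b hab G0 (jfTw x y (encG a b G0 G)))) ^ 2 := by
    rw [sum_D4_eq a b hab G0 (fun c d =>
      ∑ G ∈ Φ, ∑ H ∈ Ω, (if SwR a b c d G H then (f G - f H) ^ 2 else 0))]
    · refine sum_congr rfl fun x _ => sum_congr rfl fun y _ => sum_congr rfl fun G hG => ?_
      by_cases hxy : encG a b G0 G x = encG a b G0 G y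
      · rw [jfTw_fix hxy, decG_encG hab hG0 (hmem G hG).1 (hmem G hG).2]
        have hav : ¬ Av G a b x.1 y.1 := by
          rw [av_iff_enc hab hG0 (hmem G hG).1 (hmem G hG).2 x y]
          exact fun hh => hh hxy
        rw [sub_self]
        simp only [ne_eq, OfNat.ofNat_ne_zero, not_false_eq_true, zero_pow]
        exact sum_eq_zero fun H _ => if_neg (fun hs => hav hs.1)
      · exact sw_sum_eq hab hG0 (hmem G hG).1 (hmem G hG).2 x y hxy f
    · intro c
      exact sum_eq_zero fun G _ => sum_eq_zero fun H _ =>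
        if_neg (fun hs => not_av_self G a b c hs.1)
    · intro c d h4 hcd
      refine sum_eq_zero fun G hG => sum_eq_zero fun H _ => if_neg (fun hs => ?_)
      have := free_of_av h4 hG0 (hmem G hG).1 (hmem G hG).2 hs.1
      tauto
  rw [tV, tN, tD]
  linarith

theorem sum_swap3 {β : Type} (s : Finset β) (P : Fin n → Fin n → Prop)
    (w : Fin n → Fin n → β → ℝ) :
    ∑ G ∈ s, ∑ c, ∑ d, (if P c d then w c d G else 0) =
      ∑ c, ∑ d, (if P c d then ∑ G ∈ s, w c d G else 0) := by
  rw [sum_comm]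
  refine sum_congr rfl fun c _ => ?_
  rw [sum_comm]
  refine sum_congr rfl fun d _ => ?_
  by_cases h : P c d
  · simp only [if_pos h]
  · simp only [if_neg h, sum_const_zero]

/-- (F2) -/
theorem F2_graph_main (dg : Fin n → ℕ) (a b : Fin n) (hab : a ≠ b) (f : SimpleGraph (Fin n) → ℝ) :
    (∑ c, ∑ d, if D4 a b c d then NN (realizations n dg) f a b c d else 0)
      + 2 * GG (realizations n dg) f a b a b
      ≤ (1 / 4) * ∑ c, ∑ d, if D4 a b c d then DD (realizations n dg) f a b c d else 0 := by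
  set Ω := realizations n dg with hΩ
  have hr := relV_equiv (n := n) {a, b}
  set wN : Fin n → Fin n → SimpleGraph (Fin n) → ℝ := fun c d G => (if Av G a b c d then
          (cE Ω (cutRel (relV {a, b}) (fun G => Av G a b c d)) f G
            - cE Ω (relV {a, b}) f G) ^ 2 else 0) with hwN
  set wD : Fin n → Fin n → SimpleGraph (Fin n) → ℝ := fun c d G =>
    ∑ H ∈ Ω, (if SwR a b c d G H then (f G - f H) ^ 2 else 0) with hwD
  set g : SimpleGraph (Fin n) → ℝ := fun G =>
    (1 / 4) * (∑ c, ∑ d, (if D4 a b c d then wD c d G else 0))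
      - (∑ c, ∑ d, (if D4 a b c d then wN c d G else 0))
      - 2 * (f G - cE Ω (relV {a, b}) f G) ^ 2 with hg
  have hsum : ∀ s : Finset (SimpleGraph (Fin n)), ∑ G ∈ s, g G =
      (1 / 4) * (∑ c, ∑ d, (if D4 a b c d then ∑ G ∈ s, wD c d G else 0))
      - (∑ c, ∑ d, (if D4 a b c d then ∑ G ∈ s, wN c d G else 0))
      - 2 * ∑ G ∈ s, (f G - cE Ω (relV {a, b}) f G) ^ 2 := by
    intro s
    simp only [hg]
    rw [sum_sub_distrib, sum_sub_distrib, ← mul_sum, ← mul_sum, sum_swap3, sum_swap3]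
  have hnn : 0 ≤ ∑ G ∈ Ω, g G := by
    refine sum_nonneg_of_class Ω (relV {a, b}) hr g fun G0 hG0 => ?_
    rw [hsum]
    have := F2_class dg a b hab f G0 hG0
    simp only [hwN, hwD]
    linarith
  rw [hsum] at hnn
  have eN : ∀ c d, NN Ω f a b c d = ∑ G ∈ Ω, wN c d G := by
    intro c d
    unfold NN
    rw [sum_filter]
  have eD : ∀ c d, DD Ω f a b c d = ∑ G ∈ Ω, wD c d G := fun c d => rfl
  have eG : GG Ω f a b a b = ∑ G ∈ Ω, (f G - cE Ω (relV {a, b}) f G) ^ 2 := by
    unfold GG gD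
    exact sum_congr rfl fun G _ => by ring
  simp only [eN, eD, eG]
  linarith

end Vale.Agent.Lib.P335
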