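import Vale.Agent.Lib.P335F1.KL

/-!
# P335 full: the four-index form `GGv` and its symmetries (hypotheses h0 h1 h2 h3 of `knabe_comb2`)
-/

namespace Vale.Agent.Lib.P335
open Finset
open scoped Classical

variable {n : ℕ}

/-- `f` minus its average over the class of `relV T` inside the set of realizations -/
noncomputable def gdV (d : Fin n → ℕ) (T : Finset (Fin n)) (f : SimpleGraph (Fin n) → ℝ)
    (x : SimpleGraph (Fin n)) : ℝ :=
  f x - cE (realizations n d) (relV T) f x

/-- the four-index form -/
noncomputable def GGv (d : Fin n → ℕ) (f : SimpleGraph (Fin n) → ℝ) (a b c e : Fin n) : ℝ :=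
  ∑ x ∈ realizations n d, gdV d {a, b} f x * gdV d {c, e} f x

theorem GGv_h1 (d : Fin n → ℕ) (f : SimpleGraph (Fin n) → ℝ) (a b c e : Fin n) :
    GGv d f b a c e = GGv d f a b c e := by
  unfold GGv
  rw [pair_comm b a]

theorem GGv_h2 (d : Fin n → ℕ) (f : SimpleGraph (Fin n) → ℝ) (a b c e : Fin n) :
    GGv d f a b e c = GGv d f a b c e := by
  unfold GGv
  rw [pair_comm e c]

theorem GGv_h3 (d : Fin n → ℕ) (f : SimpleGraph (Fin n) → ℝ) (a b c e : Fin n) :
    GGv d f c e a b = GGv d f a b c e := by
  unfold GGv
  exact Finset.sum_congr rfl fun x _ => mul_comm _ _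

/-- two realizations which agree off one vertex are equal -/
theorem eq_of_relV_singleton {d : Fin n → ℕ} {G H : SimpleGraph (Fin n)}
    (hG : G ∈ realizations n d) (hH : H ∈ realizations n d) {a : Fin n} (h : relV {a} G H) :
    G = H := by
  have key : ∀ v, v ≠ a → (G.Adj v a ↔ H.Adj v a) := by
    intro v hva
    have h1 := mem_real_iff.mp hG v
    have h2 := mem_real_iff.mp hH v
    rw [← Finset.add_sum_erase univ _ (Finset.mem_univ a)] at h1 h2
    have h3 : ∑ w ∈ univ.erase a, adjInd G v w = ∑ w ∈ univ.erase a, adjInd H v w := by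
      apply Finset.sum_congr rfl
      intro w hw
      rw [Finset.mem_erase] at hw
      unfold adjInd
      have := h v w (by simp [hva]) (by simp [hw.1])
      simp only [this]
    have h4 : adjInd G v a = adjInd H v a := by omega
    rw [← adjInd_eq_one_iff, ← adjInd_eq_one_iff, h4]
  ext u v
  by_cases hu : u = a
  · by_cases hv : v = a
    · subst hu; subst hv
      exact ⟨fun hh => absurd hh (G.loopless.irrefl _), fun hh => absurd hh (H.loopless.irrefl _)⟩
    · subst hu
      rw [G.adj_comm, H.adj_comm]
      exact key v hv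
  · by_cases hv : v = a
    · subst hv
      exact key u hu
    · exact h u v (by simp [hu]) (by simp [hv])

theorem gdV_singleton (d : Fin n → ℕ) (f : SimpleGraph (Fin n) → ℝ) (a : Fin n)
    {x : SimpleGraph (Fin n)} (hx : x ∈ realizations n d) : gdV d {a, a} f x = 0 := by
  have hfib : fib (realizations n d) (relV ({a, a} : Finset (Fin n))) x = {x} := by
    ext y
    unfold fib
    rw [Finset.mem_filter, Finset.mem_singleton]
    constructor
    · rintro ⟨hy, hr⟩
      rw [Finset.pair_eq_singleton] at hr
      exact (eq_of_relV_singleton hx hy hr).symm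
    · rintro rfl
      exact ⟨hx, (relV_equiv _).refl _⟩
  unfold gdV cE
  rw [hfib]
  simp

theorem GGv_h0 (d : Fin n → ℕ) (f : SimpleGraph (Fin n) → ℝ) (a c e : Fin n) :
    GGv d f a a c e = 0 := by
  unfold GGv
  apply Finset.sum_eq_zero
  intro x hx
  rw [gdV_singleton d f a hx, zero_mul]

end Vale.Agent.Lib.P335
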