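import Vale.Agent.Lib.P335.GFinal

/-!
# P335: from a Poincare inequality in terms of switches to the mixing time bound `n ^ 6`
(no assumption on the degree vector)
-/

namespace Vale.Agent.Lib.P335
open Finset
open scoped Classical

/-- there are at most `2 ^ (n * n)` realizations -/
theorem card_St_le_gen (n : ℕ) (d : Fin n → ℕ) : (Fintype.card (St n d) : ℝ) ≤ 2 ^ (n * n) := by
  let φ : St n d → (Fin n → Fin n → Bool) := fun G u v => decide (G.1.Adj u v)
  have hinj : Function.Injective φ := by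
    intro G H h
    apply Subtype.ext
    ext u v
    have := congrFun (congrFun h u) v
    simp only [φ, decide_eq_decide] at this
    exact this
  have h1 : Fintype.card (St n d) ≤ Fintype.card (Fin n → Fin n → Bool) :=
    Fintype.card_le_of_injective φ hinj
  have h2 : Fintype.card (Fin n → Fin n → Bool) = 2 ^ (n * n) := by
    simp only [Fintype.card_fun, Fintype.card_bool, Fintype.card_fin]
    rw [← pow_mul]
  rw [h2] at h1
  exact_mod_cast h1

/-- Poincare inequality for the chain from the Poincare inequality in terms of switches -/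
theorem poincare_switch_gen (n : ℕ) (hn : 4 ≤ n) (d : Fin n → ℕ)
    (hP : ∀ f : St n d → ℝ, ∑ G, f G = 0 →
      4 * ∑ G, f G ^ 2 ≤ ∑ G : St n d, ∑ H : St n d,
        if IsSwitch G.1 H.1 then (f G - f H) ^ 2 else 0)
    (f : St n d → ℝ) (hf : ∑ G, f G = 0) :
    ∑ G, f G ^ 2 ≤ (6 * (n.choose 4 : ℝ)) *
      ((1 / 2 : ℝ) * ∑ G, ∑ H, switchP n d G H * (f G - f H) ^ 2) := by
  have hc4 : (0 : ℝ) < (n.choose 4 : ℝ) := by exact_mod_cast Nat.choose_pos hn
  rw [energy_eq]
  have h4 : (6 * (n.choose 4 : ℝ)) * (1 / (24 * (n.choose 4 : ℝ)) * ∑ G : St n d, ∑ H : St n d,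
        if IsSwitch G.1 H.1 then (f G - f H) ^ 2 else 0) =
      (1 / 4) * ∑ G : St n d, ∑ H : St n d, if IsSwitch G.1 H.1 then (f G - f H) ^ 2 else 0 := by
    field_simp
    ring
  rw [h4]
  have := hP f hf
  linarith

/-- if the switch Laplacian has gap at least `2`, the switch chain mixes within `n ^ 6` steps -/
theorem mixing_of_switch_poincare (n : ℕ) (hn : 4 ≤ n) (d : Fin n → ℕ)
    (hne : (realizations n d).Nonempty)
    (hP : ∀ f : St n d → ℝ, ∑ G, f G = 0 →
      4 * ∑ G, f G ^ 2 ≤ ∑ G : St n d, ∑ H : St n d,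
        if IsSwitch G.1 H.1 then (f G - f H) ^ 2 else 0) :
    (∀ t, n ^ 6 ≤ t → ∀ G : St n d, tvDist n d t G ≤ 1 / 4) ∧ tmix n d ≤ n ^ 6 := by
  obtain ⟨G0, hG0⟩ := hne
  haveI : Nonempty (St n d) := ⟨⟨G0, hG0⟩⟩
  have hc4 : (1 : ℝ) ≤ (n.choose 4 : ℝ) := by exact_mod_cast Nat.choose_pos hn
  have main : ∀ t, n ^ 6 ≤ t → ∀ G : St n d, tvDist n d t G ≤ 1 / 4 := by
    intro t ht G
    have hm := mixing_of_poincare (switchP n d) (switchP_symm n d) (switchP_nonneg n hn d)
      (switchP_row n d) (switchP_lazy n hn d) (6 * (n.choose 4 : ℝ)) (by linarith)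
      (fun f hf => poincare_switch_gen n hn d hP f hf) t G
    have hdec := decay_bound n hn t ht
    have hN := card_St_le_gen n d
    have hpow : 0 ≤ (1 - 1 / (6 * (n.choose 4 : ℝ))) ^ t := by
      apply pow_nonneg
      rw [sub_nonneg, div_le_one (by linarith)]; linarith
    have h1 : (∑ H, |(switchP n d ^ t) G H - 1 / (Fintype.card (St n d) : ℝ)|) ^ 2 ≤ 1 / 4 :=
      le_trans hm (le_trans (mul_le_mul_of_nonneg_right hN hpow) hdec)
    have h2 : 0 ≤ ∑ H, |(switchP n d ^ t) G H - 1 / (Fintype.card (St n d) : ℝ)| :=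
      sum_nonneg fun H _ => abs_nonneg _
    unfold tvDist
    nlinarith
  exact ⟨main, Nat.sInf_le (fun G => main _ le_rfl G)⟩

end Vale.Agent.Lib.P335
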