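import Vale.Agent.Lib.P335G.GDefs

namespace Vale.Agent.Lib.P335
open Finset
open scoped Classical

variable {n : ℕ}

/-- under `SwR` the two graphs can only differ on the four pairs `ac ad bc bd` -/
theorem cnt_diff {a b c d : Fin n} {G H : SimpleGraph (Fin n)} (h4 : D4 a b c d)
    (h : SwR a b c d G H) {u v : Fin n} (huv : ¬ (G.Adj u v ↔ H.Adj u v)) :
    ((u = a ∨ u = b) ∧ (v = c ∨ v = d)) ∨ ((u = c ∨ u = d) ∧ (v = a ∨ v = b)) := by
  obtain ⟨hab, hac, had, hbc, hbd, hcd⟩ := h4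
  obtain ⟨-, -, -, r1, r2⟩ := h
  have k1 : u ∈ ({a, b} : Finset (Fin n)) ∨ v ∈ ({a, b} : Finset (Fin n)) := by
    by_contra hcon
    push Not at hcon
    exact huv (r1 u v hcon.1 hcon.2)
  have k2 : u ∈ ({c, d} : Finset (Fin n)) ∨ v ∈ ({c, d} : Finset (Fin n)) := by
    by_contra hcon
    push Not at hcon
    exact huv (r2 u v hcon.1 hcon.2)
  simp only [Finset.mem_insert, Finset.mem_singleton] at k1 k2
  grind

/-- under `SwR` the two graphs are in opposite states of the four-cycle -/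
theorem cnt_opp {a b c d : Fin n} {G H : SimpleGraph (Fin n)} (h4 : D4 a b c d)
    (h : SwR a b c d G H) :
    (G.Adj a c ∧ G.Adj b d ∧ ¬ G.Adj a d ∧ ¬ G.Adj b c ∧
      ¬ H.Adj a c ∧ ¬ H.Adj b d ∧ H.Adj a d ∧ H.Adj b c) ∨
    (¬ G.Adj a c ∧ ¬ G.Adj b d ∧ G.Adj a d ∧ G.Adj b c ∧
      H.Adj a c ∧ H.Adj b d ∧ ¬ H.Adj a d ∧ ¬ H.Adj b c) := by
  have hne : ∃ u v, ¬ (G.Adj u v ↔ H.Adj u v) := by
    by_contra hcon
    push Not at hcon
    apply h.2.2.1
    ext u v
    exact hcon u v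
  obtain ⟨u, v, huv⟩ := hne
  have hd := cnt_diff h4 h huv
  obtain ⟨g, g', -, -, -⟩ := h
  unfold Av at g g'
  have e1 : (G.Adj u v ↔ G.Adj v u) := G.adj_comm u v
  have e2 : (H.Adj u v ↔ H.Adj v u) := H.adj_comm u v
  rcases g with ⟨g1, g2, g3, g4⟩ | ⟨g1, g2, g3, g4⟩ <;>
    rcases g' with ⟨k1, k2, k3, k4⟩ | ⟨k1, k2, k3, k4⟩
  · exfalso
    rcases hd with ⟨rfl | rfl, rfl | rfl⟩ | ⟨rfl | rfl, rfl | rfl⟩ <;> simp_all
  · left; exact ⟨g1, g2, g3, g4, k1, k2, k3, k4⟩
  · right; exact ⟨g1, g2, g3, g4, k1, k2, k3, k4⟩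
  · exfalso
    rcases hd with ⟨rfl | rfl, rfl | rfl⟩ | ⟨rfl | rfl, rfl | rfl⟩ <;> simp_all

theorem cnt_isSwitch {a b c d : Fin n} {G H : SimpleGraph (Fin n)} (h4 : D4 a b c d)
    (h : SwR a b c d G H) : IsSwitch G H := by
  have hdiff := fun u v => @cnt_diff n a b c d G H h4 h u v
  have hopp := cnt_opp h4 h
  obtain ⟨hab, hac, had, hbc, hbd, hcd⟩ := h4
  have sG1 := G.adj_comm a c
  have sG2 := G.adj_comm a d
  have sG3 := G.adj_comm b c
  have sG4 := G.adj_comm b d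
  have sH1 := H.adj_comm a c
  have sH2 := H.adj_comm a d
  have sH3 := H.adj_comm b c
  have sH4 := H.adj_comm b d
  rcases hopp with ⟨g1, g2, g3, g4, k1, k2, k3, k4⟩ | ⟨g1, g2, g3, g4, k1, k2, k3, k4⟩
  · refine ⟨a, c, d, b, hac, had, hab, hcd, hbc.symm, hbd.symm, g1, g2.symm, g3,
      fun hh => g4 hh.symm, ?_⟩
    intro u v
    have hd := hdiff u v
    simp only [Sym2.eq_iff, ne_eq]
    grind
  · refine ⟨a, d, c, b, had, hac, hab, hcd.symm, hbd.symm, hbc.symm, g3, g4.symm, g1,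
      fun hh => g2 hh.symm, ?_⟩
    intro u v
    have hd := hdiff u v
    simp only [Sym2.eq_iff, ne_eq]
    grind

/-- the tuples which realise the ordered pair `G, H` -/
noncomputable def cntSet (G H : SimpleGraph (Fin n)) : Finset (Fin n × Fin n × Fin n × Fin n) :=
  univ.filter fun t => D4 t.1 t.2.1 t.2.2.1 t.2.2.2 ∧ SwR t.1 t.2.1 t.2.2.1 t.2.2.2 G H

theorem cnt_card_le (G H : SimpleGraph (Fin n)) : (cntSet G H).card ≤ 8 := by
  rcases (cntSet G H).eq_empty_or_nonempty with h0 | ⟨⟨a0, b0, c0, d0⟩, h0⟩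
  · rw [h0]; simp
  · have h0' := (Finset.mem_filter.mp h0).2
    simp only at h0'
    obtain ⟨p0, q0⟩ := h0'
    set S8 : Finset (Fin n × Fin n) :=
      (({a0, b0} : Finset (Fin n)) ×ˢ ({c0, d0} : Finset (Fin n))) ∪
        (({c0, d0} : Finset (Fin n)) ×ˢ ({a0, b0} : Finset (Fin n))) with hS8
    have hcard : S8.card ≤ 8 := by
      have e1 : (({a0, b0} : Finset (Fin n)) ×ˢ ({c0, d0} : Finset (Fin n))).card ≤ 4 := by
        rw [Finset.card_product]
        have := Finset.card_le_two (a := a0) (b := b0)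
        have := Finset.card_le_two (a := c0) (b := d0)
        nlinarith
      have e2 : (({c0, d0} : Finset (Fin n)) ×ˢ ({a0, b0} : Finset (Fin n))).card ≤ 4 := by
        rw [Finset.card_product]
        have := Finset.card_le_two (a := a0) (b := b0)
        have := Finset.card_le_two (a := c0) (b := d0)
        nlinarith
      have := Finset.card_union_le (({a0, b0} : Finset (Fin n)) ×ˢ ({c0, d0} : Finset (Fin n)))
        (({c0, d0} : Finset (Fin n)) ×ˢ ({a0, b0} : Finset (Fin n)))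
      rw [hS8]
      omega
    refine le_trans (Finset.card_le_card_of_injOn (fun t => (t.1, t.2.2.1)) ?_ ?_) hcard
    · rintro ⟨a, b, c, d⟩ ht
      have ht' := (Finset.mem_filter.mp ht).2
      simp only at ht'
      obtain ⟨p, q⟩ := ht'
      have hne : ¬ (G.Adj a c ↔ H.Adj a c) := by
        rcases cnt_opp p q with h | h <;> tauto
      have := cnt_diff p0 q0 hne
      simp only [hS8, Finset.coe_union, Finset.coe_product, Set.mem_union, Set.mem_prod,
        Finset.mem_coe, Finset.mem_insert, Finset.mem_singleton]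
      exact this
    · rintro ⟨a, b, c, d⟩ ht ⟨a', b', c', d'⟩ ht' heq
      have ht1 := (Finset.mem_filter.mp (Finset.mem_coe.mp ht)).2
      have ht2 := (Finset.mem_filter.mp (Finset.mem_coe.mp ht')).2
      simp only at ht1 ht2
      obtain ⟨p, q⟩ := ht1
      obtain ⟨p', q'⟩ := ht2
      simp only [Prod.mk.injEq] at heq
      obtain ⟨rfl, rfl⟩ := heq
      have hne1 : ¬ (G.Adj a d' ↔ H.Adj a d') := by
        rcases cnt_opp p' q' with h | h <;> tauto
      have hne2 : ¬ (G.Adj b' c ↔ H.Adj b' c) := by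
        rcases cnt_opp p' q' with h | h <;> tauto
      have k1 := cnt_diff p q hne1
      have k2 := cnt_diff p q hne2
      obtain ⟨hab, hac, had, hbc, hbd, hcd⟩ := p
      obtain ⟨hab', hac', had', hbc', hbd', hcd'⟩ := p'
      have e1 : d' = d := by grind
      have e2 : b' = b := by grind
      rw [e1, e2]

/-- every ordered switch pair `G, H` comes from at most eight ordered tuples -/
theorem count_graph (Ω : Finset (SimpleGraph (Fin n))) (f : SimpleGraph (Fin n) → ℝ) :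
    (∑ a, ∑ b, ∑ c, ∑ d, if D4 a b c d then DD Ω f a b c d else 0)
      ≤ 8 * ∑ G ∈ Ω, ∑ H ∈ Ω, if IsSwitch G H then (f G - f H) ^ 2 else 0 := by
  have e1 : (∑ a, ∑ b, ∑ c, ∑ d, if D4 a b c d then DD Ω f a b c d else 0)
      = ∑ t : Fin n × Fin n × Fin n × Fin n,
          if D4 t.1 t.2.1 t.2.2.1 t.2.2.2 then DD Ω f t.1 t.2.1 t.2.2.1 t.2.2.2 else 0 := by
    simp only [Fintype.sum_prod_type]
  have e2 : (∑ t : Fin n × Fin n × Fin n × Fin n,
          if D4 t.1 t.2.1 t.2.2.1 t.2.2.2 then DD Ω f t.1 t.2.1 t.2.2.1 t.2.2.2 else 0)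
      = ∑ G ∈ Ω, ∑ H ∈ Ω, ((cntSet G H).card : ℝ) * (f G - f H) ^ 2 := by
    have : ∀ t : Fin n × Fin n × Fin n × Fin n,
        (if D4 t.1 t.2.1 t.2.2.1 t.2.2.2 then DD Ω f t.1 t.2.1 t.2.2.1 t.2.2.2 else 0)
        = ∑ G ∈ Ω, ∑ H ∈ Ω, if D4 t.1 t.2.1 t.2.2.1 t.2.2.2 ∧ SwR t.1 t.2.1 t.2.2.1 t.2.2.2 G H
            then (f G - f H) ^ 2 else 0 := by
      intro t
      by_cases h : D4 t.1 t.2.1 t.2.2.1 t.2.2.2
      · simp only [h, if_true, true_and]; rfl
      · simp [h]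
    simp only [this]
    rw [Finset.sum_comm]
    refine Finset.sum_congr rfl fun G _ => ?_
    rw [Finset.sum_comm]
    refine Finset.sum_congr rfl fun H _ => ?_
    unfold cntSet
    rw [← Finset.sum_filter, Finset.sum_const, nsmul_eq_mul]
  rw [e1, e2, Finset.mul_sum]
  refine Finset.sum_le_sum fun G _ => ?_
  rw [Finset.mul_sum]
  refine Finset.sum_le_sum fun H _ => ?_
  by_cases hsw : IsSwitch G H
  · rw [if_pos hsw]
    have h8 : ((cntSet G H).card : ℝ) ≤ 8 := by exact_mod_cast cnt_card_le G H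
    exact mul_le_mul_of_nonneg_right h8 (sq_nonneg _)
  · rw [if_neg hsw]
    have h0 : cntSet G H = ∅ := by
      rw [Finset.eq_empty_iff_forall_notMem]
      rintro ⟨a, b, c, d⟩ ht
      have ht' := (Finset.mem_filter.mp ht).2
      exact hsw (cnt_isSwitch ht'.1 ht'.2)
    rw [h0]; simp

end Vale.Agent.Lib.P335
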