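import Vale.Agent.Lib.P335G.GDefs
import Vale.Agent.Lib.P335G.JohnsonF2
import Vale.Agent.Lib.P335G.F2Main

namespace Vale.Agent.Lib.P335
open Finset
open scoped Classical

variable {n : ℕ}

/-- (F2) -/
theorem F2_graph (dg : Fin n → ℕ) (a b : Fin n) (hab : a ≠ b) (f : SimpleGraph (Fin n) → ℝ) :
    (∑ c, ∑ d, if D4 a b c d then NN (realizations n dg) f a b c d else 0)
      + 2 * GG (realizations n dg) f a b a b
      ≤ (1 / 4) * ∑ c, ∑ d, if D4 a b c d then DD (realizations n dg) f a b c d else 0 :=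
  F2_graph_main dg a b hab f

end Vale.Agent.Lib.P335
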