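import Vale.Agent.Lib.P335G.GDefs
import Vale.Agent.Lib.P335G.GGSymm

namespace Vale.Agent.Lib.P335
open Finset
open scoped Classical

variable {n : ℕ}

/-- the star of one vertex is determined by the rest of the graph and the degrees -/
theorem gD_single (dg : Fin n → ℕ) (a : Fin n) (f : SimpleGraph (Fin n) → ℝ)
    {G : SimpleGraph (Fin n)} (hG : G ∈ realizations n dg) :
    gD (realizations n dg) a a f G = 0 :=
  gdV_singleton dg f a hG

end Vale.Agent.Lib.P335
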