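import Vale.Agent.Lib.P335G.TriMaps

/-! # P335 (B), leaf T4: `triMat` intertwines the fibre relations -/

namespace Vale.Agent.Lib.P335
open Finset
open scoped Classical

theorem mem_Om_iff_T4 {ι κ : Type} [Fintype ι] [DecidableEq ι] [Fintype κ] [DecidableEq κ]
    {r : ι → ℕ} {c : κ → ℕ} {x : Mat ι κ} :
    x ∈ Om r c ↔ (∀ i, rowSum x i = r i) ∧ ∀ j, colSum x j = c j := by
  unfold Om
  simp

variable {n : ℕ}

theorem triMat_rel {d : Fin n → ℕ} {a b c : Fin n} (hab : a ≠ b) (hac : a ≠ c) (hbc : b ≠ c)
    {y z : SimpleGraph (Fin n)} (hy : y ∈ realizations n d) (hz : z ∈ realizations n d)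
    (h : relV {a, b, c} y z) :
    relV {a, b} y z ↔ rel {a, b} (triMat {a, b, c} y) (triMat {a, b, c} z) := by
  constructor
  · intro hr i hi
    have hia : i ≠ a := fun hh => hi (by simp [hh])
    have hib : i ≠ b := fun hh => hi (by simp [hh])
    -- the entries in the ordinary columns agree
    have hsome : ∀ j, triMat {a, b, c} z i (some j) = triMat {a, b, c} y i (some j) := by
      intro j
      rw [triMat_some, triMat_some]
      by_cases hj : j ∈ ({a, b, c} : Finset (Fin n))
      · simp [hj]
      · have hja : j ∉ ({a, b} : Finset (Fin n)) := by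
          intro hh
          apply hj
          simp only [mem_insert, mem_singleton] at hh ⊢
          tauto
        have := hr i j hi hja
        simp only [this]
    -- the row sums agree
    have hmem := triMat_mem hab hac hbc hy hz h
    have hrow := (mem_Om_iff_T4.mp hmem).1 i
    unfold rowSum at hrow
    rw [Fintype.sum_option, Fintype.sum_option] at hrow
    have hs : ∑ j, (triMat {a, b, c} z i (some j)).toNat = ∑ j, (triMat {a, b, c} y i (some j)).toNat :=
      Finset.sum_congr rfl fun j _ => by rw [hsome j]
    have hnone : (triMat {a, b, c} z i none).toNat = (triMat {a, b, c} y i none).toNat := by omega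
    funext o
    cases o with
    | none =>
      revert hnone
      cases triMat {a, b, c} z i none <;> cases triMat {a, b, c} y i none <;> simp
    | some j => exact hsome j
  · intro hr u v hu hv
    have hc : c ∉ ({a, b} : Finset (Fin n)) := by
      simp only [mem_insert, mem_singleton, not_or]
      exact ⟨hac.symm, hbc.symm⟩
    have hrow := hr c hc
    have key : ∀ j, j ∉ ({a, b, c} : Finset (Fin n)) → (y.Adj c j ↔ z.Adj c j) := by
      intro j hj
      have := congrFun hrow (some j)
      rw [triMat_some, triMat_some] at this
      have hcT : c ∈ ({a, b, c} : Finset (Fin n)) := by simp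
      simp only [hcT, hj, not_false_eq_true, true_and, decide_eq_decide] at this
      exact this.symm
    have hmemT : ∀ w, w ∉ ({a, b} : Finset (Fin n)) → w ≠ c → w ∉ ({a, b, c} : Finset (Fin n)) := by
      intro w hw hwc hh
      apply hw
      simp only [mem_insert, mem_singleton] at hh ⊢
      tauto
    by_cases huc : u = c
    · by_cases hvc : v = c
      · subst huc; subst hvc
        exact ⟨fun hh => absurd hh (y.loopless.irrefl _), fun hh => absurd hh (z.loopless.irrefl _)⟩
      · subst huc
        exact key v (hmemT v hv hvc)
    · by_cases hvc : v = c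
      · subst hvc
        rw [y.adj_comm, z.adj_comm]
        exact key u (hmemT u hu huc)
      · exact h u v (hmemT u hu huc) (hmemT v hv hvc)

end Vale.Agent.Lib.P335
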