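import Vale.Agent.Lib.P335G.TriDefs

/-! # P335 (B), leaf T3: every matrix of `Om r c` comes from a graph of the class -/

namespace Vale.Agent.Lib.P335
open Finset
open scoped Classical

variable {n : ℕ}

/-- degree of a vertex outside `T`: neighbours outside `T` plus the column sum -/
theorem tri_deg_out (T : Finset (Fin n)) (y : SimpleGraph (Fin n)) {v : Fin n} (hv : v ∉ T) :
    ∑ w, adjInd y v w = ∑ w, (if w ∈ T then 0 else adjInd y v w) + colSum (triMat T y) (some v) := by
  unfold colSum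
  rw [← Finset.sum_add_distrib]
  refine Finset.sum_congr rfl fun w _ => ?_
  rw [triMat_some]
  unfold adjInd
  by_cases hw : w ∈ T <;> by_cases h : y.Adj v w <;> simp [hw, hv, h, y.adj_comm w v]

theorem tri_sum_T {a b c : Fin n} (hab : a ≠ b) (hac : a ≠ c) (hbc : b ≠ c) (g : Fin n → ℕ) :
    ∑ w, (if w ∈ ({a, b, c} : Finset (Fin n)) then g w else 0) = g a + g b + g c := by
  rw [← Finset.sum_filter]
  have : (univ.filter fun w => w ∈ ({a, b, c} : Finset (Fin n))) = {a, b, c} := by
    ext w; simp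
  rw [this, Finset.sum_insert (by simp [hab, hac]), Finset.sum_insert (by simp [hbc]),
    Finset.sum_singleton]
  ring

theorem oppAdj_iff_b {a b c : Fin n} (hab : a ≠ b) (hac : a ≠ c) (hbc : b ≠ c)
    (x : SimpleGraph (Fin n)) : oppAdj {a, b, c} x b ↔ x.Adj a c := by
  have h : ({a, b, c} : Finset (Fin n)) = {b, a, c} := by
    ext w; simp only [mem_insert, mem_singleton]; tauto
  rw [h]
  exact oppAdj_iff hab.symm hbc hac x

theorem oppAdj_iff_c {a b c : Fin n} (hab : a ≠ b) (hac : a ≠ c) (hbc : b ≠ c)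
    (x : SimpleGraph (Fin n)) : oppAdj {a, b, c} x c ↔ x.Adj a b := by
  have h : ({a, b, c} : Finset (Fin n)) = {c, a, b} := by
    ext w; simp only [mem_insert, mem_singleton]; tauto
  rw [h]
  exact oppAdj_iff hac.symm hbc.symm hab x

/-- the sum of the star column -/
theorem tri_col_none {a b c : Fin n} (hab : a ≠ b) (hac : a ≠ c) (hbc : b ≠ c)
    (y : SimpleGraph (Fin n)) :
    colSum (triMat {a, b, c} y) none + (adjInd y b c + adjInd y a c + adjInd y a b) = 3 := by
  unfold colSum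
  have h1 : ∀ i, (triMat {a, b, c} y i none).toNat =
      if i ∈ ({a, b, c} : Finset (Fin n)) then (decide (¬ oppAdj {a, b, c} y i)).toNat else 0 := by
    intro i
    rw [triMat_none]
    by_cases hi : i ∈ ({a, b, c} : Finset (Fin n)) <;> simp [hi]
  rw [Finset.sum_congr rfl fun i _ => h1 i, tri_sum_T hab hac hbc]
  simp only [oppAdj_iff hab hac hbc, oppAdj_iff_b hab hac hbc, oppAdj_iff_c hab hac hbc]
  unfold adjInd
  by_cases h1 : y.Adj b c <;> by_cases h2 : y.Adj a c <;> by_cases h3 : y.Adj a b <;>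
    simp [h1, h2, h3]

/-- degree of the first vertex of `T` -/
theorem tri_deg_in {a b c : Fin n} (hab : a ≠ b) (hac : a ≠ c) (hbc : b ≠ c)
    (y : SimpleGraph (Fin n)) :
    ∑ w, adjInd y a w + colSum (triMat {a, b, c} y) none = 2 + rowSum (triMat {a, b, c} y) a := by
  have h0 := tri_col_none hab hac hbc y
  have h1 : rowSum (triMat {a, b, c} y) a = (decide (¬ y.Adj b c)).toNat +
      ∑ w, (if w ∈ ({a, b, c} : Finset (Fin n)) then 0 else adjInd y a w) := by
    unfold rowSum
    rw [Fintype.sum_option, triMat_none]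
    congr 1
    · simp [oppAdj_iff hab hac hbc]
    · refine Finset.sum_congr rfl fun w _ => ?_
      rw [triMat_some]
      unfold adjInd
      by_cases hw : w ∈ ({a, b, c} : Finset (Fin n)) <;> by_cases h : y.Adj a w <;> simp [hw, h]
  have h2 : ∑ w, adjInd y a w = (adjInd y a a + adjInd y a b + adjInd y a c) +
      ∑ w, (if w ∈ ({a, b, c} : Finset (Fin n)) then 0 else adjInd y a w) := by
    rw [← tri_sum_T hab hac hbc, ← Finset.sum_add_distrib]
    refine Finset.sum_congr rfl fun w _ => ?_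
    by_cases hw : w ∈ ({a, b, c} : Finset (Fin n)) <;> simp [hw]
  have h3 : adjInd y a a = 0 := by unfold adjInd; simp
  have h4 : (decide (¬ y.Adj b c)).toNat + adjInd y b c = 1 := by
    unfold adjInd
    by_cases h : y.Adj b c <;> simp [h]
  omega

/-- the inverse graph -/
def triInv (T : Finset (Fin n)) (x0 : SimpleGraph (Fin n)) (m : Mat (Fin n) (Option (Fin n))) :
    SimpleGraph (Fin n) where
  Adj u v := u ≠ v ∧
    ((u ∉ T ∧ v ∉ T ∧ x0.Adj u v) ∨ (u ∈ T ∧ v ∉ T ∧ m u (some v) = true) ∨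
      (u ∉ T ∧ v ∈ T ∧ m v (some u) = true) ∨
      (u ∈ T ∧ v ∈ T ∧ ∃ i ∈ T, i ≠ u ∧ i ≠ v ∧ m i none = false))
  symm := ⟨by
    rintro u v ⟨huv, h⟩
    refine ⟨huv.symm, ?_⟩
    rcases h with ⟨h1, h2, h3⟩ | ⟨h1, h2, h3⟩ | ⟨h1, h2, h3⟩ | ⟨h1, h2, i, hi, h3, h4, h5⟩
    · exact Or.inl ⟨h2, h1, h3.symm⟩
    · exact Or.inr (Or.inr (Or.inl ⟨h2, h1, h3⟩))
    · exact Or.inr (Or.inl ⟨h2, h1, h3⟩)
    · exact Or.inr (Or.inr (Or.inr ⟨h2, h1, i, hi, h4, h3, h5⟩))⟩
  loopless := ⟨fun u h => h.1 rfl⟩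

theorem triInv_adj (T : Finset (Fin n)) (x0 : SimpleGraph (Fin n))
    (m : Mat (Fin n) (Option (Fin n))) (u v : Fin n) :
    (triInv T x0 m).Adj u v ↔ u ≠ v ∧
    ((u ∉ T ∧ v ∉ T ∧ x0.Adj u v) ∨ (u ∈ T ∧ v ∉ T ∧ m u (some v) = true) ∨
      (u ∉ T ∧ v ∈ T ∧ m v (some u) = true) ∨
      (u ∈ T ∧ v ∈ T ∧ ∃ i ∈ T, i ≠ u ∧ i ≠ v ∧ m i none = false)) := Iff.rfl

theorem triInv_relV (T : Finset (Fin n)) (x0 : SimpleGraph (Fin n))
    (m : Mat (Fin n) (Option (Fin n))) : relV T x0 (triInv T x0 m) := by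
  intro u v hu hv
  rw [triInv_adj]
  constructor
  · intro h
    exact ⟨h.ne, Or.inl ⟨hu, hv, h⟩⟩
  · rintro ⟨_, ⟨_, _, h⟩ | ⟨h, _⟩ | ⟨_, h, _⟩ | ⟨h, _⟩⟩
    · exact h
    · exact absurd h hu
    · exact absurd h hv
    · exact absurd h hu

/-- the pair opposite to `a` in the inverse graph -/
theorem triInv_opp {a b c : Fin n} (hab : a ≠ b) (hac : a ≠ c) (hbc : b ≠ c)
    (x0 : SimpleGraph (Fin n)) (m : Mat (Fin n) (Option (Fin n))) :
    (triInv {a, b, c} x0 m).Adj b c ↔ m a none = false := by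
  rw [triInv_adj]
  constructor
  · rintro ⟨_, ⟨h, _⟩ | ⟨_, h, _⟩ | ⟨h, _⟩ | ⟨_, _, i, hi, h1, h2, h3⟩⟩
    · exact absurd (by simp) h
    · exact absurd (by simp) h
    · exact absurd (by simp) h
    · simp only [mem_insert, mem_singleton] at hi
      rcases hi with rfl | rfl | rfl
      · exact h3
      · exact absurd rfl h1
      · exact absurd rfl h2
  · intro h
    exact ⟨hbc, Or.inr (Or.inr (Or.inr ⟨by simp, by simp, a, by simp, hab, hac, h⟩))⟩

theorem toNat_sum_eq_zero {γ : Type} [Fintype γ] (g : γ → Bool) (h : ∑ o, (g o).toNat = 0) (o : γ) :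
    g o = false := by
  have := (Finset.sum_eq_zero_iff.mp h) o (Finset.mem_univ o)
  cases hg : g o
  · rfl
  · rw [hg] at this; simp at this

theorem triMat_triInv {a b c : Fin n} (hab : a ≠ b) (hac : a ≠ c) (hbc : b ≠ c)
    (x0 : SimpleGraph (Fin n)) (m : Mat (Fin n) (Option (Fin n)))
    (h1 : ∀ i, i ∉ ({a, b, c} : Finset (Fin n)) → ∀ o, m i o = false)
    (h2 : ∀ j, j ∈ ({a, b, c} : Finset (Fin n)) → ∀ i, m i (some j) = false) :
    triMat {a, b, c} (triInv {a, b, c} x0 m) = m := by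
  funext i o
  by_cases hi : i ∈ ({a, b, c} : Finset (Fin n))
  swap
  · rw [h1 i hi o]
    cases o <;> simp [triMat_none, triMat_some, hi]
  cases o with
  | none =>
    rw [triMat_none]
    have hb : ({a, b, c} : Finset (Fin n)) = {b, a, c} := by
      ext w; simp only [mem_insert, mem_singleton]; tauto
    have hc : ({a, b, c} : Finset (Fin n)) = {c, a, b} := by
      ext w; simp only [mem_insert, mem_singleton]; tauto
    have key : oppAdj {a, b, c} (triInv {a, b, c} x0 m) i ↔ m i none = false := by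
      simp only [mem_insert, mem_singleton] at hi
      rcases hi with rfl | rfl | rfl
      · rw [oppAdj_iff hab hac hbc, triInv_opp hab hac hbc]
      · rw [oppAdj_iff_b hab hac hbc, hb, triInv_opp hab.symm hbc hac]
      · rw [oppAdj_iff_c hab hac hbc, hc, triInv_opp hac.symm hbc.symm hab]
    cases hmi : m i none <;> simp [hi, key, hmi]
  | some j =>
    rw [triMat_some]
    by_cases hj : j ∈ ({a, b, c} : Finset (Fin n))
    · rw [h2 j hj i]; simp [hj]
    · have hij : i ≠ j := fun h => hj (h ▸ hi)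
      have key : (triInv {a, b, c} x0 m).Adj i j ↔ m i (some j) = true := by
        rw [triInv_adj]
        constructor
        · rintro ⟨_, ⟨h, _⟩ | ⟨_, _, h⟩ | ⟨h, _⟩ | ⟨_, h, _⟩⟩
          · exact absurd hi h
          · exact h
          · exact absurd hi h
          · exact absurd h hj
        · intro h
          exact ⟨hij, Or.inr (Or.inl ⟨hi, hj, h⟩)⟩
      cases hmi : m i (some j) <;> simp [hi, hj, key, hmi]

theorem triMat_surj {d : Fin n → ℕ} {a b c : Fin n} (hab : a ≠ b) (hac : a ≠ c) (hbc : b ≠ c)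
    {x0 : SimpleGraph (Fin n)} (hx0 : x0 ∈ realizations n d) {m : Mat (Fin n) (Option (Fin n))}
    (hm : m ∈ Om (rowSum (triMat {a, b, c} x0)) (colSum (triMat {a, b, c} x0))) :
    ∃ y ∈ realizations n d, relV {a, b, c} x0 y ∧ triMat {a, b, c} y = m := by
  simp only [Om, mem_filter, mem_univ, true_and] at hm
  obtain ⟨hrow, hcol⟩ := hm
  have h1 : ∀ i, i ∉ ({a, b, c} : Finset (Fin n)) → ∀ o, m i o = false := by
    intro i hi
    apply toNat_sum_eq_zero
    have := hrow i
    unfold rowSum at this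
    rw [this]
    refine Finset.sum_eq_zero fun o _ => ?_
    cases o <;> simp [triMat_none, triMat_some, hi]
  have h2 : ∀ j, j ∈ ({a, b, c} : Finset (Fin n)) → ∀ i, m i (some j) = false := by
    intro j hj
    apply toNat_sum_eq_zero (fun i => m i (some j))
    have := hcol (some j)
    unfold colSum at this
    rw [this]
    refine Finset.sum_eq_zero fun i _ => ?_
    simp [triMat_some, hj]
  have hM := triMat_triInv hab hac hbc x0 m h1 h2
  have hrel := triInv_relV {a, b, c} x0 m
  refine ⟨triInv {a, b, c} x0 m, ?_, hrel, hM⟩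
  set y := triInv {a, b, c} x0 m with hy
  have hb : ({a, b, c} : Finset (Fin n)) = {b, a, c} := by
    ext w; simp only [mem_insert, mem_singleton]; tauto
  have hc : ({a, b, c} : Finset (Fin n)) = {c, a, b} := by
    ext w; simp only [mem_insert, mem_singleton]; tauto
  rw [mem_real_iff] at hx0 ⊢
  intro v
  rw [← hx0 v]
  by_cases hv : v ∈ ({a, b, c} : Finset (Fin n))
  · have hn := hcol none
    have hr := hrow v
    have key : ∀ z : SimpleGraph (Fin n), ∑ w, adjInd z v w + colSum (triMat {a, b, c} z) none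
        = 2 + rowSum (triMat {a, b, c} z) v := by
      intro z
      simp only [mem_insert, mem_singleton] at hv
      rcases hv with rfl | rfl | rfl
      · exact tri_deg_in hab hac hbc z
      · rw [hb]; exact tri_deg_in hab.symm hbc hac z
      · rw [hc]; exact tri_deg_in hac.symm hbc.symm hab z
    have k1 := key y
    have k2 := key x0
    rw [hM] at k1
    omega
  · rw [tri_deg_out {a, b, c} y hv, tri_deg_out {a, b, c} x0 hv, hM, hcol (some v)]
    congr 1
    refine Finset.sum_congr rfl fun w _ => ?_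
    by_cases hw : w ∈ ({a, b, c} : Finset (Fin n))
    · simp [hw]
    · simp only [hw, if_false]
      unfold adjInd
      simp only [hrel v w hv hw]

end Vale.Agent.Lib.P335
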