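import Vale.Agent.Lib.P335G.GDefs
import Vale.Agent.Lib.P335G.TriRel
import Vale.Agent.Lib.P335G.TriSurj
import Vale.Agent.Lib.P335g.AbsBasic

/-! # P335 (B), leaf T1: assembly of `tri_graph` from the properties of `triMat` -/

namespace Vale.Agent.Lib.P335
open Finset
open scoped Classical

/-- transport of a class average along a bijection defined on a coarser class -/
theorem cE_transport {α β : Type} [DecidableEq α] [DecidableEq β] (Ω : Finset α)
    (r R : α → α → Prop) [DecidableRel r] [DecidableRel R] (hR : Equivalence R)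
    (hle : ∀ x y, r x y → R x y) (Ω' : Finset β) (r' : β → β → Prop) [DecidableRel r']
    (θ : α → β) (x0 : α) (hθ : Set.BijOn θ (fib Ω R x0) Ω')
    (hrel : ∀ y ∈ fib Ω R x0, ∀ z ∈ fib Ω R x0, (r y z ↔ r' (θ y) (θ z)))
    (f : α → ℝ) (F : β → ℝ) (hF : ∀ y ∈ fib Ω R x0, F (θ y) = f y) (y : α)
    (hy : y ∈ fib Ω R x0) : cE Ω r f y = cE Ω' r' F (θ y) := by
  have hsub : ∀ z ∈ fib Ω r y, z ∈ fib Ω R x0 := by
    intro z hz
    have hz' := Finset.mem_filter.mp hz
    have hy' := Finset.mem_filter.mp hy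
    exact Finset.mem_filter.mpr ⟨hz'.1, hR.trans hy'.2 (hle _ _ hz'.2)⟩
  have hb : Set.BijOn θ (fib Ω r y) (fib Ω' r' (θ y)) := by
    refine ⟨?_, ?_, ?_⟩
    · intro z hz
      have hz1 : z ∈ fib Ω r y := Finset.mem_coe.mp hz
      have hzK := hsub z hz1
      refine Finset.mem_coe.mpr (Finset.mem_filter.mpr ⟨?_, ?_⟩)
      · exact Finset.mem_coe.mp (hθ.mapsTo (Finset.mem_coe.mpr hzK))
      · exact (hrel y hy z hzK).mp (Finset.mem_filter.mp hz1).2
    · intro z hz w hw hzw
      exact hθ.injOn (Finset.mem_coe.mpr (hsub z (Finset.mem_coe.mp hz)))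
        (Finset.mem_coe.mpr (hsub w (Finset.mem_coe.mp hw))) hzw
    · intro m hm
      have hm' := Finset.mem_filter.mp (Finset.mem_coe.mp hm)
      obtain ⟨z, hz, rfl⟩ := hθ.surjOn (Finset.mem_coe.mpr hm'.1)
      have hzK : z ∈ fib Ω R x0 := Finset.mem_coe.mp hz
      refine ⟨z, Finset.mem_coe.mpr (Finset.mem_filter.mpr ⟨(Finset.mem_filter.mp hzK).1, ?_⟩), rfl⟩
      exact (hrel y hy z hzK).mpr hm'.2
  have h1 : ∑ z ∈ fib Ω r y, f z = ∑ m ∈ fib Ω' r' (θ y), F m :=
    Finset.sum_nbij θ (fun z hz => hb.mapsTo hz) hb.injOn hb.surjOn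
      (fun z hz => (hF z (hsub z hz)).symm)
  have h2 : (fib Ω r y).card = (fib Ω' r' (θ y)).card :=
    Finset.card_nbij θ (fun z hz => hb.mapsTo hz) hb.injOn hb.surjOn
  unfold cE
  rw [h1, h2]

variable {n : ℕ}

theorem relV_mono {T T' : Finset (Fin n)} (h : T ⊆ T') (x y : SimpleGraph (Fin n))
    (hxy : relV T x y) : relV T' x y :=
  fun u v hu hv => hxy u v (fun hu' => hu (h hu')) (fun hv' => hv (h hv'))

/-- (B) -/
theorem tri_graph_asm (dg : Fin n → ℕ) (a b c : Fin n) (hab : a ≠ b) (hac : a ≠ c) (hbc : b ≠ c)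
    (f : SimpleGraph (Fin n) → ℝ) :
    0 ≤ GG (realizations n dg) f a b a c + GG (realizations n dg) f a b b c
      + GG (realizations n dg) f a c b c := by
  set Ω := realizations n dg with hΩ
  set T : Finset (Fin n) := {a, b, c} with hT
  have hT1 : ({a, c, b} : Finset (Fin n)) = T := by
    ext i; simp only [hT, mem_insert, mem_singleton]; tauto
  have hT2 : ({b, c, a} : Finset (Fin n)) = T := by
    ext i; simp only [hT, mem_insert, mem_singleton]; tauto
  have s1 : ({a, b} : Finset (Fin n)) ⊆ T := by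
    intro i; simp only [hT, mem_insert, mem_singleton]; tauto
  have s2 : ({a, c} : Finset (Fin n)) ⊆ T := by
    intro i; simp only [hT, mem_insert, mem_singleton]; tauto
  have s3 : ({b, c} : Finset (Fin n)) ⊆ T := by
    intro i; simp only [hT, mem_insert, mem_singleton]; tauto
  have hsum : GG Ω f a b a c + GG Ω f a b b c + GG Ω f a c b c =
      ∑ G ∈ Ω, (gD Ω a b f G * gD Ω a c f G + gD Ω a b f G * gD Ω b c f G
        + gD Ω a c f G * gD Ω b c f G) := by
    unfold GG
    rw [← sum_add_distrib, ← sum_add_distrib]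
  rw [hsum]
  refine Vale.Agent.Lib.P335g.sum_nonneg_of_fib Ω (relV T) (relV_equiv T) _ ?_
  intro x0 hx0
  set K := fib Ω (relV T) x0 with hK
  set r := rowSum (triMat T x0) with hr
  set cc := colSum (triMat T x0) with hcc
  have hKmem : ∀ y ∈ K, y ∈ Ω ∧ relV T x0 y := fun y hy => Finset.mem_filter.mp hy
  have hKK : ∀ y ∈ K, ∀ z ∈ K, relV T y z := fun y hy z hz =>
    (relV_equiv T).trans ((relV_equiv T).symm (hKmem y hy).2) (hKmem z hz).2
  have hθ : Set.BijOn (triMat T) K (Om r cc) := by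
    refine ⟨?_, ?_, ?_⟩
    · intro y hy
      have hy' := hKmem y (Finset.mem_coe.mp hy)
      exact Finset.mem_coe.mpr (triMat_mem hab hac hbc hx0 hy'.1 hy'.2)
    · intro y hy z hz hyz
      exact triMat_inj hab hac hbc (hKK y (Finset.mem_coe.mp hy) z (Finset.mem_coe.mp hz)) hyz
    · intro m hm
      obtain ⟨y, hy, hxy, rfl⟩ := triMat_surj hab hac hbc hx0 (Finset.mem_coe.mp hm)
      exact ⟨y, Finset.mem_coe.mpr (Finset.mem_filter.mpr ⟨hy, hxy⟩), rfl⟩
  set F : Mat (Fin n) (Option (Fin n)) → ℝ := fun m => f (Function.invFunOn (triMat T) K m) with hF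
  have hFθ : ∀ y ∈ K, F (triMat T y) = f y := by
    intro y hy
    simp only [hF]
    rw [hθ.injOn.leftInvOn_invFunOn (Finset.mem_coe.mpr hy)]
  have e1 : ∀ y ∈ K, gD Ω a b f y = dd (Om r cc) {a, b} F (triMat T y) := by
    intro y hy
    unfold gD dd avg
    rw [hFθ y hy, cE_transport Ω (relV {a, b}) (relV T) (relV_equiv T) (relV_mono s1) (Om r cc)
      (rel {a, b}) (triMat T) x0 hθ
      (fun y hy z hz => triMat_rel hab hac hbc (hKmem y hy).1 (hKmem z hz).1 (hKK y hy z hz))
      f F hFθ y hy]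
  have e2 : ∀ y ∈ K, gD Ω a c f y = dd (Om r cc) {a, c} F (triMat T y) := by
    intro y hy
    unfold gD dd avg
    rw [hFθ y hy, cE_transport Ω (relV {a, c}) (relV T) (relV_equiv T) (relV_mono s2) (Om r cc)
      (rel {a, c}) (triMat T) x0 hθ
      (fun y hy z hz => by
        have h := triMat_rel hac hab hbc.symm (hKmem y hy).1 (hKmem z hz).1
          (by rw [hT1]; exact hKK y hy z hz)
        rw [hT1] at h
        exact h)
      f F hFθ y hy]
  have e3 : ∀ y ∈ K, gD Ω b c f y = dd (Om r cc) {b, c} F (triMat T y) := by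
    intro y hy
    unfold gD dd avg
    rw [hFθ y hy, cE_transport Ω (relV {b, c}) (relV T) (relV_equiv T) (relV_mono s3) (Om r cc)
      (rel {b, c}) (triMat T) x0 hθ
      (fun y hy z hz => by
        have h := triMat_rel hbc hab.symm hac.symm (hKmem y hy).1 (hKmem z hz).1
          (by rw [hT2]; exact hKK y hy z hz)
        rw [hT2] at h
        exact h)
      f F hFθ y hy]
  have h3 : ∑ y ∈ K, (gD Ω a b f y * gD Ω a c f y + gD Ω a b f y * gD Ω b c f y
        + gD Ω a c f y * gD Ω b c f y) =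
      ∑ m ∈ Om r cc, (dd (Om r cc) {a, b} F m * dd (Om r cc) {a, c} F m
        + dd (Om r cc) {a, b} F m * dd (Om r cc) {b, c} F m
        + dd (Om r cc) {a, c} F m * dd (Om r cc) {b, c} F m) :=
    Finset.sum_nbij (triMat T) (fun y hy => hθ.mapsTo hy) hθ.injOn hθ.surjOn
      (fun y hy => by rw [e1 y hy, e2 y hy, e3 y hy])
  rw [h3, sum_add_distrib, sum_add_distrib]
  exact tri_nonneg r cc a b c hab hac hbc F

end Vale.Agent.Lib.P335
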