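import Vale.Agent.Lib.P335G.GDefs
import Vale.Agent.Lib.P335.Poincare
import Vale.Agent.Lib.P335G.TriAsm

namespace Vale.Agent.Lib.P335
open Finset
open scoped Classical

variable {n : ℕ}

/-- (B) -/
theorem tri_graph (dg : Fin n → ℕ) (a b c : Fin n) (hab : a ≠ b) (hac : a ≠ c) (hbc : b ≠ c)
    (f : SimpleGraph (Fin n) → ℝ) :
    0 ≤ GG (realizations n dg) f a b a c + GG (realizations n dg) f a b b c
      + GG (realizations n dg) f a c b c :=
  tri_graph_asm dg a b c hab hac hbc f

end Vale.Agent.Lib.P335
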