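import Vale.Agent.Lib.P335G.LeafF1
import Vale.Agent.Lib.P335G.LeafF2
import Vale.Agent.Lib.P335G.LeafTri
import Vale.Agent.Lib.P335G.LeafSingle
import Vale.Agent.Lib.P335G.LeafCount
import Vale.Agent.Lib.P335G.GConn
import Vale.Agent.Lib.P335G.GMix
import Vale.Agent.Lib.P335g.Knabe2
import Vale.Agent.Lib.P335.Spec

/-!
# P335: the Poincare inequality for the switch chain, for every degree vector
-/

namespace Vale.Agent.Lib.P335
open Finset
open scoped Classical

variable {n : ℕ}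

section basics
variable (Ω : Finset (SimpleGraph (Fin n)))

theorem gD_comm (a b : Fin n) (f : SimpleGraph (Fin n) → ℝ) (G : SimpleGraph (Fin n)) :
    gD Ω b a f G = gD Ω a b f G := by
  unfold gD
  rw [pair_comm]

theorem gD_add (a b : Fin n) (f g : SimpleGraph (Fin n) → ℝ) (G : SimpleGraph (Fin n)) :
    gD Ω a b (f + g) G = gD Ω a b f G + gD Ω a b g G := by
  unfold gD
  rw [cE_add]
  simp only [Pi.add_apply]
  ring

theorem gD_smul (a b : Fin n) (t : ℝ) (f : SimpleGraph (Fin n) → ℝ) (G : SimpleGraph (Fin n)) :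
    gD Ω a b (t • f) G = t * gD Ω a b f G := by
  unfold gD
  rw [cE_smul]
  simp only [Pi.smul_apply, smul_eq_mul]
  ring

theorem gD_ext (a b : Fin n) (f g : SimpleGraph (Fin n) → ℝ) (h : ∀ G ∈ Ω, f G = g G)
    (G : SimpleGraph (Fin n)) (hG : G ∈ Ω) : gD Ω a b f G = gD Ω a b g G := by
  unfold gD
  rw [cE_ext Ω _ f g h, h G hG]

theorem gD_symm (a b : Fin n) (f g : SimpleGraph (Fin n) → ℝ) :
    ∑ G ∈ Ω, f G * gD Ω a b g G = ∑ G ∈ Ω, gD Ω a b f G * g G := by
  unfold gD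
  simp only [mul_sub, sub_mul, sum_sub_distrib]
  rw [cE_symm Ω _ (relV_equiv _)]

theorem sum_mul_gD (a b : Fin n) (f : SimpleGraph (Fin n) → ℝ) :
    ∑ G ∈ Ω, f G * gD Ω a b f G = GG Ω f a b a b := by
  unfold GG gD
  have := sum_mul_sub_cE Ω (relV {a, b}) (relV_equiv _) f
  rw [this]
  exact sum_congr rfl fun G _ => by ring

/-- the sum of all the pair operators (ordered pairs) -/
noncomputable def gT (f : SimpleGraph (Fin n) → ℝ) (G : SimpleGraph (Fin n)) : ℝ :=
  ∑ a, ∑ b, gD Ω a b f G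

theorem sum_mul_gT (f : SimpleGraph (Fin n) → ℝ) :
    ∑ G ∈ Ω, f G * gT Ω f G = ∑ a, ∑ b, GG Ω f a b a b := by
  unfold gT
  simp only [mul_sum]
  rw [sum_comm]
  refine sum_congr rfl fun a _ => ?_
  rw [sum_comm]
  refine sum_congr rfl fun b _ => ?_
  exact sum_mul_gD Ω a b f

theorem sum_gT_sq (f : SimpleGraph (Fin n) → ℝ) :
    ∑ G ∈ Ω, gT Ω f G ^ 2 = ∑ a, ∑ b, ∑ c, ∑ d, GG Ω f a b c d := by
  have : ∀ G, gT Ω f G ^ 2 = ∑ a, ∑ b, ∑ c, ∑ d, gD Ω a b f G * gD Ω c d f G := by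
    intro G
    unfold gT
    rw [sq, sum_mul]
    refine sum_congr rfl fun a _ => ?_
    rw [sum_mul]
    refine sum_congr rfl fun b _ => ?_
    rw [mul_sum]
    refine sum_congr rfl fun c _ => ?_
    rw [mul_sum]
  simp only [this]
  unfold GG
  rw [sum_comm]
  refine sum_congr rfl fun a _ => ?_
  rw [sum_comm]
  refine sum_congr rfl fun b _ => ?_
  rw [sum_comm]
  refine sum_congr rfl fun c _ => ?_
  rw [sum_comm]

theorem NN_nonneg (f : SimpleGraph (Fin n) → ℝ) (a b c d : Fin n) : 0 ≤ NN Ω f a b c d :=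
  sum_nonneg fun _ _ => sq_nonneg _

theorem DD_nonneg (f : SimpleGraph (Fin n) → ℝ) (a b c d : Fin n) : 0 ≤ DD Ω f a b c d :=
  sum_nonneg fun _ _ => sum_nonneg fun _ _ => by
    split_ifs
    · exact sq_nonneg _
    · exact le_refl _

end basics

theorem D4_swap (a b c d : Fin n) : D4 c d a b ↔ D4 a b c d := by
  unfold D4
  constructor <;> rintro ⟨h1, h2, h3, h4, h5, h6⟩ <;>
    exact ⟨h6, h2.symm, h4.symm, h3.symm, h5.symm, h1⟩

theorem GG_single (dg : Fin n → ℕ) (f : SimpleGraph (Fin n) → ℝ) (a c d : Fin n) :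
    GG (realizations n dg) f a a c d = 0 :=
  sum_eq_zero fun G hG => by rw [gD_single dg a f hG, zero_mul]

/-- (F2) summed over all ordered pairs -/
theorem F2_sum (dg : Fin n → ℕ) (f : SimpleGraph (Fin n) → ℝ) :
    (∑ a, ∑ b, ∑ c, ∑ d, if D4 a b c d then NN (realizations n dg) f a b c d else 0)
      + 2 * ∑ a, ∑ b, GG (realizations n dg) f a b a b
      ≤ (1 / 4) * ∑ a, ∑ b, ∑ c, ∑ d, if D4 a b c d then DD (realizations n dg) f a b c d else 0 := by
  simp only [mul_sum]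
  simp only [← sum_add_distrib]
  refine sum_le_sum fun a _ => sum_le_sum fun b _ => ?_
  by_cases hab : a = b
  · subst hab
    rw [GG_single]
    have h1 : ∀ c d, ¬ D4 a a c d := fun c d h => h.1 rfl
    simp [h1]
  · have := F2_graph dg a b hab f
    simp only [mul_sum] at this
    exact this

/-- the disjoint part of the square dominates -/
theorem disj_graph (dg : Fin n → ℕ) (f : SimpleGraph (Fin n) → ℝ) :
    2 * ∑ a, ∑ b, GG (realizations n dg) f a b a b ≤ ∑ a, ∑ b, ∑ c, ∑ d,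
      if (a ≠ b ∧ a ≠ c ∧ a ≠ d ∧ b ≠ c ∧ b ≠ d ∧ c ≠ d) then GG (realizations n dg) f a b c d
      else 0 := by
  set Ω := realizations n dg with hΩ
  have h2 := F2_sum dg f
  rw [← hΩ] at h2
  -- reindexing
  have hsw : (∑ a, ∑ b, ∑ c, ∑ d, if D4 a b c d then NN Ω f c d a b else 0)
      = ∑ a, ∑ b, ∑ c, ∑ d, if D4 a b c d then NN Ω f a b c d else 0 := by
    have e1 : ∀ F : Fin n → Fin n → Fin n → Fin n → ℝ,
        ∑ a, ∑ b, ∑ c, ∑ d, F a b c d = ∑ c, ∑ d, ∑ a, ∑ b, F a b c d := by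
      intro F
      calc ∑ a, ∑ b, ∑ c, ∑ d, F a b c d = ∑ a, ∑ c, ∑ b, ∑ d, F a b c d :=
            sum_congr rfl fun a _ => sum_comm
        _ = ∑ c, ∑ a, ∑ b, ∑ d, F a b c d := sum_comm
        _ = ∑ c, ∑ a, ∑ d, ∑ b, F a b c d :=
            sum_congr rfl fun c _ => sum_congr rfl fun a _ => sum_comm
        _ = ∑ c, ∑ d, ∑ a, ∑ b, F a b c d := sum_congr rfl fun c _ => sum_comm
    rw [e1]
    refine sum_congr rfl fun c _ => sum_congr rfl fun d _ => sum_congr rfl fun a _ =>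
      sum_congr rfl fun b _ => ?_
    simp only [D4_swap c d a b]
  have h1 : (∑ a, ∑ b, ∑ c, ∑ d, if D4 a b c d then
        (DD Ω f a b c d / 4 - (NN Ω f a b c d + NN Ω f c d a b) / 2) else 0)
      ≤ ∑ a, ∑ b, ∑ c, ∑ d, if D4 a b c d then GG Ω f a b c d else 0 := by
    refine sum_le_sum fun a _ => sum_le_sum fun b _ => sum_le_sum fun c _ =>
      sum_le_sum fun d _ => ?_
    split_ifs with h
    · exact F1_graph dg a b c d h f
    · exact le_refl _
  have h3 : (∑ a, ∑ b, ∑ c, ∑ d, if D4 a b c d then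
        (DD Ω f a b c d / 4 - (NN Ω f a b c d + NN Ω f c d a b) / 2) else 0)
      = (1 / 4) * (∑ a, ∑ b, ∑ c, ∑ d, if D4 a b c d then DD Ω f a b c d else 0)
        - (1 / 2) * (∑ a, ∑ b, ∑ c, ∑ d, if D4 a b c d then NN Ω f a b c d else 0)
        - (1 / 2) * (∑ a, ∑ b, ∑ c, ∑ d, if D4 a b c d then NN Ω f c d a b else 0) := by
    simp only [mul_sum, ← sum_sub_distrib]
    refine sum_congr rfl fun a _ => sum_congr rfl fun b _ => sum_congr rfl fun c _ =>
      sum_congr rfl fun d _ => ?_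
    split_ifs
    · ring
    · ring
  rw [h3, hsw] at h1
  have h4 : (∑ a, ∑ b, ∑ c, ∑ d, if D4 a b c d then GG Ω f a b c d else 0) =
      ∑ a, ∑ b, ∑ c, ∑ d,
      if (a ≠ b ∧ a ≠ c ∧ a ≠ d ∧ b ≠ c ∧ b ≠ d ∧ c ≠ d) then GG Ω f a b c d else 0 := by
    refine sum_congr rfl fun a _ => sum_congr rfl fun b _ => sum_congr rfl fun c _ =>
      sum_congr rfl fun d _ => ?_
    by_cases h : D4 a b c d
    · rw [if_pos h]
      unfold D4 at h
      rw [if_pos h]
    · rw [if_neg h]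
      unfold D4 at h
      rw [if_neg h]
  rw [← h4]
  linarith

theorem knabe_gT (dg : Fin n → ℕ) (f : SimpleGraph (Fin n) → ℝ) :
    4 * ∑ G ∈ realizations n dg, f G * gT (realizations n dg) f G
      ≤ ∑ G ∈ realizations n dg, gT (realizations n dg) f G ^ 2 := by
  set Ω := realizations n dg with hΩ
  have hk := Vale.Agent.Lib.P335g.knabe_comb2 (fun a b c d => GG Ω f a b c d)
    (by intro a b c d; unfold GG; simp only [gD_comm Ω a b])
    (by intro a b c d; unfold GG; simp only [gD_comm Ω c d])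
    (by intro a b c d; exact sum_congr rfl fun x _ => mul_comm _ _)
    (by intro a c d; exact GG_single dg f a c d)
    (disj_graph dg f)
    (by intro a b c hab hac hbc; exact tri_graph dg a b c hab hac hbc f)
  rw [sum_mul_gT, sum_gT_sq]
  exact hk

/-- a switch changes only pairs that meet two suitable vertices -/
theorem relV_of_isSwitch {G H : SimpleGraph (Fin n)} (h : IsSwitch G H) :
    ∃ a d : Fin n, relV {a, d} G H := by
  obtain ⟨a, b, c, d, hab, hac, had, hbc, hbd, hcd, -, -, -, -, hH⟩ := h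
  refine ⟨a, d, ?_⟩
  intro u v hu hv
  simp only [mem_insert, mem_singleton, not_or] at hu hv
  rw [hH u v]
  have e1 : s(u, v) ≠ s(a, b) := by
    intro h
    rcases Sym2.eq_iff.mp h with ⟨h1, _⟩ | ⟨_, h2⟩
    · exact hu.1 h1
    · exact hv.1 h2
  have e2 : s(u, v) ≠ s(c, d) := by
    intro h
    rcases Sym2.eq_iff.mp h with ⟨_, h2⟩ | ⟨h1, _⟩
    · exact hv.2 h2
    · exact hu.2 h1
  have e3 : s(u, v) ≠ s(a, c) := by
    intro h
    rcases Sym2.eq_iff.mp h with ⟨h1, _⟩ | ⟨_, h2⟩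
    · exact hu.1 h1
    · exact hv.1 h2
  have e4 : s(u, v) ≠ s(b, d) := by
    intro h
    rcases Sym2.eq_iff.mp h with ⟨_, h2⟩ | ⟨h1, _⟩
    · exact hv.2 h2
    · exact hu.2 h1
  simp [e1, e2, e3, e4]

theorem gT_eig (dg : Fin n → ℕ) (lam : ℝ) (v : SimpleGraph (Fin n) → ℝ)
    (hne : ∃ G ∈ realizations n dg, v G ≠ 0)
    (hv : ∀ G ∈ realizations n dg, gT (realizations n dg) v G = lam * v G) :
    4 ≤ lam ∨ ∀ G ∈ realizations n dg, ∀ H ∈ realizations n dg, v H = v G := by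
  set Ω := realizations n dg with hΩ
  by_cases hl : 4 ≤ lam
  · exact Or.inl hl
  right
  have hl' : lam < 4 := not_le.mp hl
  have hN : 0 < ∑ x ∈ Ω, v x ^ 2 := by
    obtain ⟨x, hx, hx0⟩ := hne
    exact sum_pos' (fun y _ => sq_nonneg _) ⟨x, hx, by positivity⟩
  have hk := knabe_gT dg v
  rw [← hΩ] at hk
  have e1 : ∑ x ∈ Ω, v x * gT Ω v x = lam * ∑ x ∈ Ω, v x ^ 2 := by
    rw [mul_sum]; exact sum_congr rfl fun x hx => by rw [hv x hx]; ring
  have e2 : ∑ x ∈ Ω, gT Ω v x ^ 2 = lam ^ 2 * ∑ x ∈ Ω, v x ^ 2 := by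
    rw [mul_sum]; exact sum_congr rfl fun x hx => by rw [hv x hx]; ring
  rw [e1, e2] at hk
  have hlam : lam ≤ 0 := by
    by_contra hpos
    have hpos' : 0 < lam := not_le.mp hpos
    have : lam ^ 2 * ∑ x ∈ Ω, v x ^ 2 < 4 * (lam * ∑ x ∈ Ω, v x ^ 2) := by
      have : lam ^ 2 < 4 * lam := by nlinarith
      nlinarith
    linarith
  have hz : ∑ a, ∑ b, GG Ω v a b a b ≤ 0 := by
    rw [← sum_mul_gT, e1]
    exact mul_nonpos_of_nonpos_of_nonneg hlam hN.le
  have hGG : ∀ a b, GG Ω v a b a b = ∑ x ∈ Ω, gD Ω a b v x ^ 2 := by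
    intro a b
    unfold GG
    exact sum_congr rfl fun x _ => by ring
  simp only [hGG] at hz
  have hdd : ∀ a b, ∀ x ∈ Ω, gD Ω a b v x = 0 := by
    intro a b x hx
    by_contra hne0
    have h1 : 0 < ∑ x ∈ Ω, gD Ω a b v x ^ 2 :=
      sum_pos' (fun y _ => sq_nonneg _) ⟨x, hx, by positivity⟩
    have h2 : 0 < ∑ b, ∑ x ∈ Ω, gD Ω a b v x ^ 2 :=
      sum_pos' (fun b' _ => sum_nonneg fun y _ => sq_nonneg _) ⟨b, mem_univ _, h1⟩
    have h3 : 0 < ∑ a, ∑ b, ∑ x ∈ Ω, gD Ω a b v x ^ 2 :=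
      sum_pos' (fun a' _ => sum_nonneg fun b' _ => sum_nonneg fun y _ => sq_nonneg _)
        ⟨a, mem_univ _, h2⟩
    linarith
  refine switch_conn n dg v ?_
  intro G hG H hH hsw
  obtain ⟨a, d, hrel⟩ := relV_of_isSwitch hsw
  have h1 := hdd a d G hG
  have h2 := hdd a d H hH
  unfold gD at h1 h2
  have h3 : cE Ω (relV {a, d}) v G = cE Ω (relV {a, d}) v H :=
    cE_class Ω (relV {a, d}) (relV_equiv _) v hrel
  linarith

/-- the Poincare inequality: the switch Laplacian has spectral gap at least `2` -/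
theorem poincare_graph (dg : Fin n → ℕ) (f : SimpleGraph (Fin n) → ℝ)
    (hf : ∑ G ∈ realizations n dg, f G = 0) :
    4 * ∑ G ∈ realizations n dg, f G ^ 2 ≤
      ∑ G ∈ realizations n dg, ∑ H ∈ realizations n dg,
        if IsSwitch G H then (f G - f H) ^ 2 else 0 := by
  set Ω := realizations n dg with hΩ
  have hspec := specOn Ω (gT Ω)
    (by intro u v x _; unfold gT; simp only [gD_add, sum_add_distrib])
    (by intro t v x _; unfold gT; simp only [gD_smul, mul_sum])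
    (by
      intro u v h x hx
      unfold gT
      exact sum_congr rfl fun a _ => sum_congr rfl fun b _ => gD_ext Ω _ _ u v h x hx)
    (by
      intro u v
      unfold gT
      simp only [mul_sum, sum_mul]
      rw [sum_comm]
      rw [sum_comm (s := Ω)]
      refine sum_congr rfl fun a _ => ?_
      rw [sum_comm]
      rw [sum_comm (s := Ω)]
      exact sum_congr rfl fun b _ => gD_symm Ω _ _ u v)
    (fun v => ∀ x ∈ Ω, ∀ y ∈ Ω, v y = v x) 4
    (fun lam v hne hv => gT_eig dg lam v hne hv)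
    f (by
      intro k hk
      rcases Ω.eq_empty_or_nonempty with he | ⟨x0, hx0⟩
      · rw [he]; simp
      · have : ∑ x ∈ Ω, k x * f x = k x0 * ∑ x ∈ Ω, f x := by
          rw [mul_sum]
          exact sum_congr rfl fun x hx => by rw [hk x0 hx0 x hx]
        rw [this, hf, mul_zero])
  rw [sum_mul_gT] at hspec
  have h2 := F2_sum dg f
  rw [← hΩ] at h2
  have h3 := count_graph Ω f
  have h4 : 0 ≤ ∑ a, ∑ b, ∑ c, ∑ d, if D4 a b c d then NN Ω f a b c d else 0 :=
    sum_nonneg fun a _ => sum_nonneg fun b _ => sum_nonneg fun c _ => sum_nonneg fun d _ => by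
      split_ifs
      · exact NN_nonneg Ω f a b c d
      · exact le_refl _
  linarith

/-- the same on the state space of the chain -/
theorem poincare_St (dg : Fin n → ℕ) (f : St n dg → ℝ) (hf : ∑ G, f G = 0) :
    4 * ∑ G, f G ^ 2 ≤ ∑ G : St n dg, ∑ H : St n dg,
      if IsSwitch G.1 H.1 then (f G - f H) ^ 2 else 0 := by
  set F : SimpleGraph (Fin n) → ℝ := fun G =>
    if h : G ∈ realizations n dg then f ⟨G, h⟩ else 0 with hF
  have hFf : ∀ G : St n dg, F G.1 = f G := by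
    intro G
    simp only [hF, G.2, dif_pos]
  have e0 : ∀ φ : SimpleGraph (Fin n) → ℝ, ∑ G ∈ realizations n dg, φ G = ∑ G : St n dg, φ G.1 := by
    intro φ
    exact (Finset.sum_coe_sort (realizations n dg) φ).symm
  have h := poincare_graph dg F (by rw [e0]; simp only [hFf]; exact hf)
  rw [e0, e0] at h
  simp only [e0, hFf] at h
  exact h

/-- the switch chain mixes within `n ^ 6` steps, for every degree vector -/
theorem all_mixing (n : ℕ) (hn : 4 ≤ n) (dg : Fin n → ℕ) (hne : (realizations n dg).Nonempty) :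
    (∀ t, n ^ 6 ≤ t → ∀ G : St n dg, tvDist n dg t G ≤ 1 / 4) ∧ tmix n dg ≤ n ^ 6 :=
  mixing_of_switch_poincare n hn dg hne (fun f hf => poincare_St dg f hf)

end Vale.Agent.Lib.P335
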