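import Vale.Agent.Lib.P335G.GDefs
import Vale.Agent.Lib.P335F1.F1Graph

namespace Vale.Agent.Lib.P335
open Finset
open scoped Classical

variable {n : ℕ}

/-- two graphs which agree off `{a,b}` and off `{c,d}` agree outside the four pairs of the block -/
theorem agree_off_block {a b c d : Fin n} (h : D4 a b c d) {G H : SimpleGraph (Fin n)}
    (h1 : relV {a, b} G H) (h2 : relV {c, d} G H) (u v : Fin n)
    (hn : ¬ (s(u, v) = s(a, c) ∨ s(u, v) = s(b, d) ∨ s(u, v) = s(a, d) ∨ s(u, v) = s(b, c))) :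
    G.Adj u v ↔ H.Adj u v := by
  obtain ⟨hab, hac, had, hbc, hbd, hcd⟩ := h
  by_cases k1 : u ∉ ({a, b} : Finset (Fin n)) ∧ v ∉ ({a, b} : Finset (Fin n))
  · exact h1 u v k1.1 k1.2
  by_cases k2 : u ∉ ({c, d} : Finset (Fin n)) ∧ v ∉ ({c, d} : Finset (Fin n))
  · exact h2 u v k2.1 k2.2
  exfalso
  apply hn
  simp only [Finset.mem_insert, Finset.mem_singleton, not_or, not_and, not_not] at k1 k2
  simp only [Sym2.eq_iff]
  have k1' : u = a ∨ u = b ∨ v = a ∨ v = b := by
    by_contra hcon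
    simp only [not_or] at hcon
    exact hcon.2.2.2 (k1 ⟨hcon.1, hcon.2.1⟩ hcon.2.2.1)
  have k2' : u = c ∨ u = d ∨ v = c ∨ v = d := by
    by_contra hcon
    simp only [not_or] at hcon
    exact hcon.2.2.2 (k2 ⟨hcon.1, hcon.2.1⟩ hcon.2.2.1)
  rcases k1' with e1 | e1 | e1 | e1 <;> rcases k2' with e2 | e2 | e2 | e2
  · exact absurd (e1.symm.trans e2) hac
  · exact absurd (e1.symm.trans e2) had
  · exact Or.inl (Or.inl ⟨e1, e2⟩)
  · exact Or.inr (Or.inr (Or.inl (Or.inl ⟨e1, e2⟩)))
  · exact absurd (e1.symm.trans e2) hbc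
  · exact absurd (e1.symm.trans e2) hbd
  · exact Or.inr (Or.inr (Or.inr (Or.inl ⟨e1, e2⟩)))
  · exact Or.inr (Or.inl (Or.inl ⟨e1, e2⟩))
  · exact Or.inl (Or.inr ⟨e2, e1⟩)
  · exact Or.inr (Or.inr (Or.inl (Or.inr ⟨e2, e1⟩)))
  · exact absurd (e1.symm.trans e2) hac
  · exact absurd (e1.symm.trans e2) had
  · exact Or.inr (Or.inr (Or.inr (Or.inr ⟨e2, e1⟩)))
  · exact Or.inr (Or.inl (Or.inr ⟨e2, e1⟩))
  · exact absurd (e1.symm.trans e2) hbc
  · exact absurd (e1.symm.trans e2) hbd

/-- the relation `SwR` is the graph of the switch involution -/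
theorem swR_iff {a b c d : Fin n} (h : D4 a b c d) (G H : SimpleGraph (Fin n)) :
    SwR a b c d G H ↔ Av G a b c d ∧ H = tauG a b c d G := by
  have h' := h
  obtain ⟨hab, hac, had, hbc, hbd, hcd⟩ := h'
  constructor
  · rintro ⟨hG, hH, hne, h1, h2⟩
    refine ⟨hG, ?_⟩
    have e1 : ∀ K : SimpleGraph (Fin n), ∀ u v, s(u, v) = s(a, c) → (K.Adj u v ↔ K.Adj a c) :=
      fun K u v hh => gc_adj_congr K hh
    have e2 : ∀ K : SimpleGraph (Fin n), ∀ u v, s(u, v) = s(b, d) → (K.Adj u v ↔ K.Adj b d) :=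
      fun K u v hh => gc_adj_congr K hh
    have e3 : ∀ K : SimpleGraph (Fin n), ∀ u v, s(u, v) = s(a, d) → (K.Adj u v ↔ K.Adj a d) :=
      fun K u v hh => gc_adj_congr K hh
    have e4 : ∀ K : SimpleGraph (Fin n), ∀ u v, s(u, v) = s(b, c) → (K.Adj u v ↔ K.Adj b c) :=
      fun K u v hh => gc_adj_congr K hh
    -- the two blocks are different
    have hdiff : ¬ (G.Adj a c ↔ H.Adj a c) := by
      intro hsame
      apply hne
      ext u v
      by_cases hb : s(u, v) = s(a, c) ∨ s(u, v) = s(b, d) ∨ s(u, v) = s(a, d) ∨ s(u, v) = s(b, c)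
      · unfold Av at hG hH
        rcases hb with q | q | q | q
        · rw [e1 G u v q, e1 H u v q]; exact hsame
        · rw [e2 G u v q, e2 H u v q]; tauto
        · rw [e3 G u v q, e3 H u v q]; tauto
        · rw [e4 G u v q, e4 H u v q]; tauto
      · exact agree_off_block h h1 h2 u v hb
    ext u v
    rw [tauG_adj hab hac had hbc hbd hcd hG u v]
    by_cases hb : s(u, v) = s(a, c) ∨ s(u, v) = s(b, d) ∨ s(u, v) = s(a, d) ∨ s(u, v) = s(b, c)
    · rw [if_pos hb]
      unfold Av at hG hH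
      rcases hb with q | q | q | q
      · rw [e1 G u v q, e1 H u v q]; tauto
      · rw [e2 G u v q, e2 H u v q]; tauto
      · rw [e3 G u v q, e3 H u v q]; tauto
      · rw [e4 G u v q, e4 H u v q]; tauto
    · rw [if_neg hb]
      exact (agree_off_block h h1 h2 u v hb).symm
  · rintro ⟨hG, rfl⟩
    refine ⟨hG, (tauG_av hab hac had hbc hbd hcd G).mp hG, ?_,
      tauG_relV_ab hab hac had hbc hbd hcd G, tauG_relV_cd hab hac had hbc hbd hcd G⟩
    intro heq
    have t1 := tauG_adj hab hac had hbc hbd hcd hG a c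
    simp only [true_or, if_true] at t1
    rw [← heq] at t1
    tauto

/-- the Dirichlet form `DD` in terms of the involution -/
theorem DD_eq_tau (dg : Fin n → ℕ) {a b c d : Fin n} (h : D4 a b c d)
    (f : SimpleGraph (Fin n) → ℝ) :
    DD (realizations n dg) f a b c d
      = ∑ G ∈ realizations n dg, (f G - f (tauG a b c d G)) ^ 2 := by
  have h' := h
  obtain ⟨hab, hac, had, hbc, hbd, hcd⟩ := h'
  unfold DD
  apply Finset.sum_congr rfl
  intro G hG
  by_cases hav : Av G a b c d
  · rw [Finset.sum_eq_single (tauG a b c d G)]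
    · rw [if_pos ((swR_iff h G _).mpr ⟨hav, rfl⟩)]
    · intro H _ hne
      rw [if_neg]
      intro hs
      exact hne ((swR_iff h G H).mp hs).2
    · intro hn
      exact absurd (tauG_mem hab hac had hbc hbd hcd hG) hn
  · rw [tauG_of_not_av a b c d hav, sub_self]
    simp only [ne_eq, OfNat.ofNat_ne_zero, not_false_eq_true, zero_pow]
    apply Finset.sum_eq_zero
    intro H _
    rw [if_neg]
    intro hs
    exact hav hs.1

/-- (F1) -/
theorem F1_graph (dg : Fin n → ℕ) (a b c d : Fin n) (h : D4 a b c d)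
    (f : SimpleGraph (Fin n) → ℝ) :
    DD (realizations n dg) f a b c d / 4
      - (NN (realizations n dg) f a b c d + NN (realizations n dg) f c d a b) / 2
      ≤ GG (realizations n dg) f a b c d := by
  have h' := h
  obtain ⟨hab, hac, had, hbc, hbd, hcd⟩ := h'
  have key := F1_graph_tau dg hab hac had hbc hbd hcd f
  have e1 : ∑ G ∈ realizations n dg, ((f G - f (tauG a b c d G)) / 2) ^ 2
      = DD (realizations n dg) f a b c d / 4 := by
    rw [DD_eq_tau dg h f, Finset.sum_div]
    apply Finset.sum_congr rfl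
    intro G _
    ring
  rw [e1] at key
  have e2 : Nq dg a b c d f = NN (realizations n dg) f a b c d := rfl
  have e3 : Nq dg c d a b f = NN (realizations n dg) f c d a b := rfl
  rw [e2, e3] at key
  have e4 : GG (realizations n dg) f a b c d = ∑ G ∈ realizations n dg,
      (f G - cE (realizations n dg) (relV {a, b}) f G) *
          (f G - cE (realizations n dg) (relV {c, d}) f G) := rfl
  rw [e4]
  linarith

end Vale.Agent.Lib.P335
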