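import Vale.Agent.Lib.P335F1.KL
import Vale.Agent.Lib.P335.Poincare

/-!
# P335 (B): the three-vertex system of a graph as a three-row 0/1 matrix

`T = {a,b,c}`.  Rows: all vertices (only the rows in `T` are used, the others vanish).  Columns:
`some j` for the vertices `j` outside `T`, and one extra column `none` whose entry in row `i` says
that the pair of `T` opposite to `i` is NOT an edge.
-/

namespace Vale.Agent.Lib.P335
open Finset
open scoped Classical

variable {n : ℕ}

/-- some edge of `x` inside `T` avoids `i` (for `T = {a,b,c}`: the pair opposite to `i` is an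
edge) -/
def oppAdj (T : Finset (Fin n)) (x : SimpleGraph (Fin n)) (i : Fin n) : Prop :=
  ∃ u ∈ T, ∃ v ∈ T, u ≠ i ∧ v ≠ i ∧ x.Adj u v

/-- the matrix of the three-vertex system -/
noncomputable def triMat (T : Finset (Fin n)) (x : SimpleGraph (Fin n)) :
    Mat (Fin n) (Option (Fin n)) :=
  fun i o => match o with
    | none => decide (i ∈ T ∧ ¬ oppAdj T x i)
    | some j => decide (i ∈ T ∧ j ∉ T ∧ x.Adj i j)

theorem triMat_none (T : Finset (Fin n)) (x : SimpleGraph (Fin n)) (i : Fin n) :
    triMat T x i none = decide (i ∈ T ∧ ¬ oppAdj T x i) := rfl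

theorem triMat_some (T : Finset (Fin n)) (x : SimpleGraph (Fin n)) (i j : Fin n) :
    triMat T x i (some j) = decide (i ∈ T ∧ j ∉ T ∧ x.Adj i j) := rfl

theorem oppAdj_iff {a b c : Fin n} (hab : a ≠ b) (hac : a ≠ c) (hbc : b ≠ c)
    (x : SimpleGraph (Fin n)) : oppAdj {a, b, c} x a ↔ x.Adj b c := by
  unfold oppAdj
  constructor
  · rintro ⟨u, hu, v, hv, hua, hva, h⟩
    simp only [mem_insert, mem_singleton] at hu hv
    rcases hu with rfl | rfl | rfl <;> rcases hv with rfl | rfl | rfl
    all_goals first
      | exact absurd rfl hua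
      | exact absurd rfl hva
      | exact absurd h (x.loopless.irrefl _)
      | exact h
      | exact h.symm
  · intro h
    exact ⟨b, by simp, c, by simp, hab.symm, hac.symm, h⟩

end Vale.Agent.Lib.P335
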