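import Vale.Agent.Lib.P335G.TriDefs

/-! # P335 (B), leaf T2: `triMat` maps a class into `Om r c`, injectively -/

namespace Vale.Agent.Lib.P335
open Finset
open scoped Classical

variable {n : ℕ}

theorem mem_Om_iff {ι κ : Type} [Fintype ι] [DecidableEq ι] [Fintype κ] [DecidableEq κ]
    {r : ι → ℕ} {c : κ → ℕ} {x : Mat ι κ} :
    x ∈ Om r c ↔ (∀ i, rowSum x i = r i) ∧ ∀ j, colSum x j = c j := by
  unfold Om
  rw [Finset.mem_filter]
  exact ⟨fun h => h.2, fun h => ⟨Finset.mem_univ _, h⟩⟩

/-! ### row and column sums of `triMat` -/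

theorem tri_toNat_decide_adj (x : SimpleGraph (Fin n)) (P : Prop) (i j : Fin n) :
    (decide (P ∧ x.Adj i j)).toNat = if P then adjInd x i j else 0 := by
  unfold adjInd
  by_cases hP : P <;> by_cases h : x.Adj i j <;> simp [hP, h]

theorem rowSum_triMat_of_not_mem (T : Finset (Fin n)) (x : SimpleGraph (Fin n)) {i : Fin n}
    (hi : i ∉ T) : rowSum (triMat T x) i = 0 := by
  unfold rowSum
  apply Finset.sum_eq_zero
  intro o _
  cases o with
  | none => simp [triMat_none, hi]
  | some j => simp [triMat_some, hi]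

theorem rowSum_triMat_of_mem (T : Finset (Fin n)) (x : SimpleGraph (Fin n)) {i : Fin n}
    (hi : i ∈ T) :
    rowSum (triMat T x) i = (decide (¬ oppAdj T x i)).toNat + ∑ j ∈ Tᶜ, adjInd x i j := by
  unfold rowSum
  rw [Fintype.sum_option]
  congr 1
  · simp [triMat_none, hi]
  · rw [← Finset.sum_add_sum_compl T]
    have h1 : ∑ j ∈ T, (triMat T x i (some j)).toNat = 0 := by
      apply Finset.sum_eq_zero
      intro j hj
      simp [triMat_some, hj]
    rw [h1, zero_add]
    apply Finset.sum_congr rfl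
    intro j hj
    have hj' : j ∉ T := Finset.mem_compl.mp hj
    unfold adjInd
    by_cases h : x.Adj i j <;> simp [triMat_some, hi, hj', h]

theorem colSum_triMat_none (T : Finset (Fin n)) (x : SimpleGraph (Fin n)) :
    colSum (triMat T x) none = ∑ i ∈ T, (decide (¬ oppAdj T x i)).toNat := by
  unfold colSum
  rw [← Finset.sum_add_sum_compl T]
  have h1 : ∑ i ∈ Tᶜ, (triMat T x i none).toNat = 0 := by
    apply Finset.sum_eq_zero
    intro i hi
    have hi' : i ∉ T := Finset.mem_compl.mp hi
    simp [triMat_none, hi']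
  rw [h1, add_zero]
  apply Finset.sum_congr rfl
  intro i hi
  simp [triMat_none, hi]

theorem colSum_triMat_some_of_mem (T : Finset (Fin n)) (x : SimpleGraph (Fin n)) {j : Fin n}
    (hj : j ∈ T) : colSum (triMat T x) (some j) = 0 := by
  unfold colSum
  apply Finset.sum_eq_zero
  intro i _
  simp [triMat_some, hj]

theorem colSum_triMat_some_of_not_mem (T : Finset (Fin n)) (x : SimpleGraph (Fin n)) {j : Fin n}
    (hj : j ∉ T) : colSum (triMat T x) (some j) = ∑ i ∈ T, adjInd x j i := by
  unfold colSum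
  rw [← Finset.sum_add_sum_compl T]
  have h1 : ∑ i ∈ Tᶜ, (triMat T x i (some j)).toNat = 0 := by
    apply Finset.sum_eq_zero
    intro i hi
    have hi' : i ∉ T := Finset.mem_compl.mp hi
    simp [triMat_some, hi']
  rw [h1, add_zero]
  apply Finset.sum_congr rfl
  intro i hi
  rw [adjInd_comm]
  unfold adjInd
  by_cases h : x.Adj i j <;> simp [triMat_some, hi, hj, h]

/-! ### what two realizations in the same class share -/

theorem relV_adjInd {T : Finset (Fin n)} {x y : SimpleGraph (Fin n)} (h : relV T x y)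
    {u v : Fin n} (hu : u ∉ T) (hv : v ∉ T) : adjInd x u v = adjInd y u v := by
  unfold adjInd
  simp only [h u v hu hv]

/-- number of neighbours in `T` of a vertex outside `T` -/
theorem sum_in_eq_of_relV {d : Fin n → ℕ} {T : Finset (Fin n)} {x y : SimpleGraph (Fin n)}
    (hx : x ∈ realizations n d) (hy : y ∈ realizations n d) (h : relV T x y) {j : Fin n}
    (hj : j ∉ T) : ∑ i ∈ T, adjInd x j i = ∑ i ∈ T, adjInd y j i := by
  have e1 := deg_eq_sum_adjInd hx T j
  have e2 := deg_eq_sum_adjInd hy T j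
  have e3 : ∑ w ∈ Tᶜ, adjInd x j w = ∑ w ∈ Tᶜ, adjInd y j w :=
    Finset.sum_congr rfl fun w hw => relV_adjInd h hj (Finset.mem_compl.mp hw)
  omega

/-- the number of (ordered) adjacent pairs inside `T` -/
theorem sum_in_in_eq_of_relV {d : Fin n → ℕ} {T : Finset (Fin n)} {x y : SimpleGraph (Fin n)}
    (hx : x ∈ realizations n d) (hy : y ∈ realizations n d) (h : relV T x y) :
    ∑ i ∈ T, ∑ j ∈ T, adjInd x i j = ∑ i ∈ T, ∑ j ∈ T, adjInd y i j := by
  have e1 : ∑ i ∈ T, d i = ∑ i ∈ T, ∑ j ∈ T, adjInd x i j + ∑ i ∈ T, ∑ j ∈ Tᶜ, adjInd x i j := by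
    rw [← Finset.sum_add_distrib]
    exact Finset.sum_congr rfl fun i _ => deg_eq_sum_adjInd hx T i
  have e2 : ∑ i ∈ T, d i = ∑ i ∈ T, ∑ j ∈ T, adjInd y i j + ∑ i ∈ T, ∑ j ∈ Tᶜ, adjInd y i j := by
    rw [← Finset.sum_add_distrib]
    exact Finset.sum_congr rfl fun i _ => deg_eq_sum_adjInd hy T i
  have e3 : ∑ i ∈ T, ∑ j ∈ Tᶜ, adjInd x i j = ∑ i ∈ T, ∑ j ∈ Tᶜ, adjInd y i j := by
    rw [Finset.sum_comm, Finset.sum_comm (s := T)]
    apply Finset.sum_congr rfl
    intro j hj
    have := sum_in_eq_of_relV hx hy h (Finset.mem_compl.mp hj)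
    simpa only [adjInd_comm _ j] using this
  omega

/-! ### the triple -/

theorem sum_triple {a b c : Fin n} (hab : a ≠ b) (hac : a ≠ c) (hbc : b ≠ c) (g : Fin n → ℕ) :
    ∑ i ∈ ({a, b, c} : Finset (Fin n)), g i = g a + g b + g c := by
  rw [Finset.sum_insert (by simp [hab, hac]), Finset.sum_insert (by simp [hbc]),
    Finset.sum_singleton]
  ring

theorem opp_a {a b c : Fin n} (hab : a ≠ b) (hac : a ≠ c) (hbc : b ≠ c)
    (x : SimpleGraph (Fin n)) :
    (decide (¬ oppAdj {a, b, c} x a)).toNat + adjInd x b c = 1 := by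
  unfold adjInd
  by_cases h : x.Adj b c <;> simp [oppAdj_iff hab hac hbc, h]

theorem opp_b {a b c : Fin n} (hab : a ≠ b) (hac : a ≠ c) (hbc : b ≠ c)
    (x : SimpleGraph (Fin n)) :
    (decide (¬ oppAdj {a, b, c} x b)).toNat + adjInd x a c = 1 := by
  have e : ({a, b, c} : Finset (Fin n)) = {b, a, c} := Finset.insert_comm a b {c}
  rw [e]
  exact opp_a hab.symm hbc hac x

theorem opp_c {a b c : Fin n} (hab : a ≠ b) (hac : a ≠ c) (hbc : b ≠ c)
    (x : SimpleGraph (Fin n)) :
    (decide (¬ oppAdj {a, b, c} x c)).toNat + adjInd x a b = 1 := by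
  have e : ({a, b, c} : Finset (Fin n)) = {c, a, b} := by
    ext v
    simp only [Finset.mem_insert, Finset.mem_singleton]
    tauto
  rw [e]
  exact opp_a hac.symm hbc.symm hab x

/-- the number of edges inside the triple is constant on the class -/
theorem tri_edges_eq {d : Fin n → ℕ} {a b c : Fin n} (hab : a ≠ b) (hac : a ≠ c) (hbc : b ≠ c)
    {x y : SimpleGraph (Fin n)} (hx : x ∈ realizations n d) (hy : y ∈ realizations n d)
    (h : relV {a, b, c} x y) :
    adjInd x a b + adjInd x a c + adjInd x b c = adjInd y a b + adjInd y a c + adjInd y b c := by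
  have e := sum_in_in_eq_of_relV hx hy h
  simp only [sum_triple hab hac hbc, adjInd_self] at e
  have x1 := adjInd_comm x b a
  have x2 := adjInd_comm x c a
  have x3 := adjInd_comm x c b
  have y1 := adjInd_comm y b a
  have y2 := adjInd_comm y c a
  have y3 := adjInd_comm y c b
  omega

theorem triMat_mem {d : Fin n → ℕ} {a b c : Fin n} (hab : a ≠ b) (hac : a ≠ c) (hbc : b ≠ c)
    {x0 y : SimpleGraph (Fin n)} (hx0 : x0 ∈ realizations n d) (hy : y ∈ realizations n d)
    (h : relV {a, b, c} x0 y) :
    triMat {a, b, c} y ∈ Om (rowSum (triMat {a, b, c} x0)) (colSum (triMat {a, b, c} x0)) := by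
  have ht := tri_edges_eq hab hac hbc hx0 hy h
  have oa0 := opp_a hab hac hbc x0
  have ob0 := opp_b hab hac hbc x0
  have oc0 := opp_c hab hac hbc x0
  have oa := opp_a hab hac hbc y
  have ob := opp_b hab hac hbc y
  have oc := opp_c hab hac hbc y
  refine mem_Om_iff.mpr ⟨?_, ?_⟩
  · intro i
    by_cases hi : i ∈ ({a, b, c} : Finset (Fin n))
    · rw [rowSum_triMat_of_mem _ _ hi, rowSum_triMat_of_mem _ _ hi]
      have d0 := deg_eq_sum_adjInd hx0 {a, b, c} i
      have d1 := deg_eq_sum_adjInd hy {a, b, c} i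
      rw [sum_triple hab hac hbc] at d0 d1
      simp only [Finset.mem_insert, Finset.mem_singleton] at hi
      have x1 := adjInd_comm x0 b a
      have x2 := adjInd_comm x0 c a
      have x3 := adjInd_comm x0 c b
      have y1 := adjInd_comm y b a
      have y2 := adjInd_comm y c a
      have y3 := adjInd_comm y c b
      rcases hi with rfl | rfl | rfl
      · rw [adjInd_self] at d0 d1
        omega
      · rw [adjInd_self] at d0 d1
        omega
      · rw [adjInd_self] at d0 d1
        omega
    · rw [rowSum_triMat_of_not_mem _ _ hi, rowSum_triMat_of_not_mem _ _ hi]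
  · intro o
    cases o with
    | none =>
      rw [colSum_triMat_none, colSum_triMat_none, sum_triple hab hac hbc,
        sum_triple hab hac hbc]
      omega
    | some j =>
      by_cases hj : j ∈ ({a, b, c} : Finset (Fin n))
      · rw [colSum_triMat_some_of_mem _ _ hj, colSum_triMat_some_of_mem _ _ hj]
      · rw [colSum_triMat_some_of_not_mem _ _ hj, colSum_triMat_some_of_not_mem _ _ hj]
        exact (sum_in_eq_of_relV hx0 hy h hj).symm

theorem triMat_some_iff {T : Finset (Fin n)} {y z : SimpleGraph (Fin n)}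
    (he : triMat T y = triMat T z) {u v : Fin n} (hu : u ∈ T) (hv : v ∉ T) :
    y.Adj u v ↔ z.Adj u v := by
  have e := congrFun (congrFun he u) (some v)
  rw [triMat_some, triMat_some, decide_eq_decide] at e
  simpa [hu, hv] using e

theorem triMat_none_iff {T : Finset (Fin n)} {y z : SimpleGraph (Fin n)}
    (he : triMat T y = triMat T z) {i : Fin n} (hi : i ∈ T) :
    oppAdj T y i ↔ oppAdj T z i := by
  have e := congrFun (congrFun he i) none
  rw [triMat_none, triMat_none, decide_eq_decide] at e
  simpa [hi, not_iff_not] using e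

theorem triMat_inj {a b c : Fin n} (hab : a ≠ b) (hac : a ≠ c) (hbc : b ≠ c)
    {y z : SimpleGraph (Fin n)} (h : relV {a, b, c} y z)
    (he : triMat {a, b, c} y = triMat {a, b, c} z) : y = z := by
  have hbc' : y.Adj b c ↔ z.Adj b c := by
    have := triMat_none_iff he (i := a) (by simp)
    rwa [oppAdj_iff hab hac hbc, oppAdj_iff hab hac hbc] at this
  have hac' : y.Adj a c ↔ z.Adj a c := by
    have e : ({a, b, c} : Finset (Fin n)) = {b, a, c} := Finset.insert_comm a b {c}
    have := triMat_none_iff he (i := b) (by simp)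
    rw [e] at this
    rwa [oppAdj_iff hab.symm hbc hac, oppAdj_iff hab.symm hbc hac] at this
  have hab' : y.Adj a b ↔ z.Adj a b := by
    have e : ({a, b, c} : Finset (Fin n)) = {c, a, b} := by
      ext v
      simp only [Finset.mem_insert, Finset.mem_singleton]
      tauto
    have := triMat_none_iff he (i := c) (by simp)
    rw [e] at this
    rwa [oppAdj_iff hac.symm hbc.symm hab, oppAdj_iff hac.symm hbc.symm hab] at this
  ext u v
  by_cases hu : u ∈ ({a, b, c} : Finset (Fin n))
  · by_cases hv : v ∈ ({a, b, c} : Finset (Fin n))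
    · simp only [Finset.mem_insert, Finset.mem_singleton] at hu hv
      rcases hu with rfl | rfl | rfl <;> rcases hv with rfl | rfl | rfl
      · simp
      · exact hab'
      · exact hac'
      · rw [y.adj_comm, z.adj_comm]; exact hab'
      · simp
      · exact hbc'
      · rw [y.adj_comm, z.adj_comm]; exact hac'
      · rw [y.adj_comm, z.adj_comm]; exact hbc'
      · simp
    · exact triMat_some_iff he hu hv
  · by_cases hv : v ∈ ({a, b, c} : Finset (Fin n))
    · rw [y.adj_comm, z.adj_comm]
      exact triMat_some_iff he hv hu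
    · exact h u v hu hv

end Vale.Agent.Lib.P335
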